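import Crest.Agent.R178.UU

/-!
# R178: short exact sequences of window modules; projective dimension; Ext into a fixed module
-/

set_option autoImplicit false

open CategoryTheory CategoryTheory.Abelian

namespace Crest.Agent.R178

/-- the window module as an object of `ModuleCat` -/
noncomputable abbrev MW (M : UMod) : ModuleCat.{0} Lam := ModuleCat.of Lam (W M)

/-- short exactness at all levels `j ≥ 0` -/
structure ExW (A B C : VMod) (f : A.X →ₗ[ℂ] B.X) (g : B.X →ₗ[ℂ] C.X) : Prop where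
  inj : ∀ j, 0 ≤ j → ∀ x ∈ A.F j, f x = 0 → x = 0
  zero : ∀ j, 0 ≤ j → ∀ x ∈ A.F j, g (f x) = 0
  exact : ∀ j, 0 ≤ j → ∀ y ∈ B.F j, g y = 0 → ∃ x ∈ A.F j, f x = y
  surj : ∀ j, 0 ≤ j → ∀ z ∈ C.F j, ∃ y ∈ B.F j, g y = z

lemma Ex.exW {A B C : VMod} {f : A.X →ₗ[ℂ] B.X} {g : B.X →ₗ[ℂ] C.X} (H : Ex A B C f g) :
    ExW A B C f g where
  inj := fun _ _ x _ => H.inj x
  zero := fun _ _ x _ => H.zero x
  exact := fun j _ => H.exact j
  surj := fun j _ => H.surj j

section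
variable {A B C : UMod} {f : A.X →ₗ[ℂ] B.X} {g : B.X →ₗ[ℂ] C.X}

lemma Wmap_zero (hf : IsU A B f) (hg : IsU B C g) (H : ExW A.toVMod B.toVMod C.toVMod f g) :
    (Wmap g hg) ∘ₗ (Wmap f hf) = 0 := by
  refine LinearMap.ext (fun w => W_ext (fun i => ?_))
  exact H.zero _ (by positivity) _ (w i).2

/-- the short complex of window modules -/
noncomputable def SC (hf : IsU A B f) (hg : IsU B C g)
    (H : ExW A.toVMod B.toVMod C.toVMod f g) : ShortComplex (ModuleCat.{0} Lam) :=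
  ShortComplex.mk (X₁ := MW A) (X₂ := MW B) (X₃ := MW C)
    (ModuleCat.ofHom (Wmap f hf)) (ModuleCat.ofHom (Wmap g hg)) (by
      rw [← ModuleCat.ofHom_comp, Wmap_zero hf hg H]
      rfl)

lemma SC_shortExact (hf : IsU A B f) (hg : IsU B C g)
    (H : ExW A.toVMod B.toVMod C.toVMod f g) : (SC hf hg H).ShortExact := by
  apply ModuleCat.shortComplex_shortExact
  · intro w
    constructor
    · intro hw
      have hw' : ∀ i : Fin 5, g (w i).1 = 0 := fun i => by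
        have := congrFun hw i
        exact congrArg Subtype.val this
      choose x hx hfx using fun i : Fin 5 => H.exact _ (by positivity) _ (w i).2 (hw' i)
      refine ⟨fun i => ⟨x i, hx i⟩, ?_⟩
      funext i
      exact Subtype.ext (hfx i)
    · rintro ⟨x, rfl⟩
      funext i
      exact Subtype.ext (H.zero _ (by positivity) _ (x i).2)
  · have : Function.Injective (Wmap f hf) := by
      refine (injective_iff_map_eq_zero (Wmap f hf)).2 ?_
      intro w hw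
      funext i
      apply Subtype.ext
      exact H.inj _ (by positivity) _ (w i).2 (congrArg Subtype.val (congrFun hw i))
    exact this
  · intro z
    choose y hy hgy using fun i : Fin 5 => H.surj _ (by positivity) _ (z i).2
    refine ⟨fun i => ⟨y i, hy i⟩, ?_⟩
    funext i
    exact Subtype.ext (hgy i)

/-- projective dimension `< n` of the window module -/
def pdLT (M : UMod) (n : ℕ) : Prop := HasProjectiveDimensionLT (MW M) n

lemma pdLT.mono {M : UMod} {n m : ℕ} (h : pdLT M n) (hnm : n ≤ m) : pdLT M m := by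
  have : HasProjectiveDimensionLT (MW M) n := h
  exact hasProjectiveDimensionLT_of_ge (MW M) n m hnm

lemma pd₁ (hf : IsU A B f) (hg : IsU B C g) (H : ExW A.toVMod B.toVMod C.toVMod f g) {n : ℕ}
    (h₂ : pdLT B n) (h₃ : pdLT C (n + 1)) : pdLT A n :=
  (SC_shortExact hf hg H).hasProjectiveDimensionLT_X₁ n h₂ h₃

lemma pd₂ (hf : IsU A B f) (hg : IsU B C g) (H : ExW A.toVMod B.toVMod C.toVMod f g) {n : ℕ}
    (h₁ : pdLT A n) (h₃ : pdLT C n) : pdLT B n :=
  (SC_shortExact hf hg H).hasProjectiveDimensionLT_X₂ n h₁ h₃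

lemma pd₃ (hf : IsU A B f) (hg : IsU B C g) (H : ExW A.toVMod B.toVMod C.toVMod f g) {n : ℕ}
    (h₁ : pdLT A n) (h₂ : pdLT B (n + 1)) : pdLT C (n + 1) :=
  (SC_shortExact hf hg H).hasProjectiveDimensionLT_X₃ n h₁ h₂

noncomputable instance : HasExt.{1} (ModuleCat.{0} Lam) := HasExt.standard _

lemma ext_zero₃ {S : ShortComplex (ModuleCat.{0} Lam)} (hS : S.ShortExact) (Y : ModuleCat.{0} Lam)
    (i : ℕ) (h₁ : ∀ x : Ext.{1} S.X₁ Y i, x = 0) (h₂ : ∀ x : Ext.{1} S.X₂ Y (i + 1), x = 0)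
    (x : Ext.{1} S.X₃ Y (i + 1)) : x = 0 := by
  obtain ⟨x₁, rfl⟩ := Ext.contravariant_sequence_exact₃ hS Y x (h₂ _) (add_comm 1 i)
  rw [h₁ x₁, Ext.comp_zero]

lemma ext_zero₁ {S : ShortComplex (ModuleCat.{0} Lam)} (hS : S.ShortExact) (Y : ModuleCat.{0} Lam)
    (i : ℕ) (h₂ : ∀ x : Ext.{1} S.X₂ Y i, x = 0) (h₃ : ∀ x : Ext.{1} S.X₃ Y (i + 1), x = 0)
    (x : Ext.{1} S.X₁ Y i) : x = 0 := by
  obtain ⟨x₂, rfl⟩ := Ext.contravariant_sequence_exact₁ hS Y x (add_comm 1 i) (h₃ _)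
  rw [h₂ x₂, Ext.comp_zero]

/-- `Ext^i(W M, Y) = 0` -/
def EZ (Y : ModuleCat.{0} Lam) (M : UMod) (i : ℕ) : Prop := ∀ x : Ext.{1} (MW M) Y i, x = 0

lemma EZ_of_pdLT (Y : ModuleCat.{0} Lam) {M : UMod} {n i : ℕ} (h : pdLT M n) (hi : n ≤ i) :
    EZ Y M i := fun x => by
  have : HasProjectiveDimensionLT (MW M) n := h
  exact x.eq_zero_of_hasProjectiveDimensionLT n hi

lemma EZ₃ (Y : ModuleCat.{0} Lam) (hf : IsU A B f) (hg : IsU B C g)
    (H : ExW A.toVMod B.toVMod C.toVMod f g) {i : ℕ}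
    (h₁ : EZ Y A i) (h₂ : EZ Y B (i + 1)) : EZ Y C (i + 1) :=
  ext_zero₃ (SC_shortExact hf hg H) Y i h₁ h₂

lemma nEZ₃ (Y : ModuleCat.{0} Lam) (hf : IsU A B f) (hg : IsU B C g)
    (H : ExW A.toVMod B.toVMod C.toVMod f g) {i : ℕ}
    (h₁ : ¬ EZ Y A i) (h₂ : EZ Y B i) : ¬ EZ Y C (i + 1) := fun h₃ =>
  h₁ (ext_zero₁ (SC_shortExact hf hg H) Y i h₂ h₃)

end

end Crest.Agent.R178
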