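import Crest.Agent.R178.GMap
import Crest.Agent.R178.Homological

/-!
# R178: the modules `P_N` (polynomials of degree `< N`), `E_N`, and the exact sequences
`0 → P_N → G(S_{N+1})(-1) → G(S_{N+1}) → E_N → 0`, `0 → P_N → E_N → P_{N+1} → 0`
-/

set_option autoImplicit false

open Polynomial

namespace Crest.Agent.R178

section poly

/-- operators on `ℂ[X]`, `ν = N - 1` -/
noncomputable def pe (ν : ℂ) : ℂ[X] →ₗ[ℂ] ℂ[X] :=
  ν • LinearMap.mulLeft ℂ (X : ℂ[X]) -
    LinearMap.mulLeft ℂ (X : ℂ[X]) ∘ₗ LinearMap.mulLeft ℂ (X : ℂ[X]) ∘ₗ derivative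

noncomputable def ph (ν : ℂ) : ℂ[X] →ₗ[ℂ] ℂ[X] :=
  (2 : ℂ) • (LinearMap.mulLeft ℂ (X : ℂ[X]) ∘ₗ derivative) - ν • LinearMap.id

/-- `v1 p = ν p - x p'` -/
noncomputable def pv (ν : ℂ) : ℂ[X] →ₗ[ℂ] ℂ[X] :=
  ν • LinearMap.id - LinearMap.mulLeft ℂ (X : ℂ[X]) ∘ₗ derivative

lemma pe_apply (ν : ℂ) (p : ℂ[X]) : pe ν p = C ν * (X * p) - X * (X * derivative p) := by
  simp [pe, smul_eq_C_mul]

lemma ph_apply (ν : ℂ) (p : ℂ[X]) : ph ν p = 2 * (X * derivative p) - C ν * p := by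
  have h2 : (C 2 : ℂ[X]) = 2 := rfl
  simp [ph, smul_eq_C_mul, h2]

lemma pv_apply (ν : ℂ) (p : ℂ[X]) : pv ν p = C ν * p - X * derivative p := by
  simp [pv, smul_eq_C_mul]

/-- polynomials of degree `< N` -/
noncomputable abbrev PX (N : ℕ) : Submodule ℂ ℂ[X] := degreeLT ℂ N

lemma mem_PX {N : ℕ} {p : ℂ[X]} : p ∈ PX N ↔ ∀ m, N ≤ m → p.coeff m = 0 := by
  rw [mem_degreeLT, degree_lt_iff_coeff_zero]

lemma pe_mem (N : ℕ) (p : ℂ[X]) (hp : p ∈ PX N) : pe ((N : ℂ) - 1) p ∈ PX N := by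
  rw [mem_PX] at hp ⊢
  intro m hm
  rw [pe_apply]
  rcases m with _ | m
  · simp
  · rcases m with _ | m
    · simp only [coeff_sub, coeff_C_mul, coeff_X_mul, coeff_X_mul_zero]
      rcases N with _ | N
      · rw [hp 0 (by omega)]; simp
      · have : N = 0 := by omega
        subst this; simp
    · simp only [coeff_sub, coeff_C_mul, coeff_X_mul, coeff_derivative]
      by_cases h : N = m + 2
      · subst h; push_cast; ring
      · rw [hp (m + 1) (by omega)]; simp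

lemma ph_mem (N : ℕ) (ν : ℂ) (p : ℂ[X]) (hp : p ∈ PX N) : ph ν p ∈ PX N := by
  rw [mem_PX] at hp ⊢
  intro m hm
  rw [ph_apply]
  have h2 : (2 : ℂ[X]) = C 2 := rfl
  rcases m with _ | m
  · rw [coeff_sub, h2, coeff_C_mul, coeff_C_mul, coeff_X_mul_zero, hp 0 hm]; simp
  · rw [coeff_sub, h2, coeff_C_mul, coeff_C_mul, coeff_X_mul, coeff_derivative, hp _ hm]; simp

lemma pd_mem' (N : ℕ) (p : ℂ[X]) (hp : p ∈ PX (N + 1)) : derivative p ∈ PX N := by
  rw [mem_PX] at hp ⊢
  intro m hm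
  rw [coeff_derivative, hp _ (by omega)]; simp

lemma PX_mono {N M : ℕ} (h : N ≤ M) (p : ℂ[X]) (hp : p ∈ PX N) : p ∈ PX M := by
  rw [mem_PX] at hp ⊢
  intro m hm
  exact hp m (by omega)

lemma pd_mem (N : ℕ) (p : ℂ[X]) (hp : p ∈ PX N) : derivative p ∈ PX N :=
  pd_mem' N p (PX_mono (by omega) p hp)

lemma pv_mem (N : ℕ) (p : ℂ[X]) (hp : p ∈ PX (N + 1)) : pv N p ∈ PX N := by
  rw [mem_PX] at hp ⊢
  intro m hm
  rw [pv_apply]
  rcases m with _ | m
  · have : N = 0 := by omega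
    subst this
    simp
  · simp only [coeff_sub, coeff_C_mul, coeff_X_mul, coeff_derivative]
    by_cases h : N = m + 1
    · subst h; push_cast; ring
    · rw [hp _ (by omega)]; simp

lemma px_mem (N : ℕ) (p : ℂ[X]) (hp : p ∈ PX N) : X * p ∈ PX (N + 1) := by
  rw [mem_PX] at hp ⊢
  intro m hm
  rcases m with _ | m
  · simp
  · rw [coeff_X_mul, hp _ (by omega)]

lemma p_he (ν : ℂ) (p : ℂ[X]) : ph ν (pe ν p) = pe ν (ph ν p) + (2 : ℂ) • pe ν p := by
  have h2 : (C 2 : ℂ[X]) = 2 := rfl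
  simp only [ph_apply, pe_apply, derivative_mul, derivative_sub, derivative_X, derivative_C,
    smul_eq_C_mul, h2, derivative_ofNat]
  ring

lemma p_hf (ν : ℂ) (p : ℂ[X]) : ph ν (derivative p) = derivative (ph ν p) -
    (2 : ℂ) • derivative p := by
  have h2 : (C 2 : ℂ[X]) = 2 := rfl
  simp only [ph_apply, derivative_mul, derivative_sub, derivative_X, derivative_C,
    smul_eq_C_mul, h2, derivative_ofNat]
  ring

lemma p_ef (ν : ℂ) (p : ℂ[X]) : pe ν (derivative p) = derivative (pe ν p) + ph ν p := by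
  simp only [ph_apply, pe_apply, derivative_mul, derivative_sub, derivative_X, derivative_C]
  ring

lemma p_hv1 (ν : ℂ) (p : ℂ[X]) : ph (ν - 1) (pv ν p) = pv ν (ph ν p) + pv ν p := by
  simp only [ph_apply, pv_apply, derivative_mul, derivative_sub, derivative_X, derivative_C,
    derivative_ofNat, C_sub, C_1]
  ring

lemma p_hv2 (ν : ℂ) (p : ℂ[X]) :
    ph (ν - 1) (-derivative p) = -derivative (ph ν p) - (-derivative p) := by
  simp only [ph_apply, derivative_mul, derivative_sub, derivative_X, derivative_C,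
    derivative_ofNat, C_sub, C_1, derivative_neg]
  ring

lemma p_ev1 (ν : ℂ) (p : ℂ[X]) : pe (ν - 1) (pv ν p) = pv ν (pe ν p) := by
  simp only [pe_apply, pv_apply, derivative_mul, derivative_sub, derivative_X, derivative_C,
    C_sub, C_1]
  ring

lemma p_ev2 (ν : ℂ) (p : ℂ[X]) :
    pe (ν - 1) (-derivative p) = -derivative (pe ν p) + pv ν p := by
  simp only [pe_apply, pv_apply, derivative_mul, derivative_sub, derivative_X, derivative_C,
    C_sub, C_1, derivative_neg]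
  ring

lemma p_fv1 (ν : ℂ) (p : ℂ[X]) :
    derivative (pv ν p) = pv ν (derivative p) + (-derivative p) := by
  simp only [pv_apply, derivative_mul, derivative_sub, derivative_X, derivative_C]
  ring

lemma p_d1 (ν : ℂ) (p : ℂ[X]) :
    pv ν ((ν + 2) • p) + pv ν (ph ν p) + (2 : ℂ) • (-derivative (pe ν p)) = 0 := by
  have h2 : (C 2 : ℂ[X]) = 2 := rfl
  simp only [ph_apply, pe_apply, pv_apply, derivative_mul, derivative_sub, derivative_X,
    derivative_C, smul_eq_C_mul, h2, derivative_ofNat, C_add, derivative_add]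
  ring

lemma p_d2 (ν : ℂ) (p : ℂ[X]) :
    -derivative ((ν + 2) • p) - (-derivative (ph ν p)) + (2 : ℂ) • (pv ν (derivative p)) = 0 := by
  have h2 : (C 2 : ℂ[X]) = 2 := rfl
  simp only [ph_apply, pv_apply, derivative_mul, derivative_sub, derivative_X,
    derivative_C, smul_eq_C_mul, h2, derivative_ofNat, C_add, derivative_add]
  ring

end poly

/-! ### restricted operators -/

noncomputable def qe (N : ℕ) : PX N →ₗ[ℂ] PX N := (pe ((N : ℂ) - 1)).restrict (pe_mem N)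
noncomputable def qh (N : ℕ) : PX N →ₗ[ℂ] PX N := (ph ((N : ℂ) - 1)).restrict (ph_mem N _)
noncomputable def qf (N : ℕ) : PX N →ₗ[ℂ] PX N :=
  (derivative : ℂ[X] →ₗ[ℂ] ℂ[X]).restrict (pd_mem N)
noncomputable def qv1 (N : ℕ) : PX (N + 1) →ₗ[ℂ] PX N := (pv (N : ℂ)).restrict (pv_mem N)
noncomputable def qv2 (N : ℕ) : PX (N + 1) →ₗ[ℂ] PX N :=
  (-derivative : ℂ[X] →ₗ[ℂ] ℂ[X]).restrict (fun p hp => Submodule.neg_mem _ (pd_mem' N p hp))

@[simp] lemma qe_coe (N : ℕ) (p : PX N) : (qe N p : ℂ[X]) = pe ((N : ℂ) - 1) p := rfl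
@[simp] lemma qh_coe (N : ℕ) (p : PX N) : (qh N p : ℂ[X]) = ph ((N : ℂ) - 1) p := rfl
@[simp] lemma qf_coe (N : ℕ) (p : PX N) : (qf N p : ℂ[X]) = derivative (p : ℂ[X]) := rfl
@[simp] lemma qv1_coe (N : ℕ) (p : PX (N + 1)) : (qv1 N p : ℂ[X]) = pv (N : ℂ) p := rfl
@[simp] lemma qv2_coe (N : ℕ) (p : PX (N + 1)) :
    (qv2 N p : ℂ[X]) = -derivative (p : ℂ[X]) := rfl

/-- constant filtration -/
def cF (X : Type) [AddCommGroup X] [Module ℂ X] (i j : ℤ) : Submodule ℂ X :=
  if i ≤ j then ⊤ else ⊥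

lemma cF_of_le {X : Type} [AddCommGroup X] [Module ℂ X] {i j : ℤ} (h : i ≤ j) :
    cF X i j = ⊤ := if_pos h

lemma cF_of_lt {X : Type} [AddCommGroup X] [Module ℂ X] {i j : ℤ} (h : j < i) :
    cF X i j = ⊥ := if_neg (by omega)

lemma cF_mono {X : Type} [AddCommGroup X] [Module ℂ X] {i j k : ℤ} (h : j ≤ k) :
    cF X i j ≤ cF X i k := by
  by_cases h1 : i ≤ j
  · rw [cF_of_le (h1.trans h)]; exact le_top
  · rw [cF_of_lt (by omega)]; exact bot_le

lemma cF_map {X Y : Type} [AddCommGroup X] [Module ℂ X] [AddCommGroup Y] [Module ℂ Y]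
    (g : X →ₗ[ℂ] Y) {i i' j j' : ℤ} (h : i ≤ j → i' ≤ j') (x : X) (hx : x ∈ cF X i j) :
    g x ∈ cF Y i' j' := by
  by_cases h1 : i ≤ j
  · rw [cF_of_le (h h1)]; trivial
  · rw [cF_of_lt (by omega), Submodule.mem_bot] at hx
    subst hx; simp

/-- `S_N` -/
noncomputable abbrev SN (N : ℕ) : SMod where
  X := PX N
  F := cF _ 0
  mono := fun j => cF_mono (by omega)
  h := qh N
  Fh := fun j x hx => cF_map _ (by omega) x hx
  e := qe N
  Fe := fun j x hx => cF_map _ (by omega) x hx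
  he := fun x => Subtype.ext (by simp [p_he])
  f := qf N
  Ff := fun j x hx => cF_map _ (by omega) x hx
  hf := fun x => Subtype.ext (by simp [p_hf])
  ef := fun x => Subtype.ext (by simp [p_ef])

/-- `P_N` -/
noncomputable abbrev PU (N : ℕ) : UMod where
  toSMod := SN N
  t := ((N : ℂ) + 1) • LinearMap.id
  v1 := 0
  v2 := 0
  Ft := fun j x hx => cF_map _ (by omega) x hx
  Fv1 := fun j x hx => by simp
  Fv2 := fun j x hx => by simp
  th := fun x => by simp
  te := fun x => by simp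
  tf := fun x => by simp
  tv1 := fun x => by simp
  tv2 := fun x => by simp
  hv1 := fun x => by simp
  hv2 := fun x => by simp
  ev1 := fun x => by simp
  ev2 := fun x => by simp
  fv1 := fun x => by simp
  fv2 := fun x => by simp
  d1 := fun x => by simp
  d2 := fun x => by simp
  v11 := fun x => by simp
  v12 := fun x => by simp
  v21 := fun x => by simp
  v22 := fun x => by simp

/-- `E_N`, an extension of `P_{N+1}` by `P_N` -/
noncomputable abbrev EU (N : ℕ) : UMod where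
  X := PX (N + 1) × PX N
  F := fun j => (cF _ 0 j).prod (cF _ (-1) j)
  mono := fun j => Submodule.prod_mono (cF_mono (by omega)) (cF_mono (by omega))
  h := (qh (N + 1)).prodMap (qh N)
  Fh := fun j x hx => ⟨cF_map (qh (N + 1)) (i' := 0) (j' := j + 1) (by omega) x.1 hx.1,
    cF_map (qh N) (i' := -1) (j' := j + 1) (by omega) x.2 hx.2⟩
  e := (qe (N + 1)).prodMap (qe N)
  Fe := fun j x hx => ⟨cF_map (qe (N + 1)) (i' := 0) (j' := j + 1) (by omega) x.1 hx.1,
    cF_map (qe N) (i' := -1) (j' := j + 1) (by omega) x.2 hx.2⟩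
  he := fun x => Prod.ext ((SN (N + 1)).he x.1) ((SN N).he x.2)
  f := (qf (N + 1)).prodMap (qf N)
  Ff := fun j x hx => ⟨cF_map (qf (N + 1)) (i' := 0) (j' := j + 1) (by omega) x.1 hx.1,
    cF_map (qf N) (i' := -1) (j' := j + 1) (by omega) x.2 hx.2⟩
  hf := fun x => Prod.ext ((SN (N + 1)).hf x.1) ((SN N).hf x.2)
  ef := fun x => Prod.ext ((SN (N + 1)).ef x.1) ((SN N).ef x.2)
  t := (((N : ℂ) + 2) • LinearMap.id).prodMap (((N : ℂ) + 1) • LinearMap.id)
  v1 := (LinearMap.inr ℂ _ _) ∘ₗ qv1 N ∘ₗ (LinearMap.fst ℂ _ _)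
  v2 := (LinearMap.inr ℂ _ _) ∘ₗ qv2 N ∘ₗ (LinearMap.fst ℂ _ _)
  Ft := fun j x hx => ⟨cF_map (((N : ℂ) + 2) • LinearMap.id) (i' := 0) (j' := j + 1) (by omega) x.1 hx.1,
    cF_map (((N : ℂ) + 1) • LinearMap.id) (i' := -1) (j' := j + 1) (by omega) x.2 hx.2⟩
  Fv1 := fun j x hx => ⟨Submodule.zero_mem _, cF_map (qv1 N) (i' := -1) (j' := j - 1) (by omega) x.1 hx.1⟩
  Fv2 := fun j x hx => ⟨Submodule.zero_mem _, cF_map (qv2 N) (i' := -1) (j' := j - 1) (by omega) x.1 hx.1⟩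
  th := fun x => by simp
  te := fun x => by simp
  tf := fun x => by simp
  tv1 := fun x => Prod.ext (by simp) (by simp; module)
  tv2 := fun x => Prod.ext (by simp) (by simp; module)
  hv1 := fun x => Prod.ext (by simp) (Subtype.ext (by
    have := p_hv1 (N : ℂ) x.1
    simpa using this))
  hv2 := fun x => Prod.ext (by simp) (Subtype.ext (by
    have := p_hv2 (N : ℂ) x.1
    simpa using this))
  ev1 := fun x => Prod.ext (by simp) (Subtype.ext (by
    have := p_ev1 (N : ℂ) x.1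
    simpa using this))
  ev2 := fun x => Prod.ext (by simp) (Subtype.ext (by
    have := p_ev2 (N : ℂ) x.1
    simpa using this))
  fv1 := fun x => Prod.ext (by simp) (Subtype.ext (by
    have := p_fv1 (N : ℂ) x.1
    simpa using this))
  fv2 := fun x => Prod.ext (by simp) (Subtype.ext (by simp))
  d1 := fun x => Prod.ext (by simp) (Subtype.ext (by
    have := p_d1 (N : ℂ) x.1
    simpa using this))
  d2 := fun x => Prod.ext (by simp) (Subtype.ext (by
    have := p_d2 (N : ℂ) x.1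
    simpa using this))
  v11 := fun x => by simp
  v12 := fun x => by simp
  v21 := fun x => by simp
  v22 := fun x => by simp

/-! ### the sequence `0 → P_N → E_N → P_{N+1} → 0` -/

lemma isU_inr (N : ℕ) : IsU (PU N) (EU N) (LinearMap.inr ℂ _ _) where
  F := fun j x hx => ⟨Submodule.zero_mem _, cF_map LinearMap.id (i' := -1) (j' := j) (by omega) x hx⟩
  h := fun x => by simp
  e := fun x => by simp
  f := fun x => by simp
  t := fun x => by simp
  v1 := fun x => by simp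
  v2 := fun x => by simp

lemma isU_fst (N : ℕ) : IsU (EU N) (PU (N + 1)) (LinearMap.fst ℂ _ _) where
  F := fun j x hx => hx.1
  h := fun x => by simp
  e := fun x => by simp
  f := fun x => by simp
  t := fun x => by
    simp only [LinearMap.fst_apply, LinearMap.prodMap_apply, LinearMap.smul_apply,
      LinearMap.id_apply]
    congr 1
    push_cast; ring
  v1 := fun x => by simp
  v2 := fun x => by simp

lemma exW_E (N : ℕ) : ExW (PU N).toVMod (EU N).toVMod (PU (N + 1)).toVMod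
    (LinearMap.inr ℂ _ _) (LinearMap.fst ℂ _ _) where
  inj := fun j _ x _ hx => congrArg Prod.snd hx
  zero := fun j _ x _ => rfl
  exact := fun j hj y hy h0 => by
    refine ⟨y.2, ?_, Prod.ext (Eq.symm h0) rfl⟩
    rw [show (PU N).F j = cF _ 0 j from rfl, cF_of_le hj]
    trivial
  surj := fun j hj z hz => ⟨(z, 0), ⟨hz, Submodule.zero_mem _⟩, rfl⟩

/-! ### the four term sequence -/

noncomputable def qx (N : ℕ) : PX N →ₗ[ℂ] PX (N + 1) :=
  (LinearMap.mulLeft ℂ (X : ℂ[X])).restrict (fun p hp => by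
    rw [LinearMap.mulLeft_apply]; exact px_mem N p hp)

noncomputable def qi (N : ℕ) : PX N →ₗ[ℂ] PX (N + 1) :=
  Submodule.inclusion (fun p hp => PX_mono (Nat.le_succ N) p hp)

@[simp] lemma qx_coe (N : ℕ) (p : PX N) : (qx N p : ℂ[X]) = X * (p : ℂ[X]) := by
  rw [qx, LinearMap.coe_restrict_apply, LinearMap.mulLeft_apply]
@[simp] lemma qi_coe (N : ℕ) (p : PX N) : (qi N p : ℂ[X]) = (p : ℂ[X]) := by
  rw [qi, Submodule.coe_inclusion]

attribute [irreducible] qx qi qe qh qf qv1 qv2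

/-- `q ↦ (q, -x q)` -/
noncomputable def kp (N : ℕ) : PX N →ₗ[ℂ] (PX (N + 1) × PX (N + 1)) :=
  (qi N).prod (-(qx N))

lemma kp_apply (N : ℕ) (q : PX N) : kp N q = (qi N q, - qx N q) := rfl

/-- `q ↦ (0, (q, -x q))` -/
noncomputable def kap (N : ℕ) : PX N →ₗ[ℂ] ((ℕ →₀ PX (N + 1)) × (PX (N + 1) × PX (N + 1))) :=
  (LinearMap.inr ℂ _ _) ∘ₗ kp N

lemma kap_apply (N : ℕ) (q : PX N) : kap N q = (0, kp N q) := rfl

lemma k1 (N : ℕ) (q : PX N) : qh (N + 1) (qi N q) - (2 : ℂ) • qf (N + 1) (qx N q) =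
    -(((N : ℂ) + 2) • qi N q) := by
  apply Subtype.ext
  have h2 : (C 2 : ℂ[X]) = 2 := rfl
  simp only [Submodule.coe_smul, qh_coe, qf_coe, Submodule.coe_neg, Submodule.coe_sub,
    qi_coe, qx_coe, ph_apply, derivative_mul, derivative_X, smul_eq_C_mul]
  push_cast
  simp only [C_add, C_sub, C_1, h2]
  ring

lemma k2 (N : ℕ) (q : PX N) : (2 : ℂ) • qe (N + 1) (qi N q) + qh (N + 1) (qx N q) =
    ((N : ℂ) + 2) • qx N q := by
  apply Subtype.ext
  have h2 : (C 2 : ℂ[X]) = 2 := rfl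
  simp only [Submodule.coe_smul, qh_coe, qe_coe, Submodule.coe_add,
    qi_coe, qx_coe, ph_apply, pe_apply, derivative_mul, derivative_X, smul_eq_C_mul]
  push_cast
  simp only [C_add, C_sub, C_1, h2]
  ring

lemma kp_om (N : ℕ) (q : PX N) :
    (SN (N + 1)).om (kp N q) = -(((N : ℂ) + 2) • (kp N q)) := by
  rw [kp_apply]
  refine Prod.ext ?_ ?_
  · have := k1 N q
    simp only [om_apply, map_neg, smul_neg]
    rw [← sub_eq_add_neg]
    exact this
  · have := k2 N q
    simp only [om_apply, map_neg, sub_neg_eq_add, Prod.smul_mk, Prod.neg_mk, smul_neg, neg_neg]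
    exact this

end Crest.Agent.R178
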