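import Crest.Agent.R178.Functors

/-!
# R178: synthetic division, `0 → M[x](-1) → M[x] → M → 0`
-/

set_option autoImplicit false

namespace Crest.Agent.R178

section
variable {A : Type} [AddCommGroup A] [Module ℂ A]

/-- quotient of `x^c m` by `x - Y` -/
noncomputable def Qd (Y : A →ₗ[ℂ] A) : ℕ → (A →ₗ[ℂ] (ℕ →₀ A))
  | 0 => 0
  | c + 1 => Finsupp.lsingle c + (Qd Y c) ∘ₗ Y

lemma theta_Qd (Y : A →ₗ[ℂ] A) (c : ℕ) (m : A) :
    theta Y (Qd Y c m) = Finsupp.single c m - Finsupp.single 0 ((Y ^ c) m) := by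
  induction c generalizing m with
  | zero => simp [Qd]
  | succ c ih =>
    simp only [Qd, LinearMap.add_apply, LinearMap.comp_apply, map_add, ih,
      Finsupp.lsingle_apply, theta_single, pow_succ, Module.End.mul_apply]
    abel

noncomputable def Qf (Y : A →ₗ[ℂ] A) : (ℕ →₀ A) →ₗ[ℂ] (ℕ →₀ A) := Finsupp.lsum ℂ (Qd Y)

@[simp] lemma Qf_single (Y : A →ₗ[ℂ] A) (c : ℕ) (m : A) :
    Qf Y (Finsupp.single c m) = Qd Y c m := by
  simp [Qf]

lemma theta_Qf (Y : A →ₗ[ℂ] A) (x : ℕ →₀ A) :
    theta Y (Qf Y x) = x - Finsupp.single 0 (evg Y LinearMap.id x) :=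
  fs_ext (f := theta Y ∘ₗ Qf Y)
    (g := LinearMap.id - Finsupp.lsingle 0 ∘ₗ evg Y LinearMap.id)
    (fun c m => by simp [theta_Qd]) x

lemma theta_apply_succ (Y : A →ₗ[ℂ] A) (x : ℕ →₀ A) (c : ℕ) :
    theta Y x (c + 1) = x c - Y (x (c + 1)) := by
  simp [theta, sh_apply_succ]

lemma theta_inj (Y : A →ₗ[ℂ] A) (x : ℕ →₀ A) (h : theta Y x = 0) : x = 0 := by
  have h1 : ∀ c, x c = Y (x (c + 1)) := fun c => by
    have := DFunLike.congr_fun h (c + 1)
    rw [theta_apply_succ] at this
    simpa [sub_eq_zero] using this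
  have h2 : ∀ n c, x c = (Y ^ n) (x (c + n)) := by
    intro n
    induction n with
    | zero => intro c; simp
    | succ n ih =>
      intro c
      rw [ih c, h1 (c + n), pow_succ, Module.End.mul_apply]
      rfl
  obtain ⟨N, hN⟩ : ∃ N, ∀ n, N ≤ n → x n = 0 := by
    refine ⟨x.support.sup id + 1, fun n hn => ?_⟩
    by_contra h0
    have := Finset.le_sup (f := id) (Finsupp.mem_support_iff.2 h0)
    simp only [id] at this
    omega
  ext c
  rw [h2 N c, hN _ (by omega)]
  simp

end

variable {M : VMod} {Y : M.X →ₗ[ℂ] M.X}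

lemma pow_mem_F (hY : ∀ j, ∀ x ∈ M.F j, Y x ∈ M.F (j + 1)) (c : ℕ) (j : ℤ) (m : M.X)
    (hm : m ∈ M.F (j - c)) : (Y ^ c) m ∈ M.F j := by
  induction c generalizing m with
  | zero => simpa using hm
  | succ c ih =>
    rw [pow_succ, Module.End.mul_apply]
    apply ih
    have := hY _ _ hm
    rwa [show j - ((c + 1 : ℕ) : ℤ) + 1 = j - c by push_cast; ring] at this

lemma isV_theta (hY : ∀ j, ∀ x ∈ M.F j, Y x ∈ M.F (j + 1)) :
    IsV (FS (M.shift 1)) (FS M) (theta Y) where
  F := fun j x hx => by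
    refine FS_le (M := M.shift 1) (theta Y) _ ?_ x hx
    intro c m hm
    rw [theta_single]
    refine Submodule.sub_mem _ (single_mem_FS ?_) (single_mem_FS ?_)
    · have hm' : m ∈ M.F (j - c - 1) := hm
      rwa [show j - ((c + 1 : ℕ) : ℤ) = j - c - 1 by push_cast; ring]
    · have := hY _ _ hm
      rwa [show j - (c : ℤ) - 1 + 1 = j - c by ring] at this

lemma isV_ev (hY : ∀ j, ∀ x ∈ M.F j, Y x ∈ M.F (j + 1)) :
    IsV (FS M) M (evg Y LinearMap.id) where
  F := fun j x hx => by
    refine FS_le (M := M) _ _ ?_ x hx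
    intro c m hm
    rw [evg_single]
    exact pow_mem_F hY c j m hm

lemma Qd_mem (hY : ∀ j, ∀ x ∈ M.F j, Y x ∈ M.F (j + 1)) (j : ℤ) (c : ℕ) (m : M.X)
    (hm : m ∈ M.F (j - c)) : Qd Y c m ∈ (FS (M.shift 1)).F j := by
  induction c generalizing m with
  | zero => exact Submodule.zero_mem _
  | succ c ih =>
    simp only [Qd, LinearMap.add_apply, LinearMap.comp_apply]
    refine Submodule.add_mem _ (single_mem_FS (M := M.shift 1) ?_) (ih _ ?_)
    · change m ∈ M.F (j - c - 1)
      rwa [show j - (c : ℤ) - 1 = j - ((c + 1 : ℕ) : ℤ) by push_cast; ring]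
    · have := hY _ _ hm
      rwa [show j - ((c + 1 : ℕ) : ℤ) + 1 = j - c by push_cast; ring] at this

/-- the basic exact sequence -/
lemma ex_theta (hY : ∀ j, ∀ x ∈ M.F j, Y x ∈ M.F (j + 1)) :
    Ex (FS (M.shift 1)) (FS M) M (theta Y) (evg Y LinearMap.id) where
  inj := theta_inj Y
  zero := fun x => fs_ext (f := evg Y LinearMap.id ∘ₗ theta Y) (g := 0) (fun c m => by
    simp [pow_succ]) x
  exact := fun j y hy h0 => by
    refine ⟨Qf Y y, ?_, ?_⟩
    · refine FS_le (M := M) (Qf Y) _ ?_ y hy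
      intro c m hm
      rw [Qf_single]
      exact Qd_mem hY j c m hm
    · rw [theta_Qf, h0]; simp
  surj := fun j z hz => ⟨Finsupp.single 0 z, single_mem_FS (by simpa using hz), by simp⟩

/-! ### equivariance -/

lemma isK_theta (M : KMod) : IsK (IH (M.toVMod.shift 1)) (IH M.toVMod) (theta M.h) :=
  { isV_theta M.Fh with
    h := fs_ext (f := theta M.h ∘ₗ sh M.X) (g := sh M.X ∘ₗ theta M.h) (fun c m => by
      simp) }

lemma isK_ev (M : KMod) : IsK (IH M.toVMod) M (evg M.h LinearMap.id) :=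
  { isV_ev M.Fh with
    h := fs_ext (f := evg M.h LinearMap.id ∘ₗ sh M.X) (g := M.h ∘ₗ evg M.h LinearMap.id)
      (fun c m => by simp [pow_succ']) }

section raw
attribute [local irreducible] theta hE hF eF sh mp

variable {A : Type} [AddCommGroup A] [Module ℂ A]

lemma theta_sh (e : A →ₗ[ℂ] A) (x : ℕ →₀ A) : theta e (sh A x) = sh A (theta e x) :=
  fs_ext (f := theta e ∘ₗ sh A) (g := sh A ∘ₗ theta e) (fun c m => by simp) x

lemma theta_hE (h e : A →ₗ[ℂ] A) (he : ∀ x, h (e x) = e (h x) + (2 : ℂ) • e x) (x : ℕ →₀ A) :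
    theta e (hE (h + (2 : ℂ) • LinearMap.id) x) = hE h (theta e x) := by
  refine fs_ext (f := theta e ∘ₗ hE (h + (2 : ℂ) • LinearMap.id))
      (g := hE h ∘ₗ theta e) (fun c m => ?_) x
  simp only [LinearMap.comp_apply, hE_single, theta_single, map_sub, map_add, map_smul,
    LinearMap.add_apply, LinearMap.smul_apply, LinearMap.id_apply, he]
  congr 2
  push_cast; module

lemma theta_hF (h f : A →ₗ[ℂ] A) (hf : ∀ x, h (f x) = f (h x) - (2 : ℂ) • f x) (x : ℕ →₀ A) :
    theta f (hF (h - (2 : ℂ) • LinearMap.id) x) = hF h (theta f x) := by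
  refine fs_ext (f := theta f ∘ₗ hF (h - (2 : ℂ) • LinearMap.id))
      (g := hF h ∘ₗ theta f) (fun c m => ?_) x
  simp only [LinearMap.comp_apply, hF_single, theta_single, map_sub, map_smul,
    LinearMap.sub_apply, LinearMap.smul_apply, LinearMap.id_apply, hf]
  congr 2
  push_cast; module

lemma theta_eF (h e f : A →ₗ[ℂ] A) (hf : ∀ x, h (f x) = f (h x) - (2 : ℂ) • f x)
    (ef : ∀ x, e (f x) = f (e x) + h x) (x : ℕ →₀ A) :
    theta f (eF (h - (2 : ℂ) • LinearMap.id) e x) = eF h e (theta f x) := by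
  refine fs_ext (f := theta f ∘ₗ eF (h - (2 : ℂ) • LinearMap.id) e)
      (g := eF h e ∘ₗ theta f) (fun c m => ?_) x
  rcases c with _ | c
  · simp only [LinearMap.comp_apply, eF_single_zero, theta_single, map_sub,
      eF_single_succ, ef, zero_add, Finsupp.single_add]
    simp
  · simp only [LinearMap.comp_apply, eF_single_succ, theta_single, map_sub, map_smul,
      map_add, ef, LinearMap.sub_apply, LinearMap.smul_apply, LinearMap.id_apply, hf,
      Finsupp.single_add, Finsupp.single_sub, smul_sub, ← Finsupp.smul_single]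
    push_cast
    module

end raw

lemma isB_theta (M : BMod) : IsB (IE (M.tw.shift 1)) (IE M.toKMod) (theta M.e) where
  F := (isV_theta M.Fe).F
  h := theta_hE M.h M.e M.he
  e := theta_sh M.e

lemma pow_e_h (M : BMod) (c : ℕ) (m : M.X) :
    M.h ((M.e ^ c) m) = (M.e ^ c) (M.h m + ((2 : ℂ) * c) • m) := by
  induction c generalizing m with
  | zero => simp
  | succ c ih =>
    rw [pow_succ, Module.End.mul_apply, Module.End.mul_apply, ih]
    congr 1
    simp only [map_add, map_smul, M.he]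
    push_cast
    module

lemma isB_ev (M : BMod) : IsB (IE M.toKMod) M (evg M.e LinearMap.id) :=
  { isV_ev M.Fe with
    e := fs_ext (f := evg M.e LinearMap.id ∘ₗ sh M.X) (g := M.e ∘ₗ evg M.e LinearMap.id)
      (fun c m => by simp [pow_succ'])
    h := fs_ext (f := evg M.e LinearMap.id ∘ₗ hE M.h) (g := M.h ∘ₗ evg M.e LinearMap.id)
      (fun c m => by
        simp only [LinearMap.comp_apply, hE_single, evg_single, LinearMap.id_apply]
        rw [pow_e_h]) }

lemma isS_theta (M : SMod) : IsS (IF (M.tw.shift 1)) (IF M.toBMod) (theta M.f) where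
  F := (isV_theta M.Ff).F
  h := theta_hF M.h M.f M.hf
  e := theta_eF M.h M.e M.f M.hf M.ef
  f := theta_sh M.f

lemma pow_f_h (M : SMod) (c : ℕ) (m : M.X) :
    M.h ((M.f ^ c) m) = (M.f ^ c) (M.h m - ((2 : ℂ) * c) • m) := by
  induction c generalizing m with
  | zero => simp
  | succ c ih =>
    rw [pow_succ, Module.End.mul_apply, Module.End.mul_apply, ih]
    congr 1
    simp only [map_sub, map_smul, M.hf]
    push_cast
    module

lemma pow_f_e (M : SMod) (c : ℕ) (m : M.X) :
    M.e ((M.f ^ (c + 1)) m) = (M.f ^ (c + 1)) (M.e m) +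
      ((c : ℂ) + 1) • (M.f ^ c) (M.h m - (c : ℂ) • m) := by
  induction c generalizing m with
  | zero => simp [M.ef]
  | succ c ih =>
    rw [pow_succ, Module.End.mul_apply, ih, M.ef, Module.End.mul_apply]
    simp only [map_sub, map_smul, map_add, M.hf, pow_succ, Module.End.mul_apply]
    push_cast
    module

lemma isS_ev (M : SMod) : IsS (IF M.toBMod) M (evg M.f LinearMap.id) :=
  { isV_ev M.Ff with
    f := fs_ext (f := evg M.f LinearMap.id ∘ₗ sh M.X) (g := M.f ∘ₗ evg M.f LinearMap.id)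
      (fun c m => by simp [pow_succ'])
    h := fs_ext (f := evg M.f LinearMap.id ∘ₗ hF M.h) (g := M.h ∘ₗ evg M.f LinearMap.id)
      (fun c m => by
        simp only [LinearMap.comp_apply, hF_single, evg_single, LinearMap.id_apply]
        rw [pow_f_h])
    e := fs_ext (f := evg M.f LinearMap.id ∘ₗ eF M.h M.e) (g := M.e ∘ₗ evg M.f LinearMap.id)
      (fun c m => by
        rcases c with _ | c
        · simp
        · simp only [LinearMap.comp_apply, eF_single_succ, evg_single, LinearMap.id_apply, map_add]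
          rw [pow_f_e, map_smul]) }

end Crest.Agent.R178
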