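import Crest.Agent.R178.FunctorG
import Crest.Agent.R178.Theta

/-!
# R178: functoriality and exactness of `G`; the map `θ_τ : G (M(-1)) → G M`
-/

set_option autoImplicit false

namespace Crest.Agent.R178

section
attribute [local irreducible] sh mp theta

/-- `G` on maps -/
noncomputable def Gm {A B : Type} [AddCommGroup A] [Module ℂ A] [AddCommGroup B] [Module ℂ B]
    (g : A →ₗ[ℂ] B) : ((ℕ →₀ A) × (A × A)) →ₗ[ℂ] ((ℕ →₀ B) × (B × B)) :=
  (mp g).prodMap (g.prodMap g)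

lemma Gm_apply {A B : Type} [AddCommGroup A] [Module ℂ A] [AddCommGroup B] [Module ℂ B]
    (g : A →ₗ[ℂ] B) (x : (ℕ →₀ A) × (A × A)) :
    Gm g x = (mp g x.1, (g x.2.1, g x.2.2)) := rfl

lemma mp_mp {A B C : Type} [AddCommGroup A] [Module ℂ A] [AddCommGroup B] [Module ℂ B]
    [AddCommGroup C] [Module ℂ C] (g : B →ₗ[ℂ] C) (f : A →ₗ[ℂ] B) (x : ℕ →₀ A) :
    mp g (mp f x) = mp (g ∘ₗ f) x := by
  ext c; simp

lemma mp_comm {A B : Type} [AddCommGroup A] [Module ℂ A] [AddCommGroup B] [Module ℂ B]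
    {g : A →ₗ[ℂ] B} {u : A →ₗ[ℂ] A} {u' : B →ₗ[ℂ] B} (h : ∀ x, g (u x) = u' (g x))
    (x : ℕ →₀ A) : mp g (mp u x) = mp u' (mp g x) := by
  ext c; simp [h]

lemma om_map {A B : SMod} {g : A.X →ₗ[ℂ] B.X} (hg : IsS A B g) (p : A.X × A.X) :
    g.prodMap g (A.om p) = B.om (g.prodMap g p) := by
  ext <;> simp [hg.h, hg.e, hg.f]

lemma om_pow_map {A B : SMod} {g : A.X →ₗ[ℂ] B.X} (hg : IsS A B g) (c : ℕ) (p : A.X × A.X) :
    g.prodMap g (((-A.om) ^ c) p) = ((-B.om) ^ c) (g.prodMap g p) := by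
  induction c generalizing p with
  | zero => simp
  | succ c ih =>
    rw [pow_succ, Module.End.mul_apply, ih, pow_succ, Module.End.mul_apply]
    congr 1
    rw [LinearMap.neg_apply, map_neg, om_map hg, LinearMap.neg_apply]

lemma w1_map {A B : SMod} {g : A.X →ₗ[ℂ] B.X} (hg : IsS A B g) (x : ℕ →₀ A.X) :
    g.prodMap g (w1 A.h A.e A.f x) = w1 B.h B.e B.f (mp g x) := by
  refine fs_ext (f := g.prodMap g ∘ₗ w1 A.h A.e A.f) (g := w1 B.h B.e B.f ∘ₗ mp g)
    (fun c m => ?_) x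
  simp only [LinearMap.comp_apply, mp_single, w1, evg_single]
  rw [om_pow_map hg]
  congr 1
  simp

lemma w2_map {A B : SMod} {g : A.X →ₗ[ℂ] B.X} (hg : IsS A B g) (x : ℕ →₀ A.X) :
    g.prodMap g (w2 A.h A.e A.f x) = w2 B.h B.e B.f (mp g x) := by
  refine fs_ext (f := g.prodMap g ∘ₗ w2 A.h A.e A.f) (g := w2 B.h B.e B.f ∘ₗ mp g)
    (fun c m => ?_) x
  simp only [LinearMap.comp_apply, mp_single, w2, evg_single]
  rw [om_pow_map hg]
  congr 1
  simp

lemma isU_Gm {A B : SMod} {g : A.X →ₗ[ℂ] B.X} (hg : IsS A B g) : IsU (G A) (G B) (Gm g) where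
  F := fun j x hx => ⟨(mp_mem hg.toIsV).F _ _ hx.1, hg.F _ _ hx.2.1, hg.F _ _ hx.2.2⟩
  h := fun x => Prod.ext (mp_comm hg.h x.1) (by
    ext <;> simp [Gm_apply, hg.h])
  e := fun x => Prod.ext (mp_comm hg.e x.1) (by
    ext <;> simp [Gm_apply, hg.e])
  f := fun x => Prod.ext (mp_comm hg.f x.1) (by
    ext <;> simp [Gm_apply, hg.f])
  t := fun x => Prod.ext (mp_sh g x.1) (by
    have := om_map hg x.2
    change g.prodMap g (-A.om x.2 - x.2) = -B.om (g.prodMap g x.2) - g.prodMap g x.2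
    rw [map_sub, map_neg, this])
  v1 := fun x => Prod.ext (by simp [Gm_apply]) (w1_map hg x.1)
  v2 := fun x => Prod.ext (by simp [Gm_apply]) (w2_map hg x.1)

lemma ex_Gm {A B C : SMod} {f : A.X →ₗ[ℂ] B.X} {g : B.X →ₗ[ℂ] C.X}
    (H : Ex A.toVMod B.toVMod C.toVMod f g) :
    Ex (G A).toVMod (G B).toVMod (G C).toVMod (Gm f) (Gm g) where
  inj := fun x hx => by
    have h1 : mp f x.1 = 0 := congrArg Prod.fst hx
    have h2 : f x.2.1 = 0 := congrArg (fun y => y.2.1) hx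
    have h3 : f x.2.2 = 0 := congrArg (fun y => y.2.2) hx
    exact Prod.ext ((ex_mp H).inj _ h1) (Prod.ext (H.inj _ h2) (H.inj _ h3))
  zero := fun x => Prod.ext ((ex_mp H).zero _) (Prod.ext (H.zero _) (H.zero _))
  exact := fun j y hy hx => by
    have h1 : mp g y.1 = 0 := congrArg Prod.fst hx
    have h2 : g y.2.1 = 0 := congrArg (fun y => y.2.1) hx
    have h3 : g y.2.2 = 0 := congrArg (fun y => y.2.2) hx
    obtain ⟨a, ha, ha'⟩ := (ex_mp H).exact _ _ hy.1 h1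
    obtain ⟨b, hb, hb'⟩ := H.exact _ _ hy.2.1 h2
    obtain ⟨c, hc, hc'⟩ := H.exact _ _ hy.2.2 h3
    exact ⟨(a, (b, c)), ⟨ha, hb, hc⟩, Prod.ext ha' (Prod.ext hb' hc')⟩
  surj := fun j z hz => by
    obtain ⟨a, ha, ha'⟩ := (ex_mp H).surj _ _ hz.1
    obtain ⟨b, hb, hb'⟩ := H.surj _ _ hz.2.1
    obtain ⟨c, hc, hc'⟩ := H.surj _ _ hz.2.2
    exact ⟨(a, (b, c)), ⟨ha, hb, hc⟩, Prod.ext ha' (Prod.ext hb' hc')⟩

/-- `θ_τ`: multiplication by `t - τ` -/
noncomputable def thetaG (M : SMod) (τ : ℂ) :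
    ((ℕ →₀ M.X) × (M.X × M.X)) →ₗ[ℂ] ((ℕ →₀ M.X) × (M.X × M.X)) :=
  (theta (τ • LinearMap.id)).prodMap (-M.om - τ • LinearMap.id)

lemma theta_mp {A : Type} [AddCommGroup A] [Module ℂ A] (τ : ℂ) (g : A →ₗ[ℂ] A) (x : ℕ →₀ A) :
    theta (τ • LinearMap.id) (mp g x) = mp g (theta (τ • LinearMap.id) x) :=
  fs_ext (f := theta (τ • LinearMap.id) ∘ₗ mp g) (g := mp g ∘ₗ theta (τ • LinearMap.id))
    (fun c m => by simp) x

lemma theta_eq {A : Type} [AddCommGroup A] [Module ℂ A] (τ : ℂ) (x : ℕ →₀ A) :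
    theta (τ • LinearMap.id) x = sh A x - τ • x :=
  fs_ext (f := theta (τ • LinearMap.id)) (g := sh A - τ • LinearMap.id)
    (fun c m => by simp) x

lemma isU_thetaG (M : SMod) (τ : ℂ) : IsU (G (M.shift 1)) (G M) (thetaG M τ) where
  F := fun j x hx => by
    refine ⟨(isV_theta (M := M.toVMod) (Y := τ • LinearMap.id) (fun j x hx => ?_)).F j x.1 hx.1, ?_⟩
    · simpa using Submodule.smul_mem _ τ (M.mono j hx)
    · have h1 : x.2 ∈ (M.F j).prod (M.F j) := by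
        have a := hx.2.1
        have b := hx.2.2
        have hj : j + 1 - 1 = j := by ring
        constructor
        · rw [← hj]; exact a
        · rw [← hj]; exact b
      have h2 := om_mem M j x.2 h1
      have h3 : x.2 ∈ (M.F (j + 1)).prod (M.F (j + 1)) := ⟨M.mono _ h1.1, M.mono _ h1.2⟩
      exact Submodule.sub_mem _ (Submodule.neg_mem _ h2) (Submodule.smul_mem _ τ h3)
  h := fun x => Prod.ext (theta_mp τ M.h x.1) (by
    have := om_hV M x.2
    change -M.om (hV M.h x.2) - τ • hV M.h x.2 = hV M.h (-M.om x.2 - τ • x.2)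
    rw [map_sub, map_neg, map_smul, this])
  e := fun x => Prod.ext (theta_mp τ M.e x.1) (by
    have := om_eV M x.2
    change -M.om (eV M.e x.2) - τ • eV M.e x.2 = eV M.e (-M.om x.2 - τ • x.2)
    rw [map_sub, map_neg, map_smul, this])
  f := fun x => Prod.ext (theta_mp τ M.f x.1) (by
    have := om_fV M x.2
    change -M.om (fV M.f x.2) - τ • fV M.f x.2 = fV M.f (-M.om x.2 - τ • x.2)
    rw [map_sub, map_neg, map_smul, this])
  t := fun x => Prod.ext (theta_sh _ x.1) (by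
    change -M.om (-M.om x.2 - x.2) - τ • (-M.om x.2 - x.2) =
      -M.om (-M.om x.2 - τ • x.2) - (-M.om x.2 - τ • x.2)
    simp only [map_sub, map_neg, map_smul]
    module)
  v1 := fun x => Prod.ext (show theta (τ • LinearMap.id) 0 = 0 from map_zero _) (by
    change -M.om (w1 M.h M.e M.f x.1) - τ • w1 M.h M.e M.f x.1 =
      w1 M.h M.e M.f (theta (τ • LinearMap.id) x.1)
    rw [theta_eq, map_sub, map_smul, w1_sh])
  v2 := fun x => Prod.ext (show theta (τ • LinearMap.id) 0 = 0 from map_zero _) (by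
    change -M.om (w2 M.h M.e M.f x.1) - τ • w2 M.h M.e M.f x.1 =
      w2 M.h M.e M.f (theta (τ • LinearMap.id) x.1)
    rw [theta_eq, map_sub, map_smul, w2_sh])

end

end Crest.Agent.R178
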