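import Crest.Agent.R178.Free
import Crest.Agent.R178.GMap

/-!
# R178: the map `Ψ_λ : N0 V → UU`, finite dimensionality of `Fil m`

`N0 V = G (IF (IE (IH V)))`.
-/

set_option autoImplicit false

namespace Crest.Agent.R178

attribute [local irreducible] sh mp theta hE hF eF evg

/-! ### universal properties -/

lemma evg_mem {V Y : VMod} {g : V.X →ₗ[ℂ] Y.X} {Z : Y.X →ₗ[ℂ] Y.X} (hg : IsV V Y g)
    (hZ : ∀ j, ∀ x ∈ Y.F j, Z x ∈ Y.F (j + 1)) : IsV (FS V) Y (evg Z g) where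
  F := fun j x hx => by
    refine FS_le (M := V) _ _ ?_ x hx
    intro c m hm
    rw [evg_single]
    exact pow_mem_F hZ c j _ (hg.F _ _ hm)

lemma evg_sh {A B : Type} [AddCommGroup A] [Module ℂ A] [AddCommGroup B] [Module ℂ B]
    (Z : B →ₗ[ℂ] B) (g : A →ₗ[ℂ] B) (x : ℕ →₀ A) : evg Z g (sh A x) = Z (evg Z g x) := by
  refine fs_ext (f := evg Z g ∘ₗ sh A) (g := Z ∘ₗ evg Z g) (fun c m => ?_) x
  simp [pow_succ']

lemma univ_H {V : VMod} {Y : KMod} {g : V.X →ₗ[ℂ] Y.X} (hg : IsV V Y.toVMod g) :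
    IsK (IH V) Y (evg Y.h g) where
  F := (evg_mem hg Y.Fh).F
  h := evg_sh Y.h g

lemma univ_E {M : KMod} {Y : BMod} {g : M.X →ₗ[ℂ] Y.X} (hg : IsK M Y.toKMod g) :
    IsB (IE M) Y (evg Y.e g) where
  F := (evg_mem hg.toIsV Y.Fe).F
  h := fun x => by
    refine fs_ext (f := evg Y.e g ∘ₗ hE M.h) (g := Y.h ∘ₗ evg Y.e g) (fun c m => ?_) x
    simp only [LinearMap.comp_apply, hE_single, evg_single]
    rw [pow_e_h, map_add, map_smul, hg.h]
  e := evg_sh Y.e g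

lemma univ_F {M : BMod} {Y : SMod} {g : M.X →ₗ[ℂ] Y.X} (hg : IsB M Y.toBMod g) :
    IsS (IF M) Y (evg Y.f g) where
  F := (evg_mem hg.toIsV Y.Ff).F
  h := fun x => by
    refine fs_ext (f := evg Y.f g ∘ₗ hF M.h) (g := Y.h ∘ₗ evg Y.f g) (fun c m => ?_) x
    simp only [LinearMap.comp_apply, hF_single, evg_single]
    rw [pow_f_h, map_sub, map_smul, hg.h]
  e := fun x => by
    refine fs_ext (f := evg Y.f g ∘ₗ eF M.h M.e) (g := Y.e ∘ₗ evg Y.f g) (fun c m => ?_) x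
    rcases c with _ | c
    · simp [hg.e]
    · simp only [LinearMap.comp_apply, eF_single_succ, evg_single, map_add]
      rw [pow_f_e, map_smul, map_sub, map_smul, hg.e, hg.h, map_smul]
  f := evg_sh Y.f g

/-- `(a,b) ↦ v1 (g a) + v2 (g b)` -/
noncomputable def gB {A : Type} [AddCommGroup A] [Module ℂ A] (Y : UMod) (g : A →ₗ[ℂ] Y.X) :
    (A × A) →ₗ[ℂ] Y.X := (Y.v1 ∘ₗ g).coprod (Y.v2 ∘ₗ g)

noncomputable def gG {A : Type} [AddCommGroup A] [Module ℂ A] (Y : UMod) (g : A →ₗ[ℂ] Y.X) :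
    ((ℕ →₀ A) × (A × A)) →ₗ[ℂ] Y.X := (evg Y.t g).coprod (gB Y g)

lemma gB_apply {A : Type} [AddCommGroup A] [Module ℂ A] (Y : UMod) (g : A →ₗ[ℂ] Y.X)
    (p : A × A) : gB Y g p = Y.v1 (g p.1) + Y.v2 (g p.2) := rfl

lemma gG_apply {A : Type} [AddCommGroup A] [Module ℂ A] (Y : UMod) (g : A →ₗ[ℂ] Y.X)
    (x : (ℕ →₀ A) × (A × A)) : gG Y g x = evg Y.t g x.1 + gB Y g x.2 := rfl

section
variable {M : SMod} {Y : UMod} {g : M.X →ₗ[ℂ] Y.X}

lemma gB_om (hg : IsS M Y.toSMod g) (p : M.X × M.X) :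
    gB Y g (-M.om p) = Y.t (gB Y g p) + gB Y g p := by
  have h1 := Y.d1 (g p.1)
  have h2 := Y.d2 (g p.2)
  simp only [gB_apply, om_apply, Prod.fst_neg, Prod.snd_neg, map_add, map_sub, map_neg, map_smul,
    hg.h, hg.e, hg.f, Y.tv1, Y.tv2]
  have h3 : Y.v1 (Y.t (g p.1)) = -(Y.v1 (Y.h (g p.1))) - (2 : ℂ) • Y.v2 (Y.e (g p.1)) := by
    rw [eq_sub_iff_add_eq, eq_neg_iff_add_eq_zero, ← h1]; abel
  have h4 : Y.v2 (Y.t (g p.2)) = Y.v2 (Y.h (g p.2)) - (2 : ℂ) • Y.v1 (Y.f (g p.2)) := by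
    rw [eq_sub_iff_add_eq, ← sub_eq_zero, ← h2]; abel
  rw [h3, h4]
  module

lemma gB_om_pow (hg : IsS M Y.toSMod g) (c : ℕ) (p : M.X × M.X) :
    gB Y g (((-M.om) ^ c) p) = ((Y.t + 1 : Module.End ℂ Y.X) ^ c) (gB Y g p) := by
  induction c generalizing p with
  | zero => simp
  | succ c ih =>
    rw [pow_succ, Module.End.mul_apply, ih, pow_succ, Module.End.mul_apply, LinearMap.neg_apply,
      gB_om hg]
    simp

lemma v1_t_pow (Y : UMod) (c : ℕ) (y : Y.X) :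
    Y.v1 ((Y.t ^ c) y) = ((Y.t + 1 : Module.End ℂ Y.X) ^ c) (Y.v1 y) := by
  induction c generalizing y with
  | zero => simp
  | succ c ih =>
    rw [pow_succ, Module.End.mul_apply, ih, pow_succ, Module.End.mul_apply]
    congr 1
    simp [Y.tv1]

lemma v2_t_pow (Y : UMod) (c : ℕ) (y : Y.X) :
    Y.v2 ((Y.t ^ c) y) = ((Y.t + 1 : Module.End ℂ Y.X) ^ c) (Y.v2 y) := by
  induction c generalizing y with
  | zero => simp
  | succ c ih =>
    rw [pow_succ, Module.End.mul_apply, ih, pow_succ, Module.End.mul_apply]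
    congr 1
    simp [Y.tv2]

lemma pow_comm' {B : Type} [AddCommGroup B] [Module ℂ B] (t u : B →ₗ[ℂ] B)
    (h : ∀ x, t (u x) = u (t x)) (c : ℕ) (x : B) : (t ^ c) (u x) = u ((t ^ c) x) := by
  induction c generalizing x with
  | zero => simp
  | succ c ih => rw [pow_succ, Module.End.mul_apply, h, ih, Module.End.mul_apply]

lemma evg_t_comm (Y : UMod) {A : Type} [AddCommGroup A] [Module ℂ A] (g : A →ₗ[ℂ] Y.X)
    (u : A →ₗ[ℂ] A) (w : Y.X →ₗ[ℂ] Y.X) (hu : ∀ x, g (u x) = w (g x))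
    (hw : ∀ x, Y.t (w x) = w (Y.t x)) (x : ℕ →₀ A) :
    evg Y.t g (mp u x) = w (evg Y.t g x) := by
  refine fs_ext (f := evg Y.t g ∘ₗ mp u) (g := w ∘ₗ evg Y.t g) (fun c m => ?_) x
  simp only [LinearMap.comp_apply, mp_single, evg_single]
  rw [hu, pow_comm' _ _ hw]

lemma univ_G (hg : IsS M Y.toSMod g) : IsU (G M) Y (gG Y g) where
  F := fun j x hx => by
    rw [gG_apply, gB_apply]
    refine Submodule.add_mem _ ((evg_mem hg.toIsV Y.Ft).F _ _ hx.1) (Submodule.add_mem _ ?_ ?_)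
    · have := Y.Fv1 _ _ (hg.F _ _ hx.2.1)
      rwa [show j + 1 - 1 = j by ring] at this
    · have := Y.Fv2 _ _ (hg.F _ _ hx.2.2)
      rwa [show j + 1 - 1 = j by ring] at this
  h := fun x => by
    have h1 := evg_t_comm Y g M.h Y.h hg.h Y.th x.1
    change evg Y.t g (mp M.h x.1) + gB Y g (hV M.h x.2) = Y.h (evg Y.t g x.1 + gB Y g x.2)
    rw [h1, map_add]
    simp only [gB_apply, hV_apply, map_add, map_sub, hg.h, Y.hv1, Y.hv2]
  e := fun x => by
    have h1 := evg_t_comm Y g M.e Y.e hg.e Y.te x.1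
    change evg Y.t g (mp M.e x.1) + gB Y g (eV M.e x.2) = Y.e (evg Y.t g x.1 + gB Y g x.2)
    rw [h1, map_add]
    simp only [gB_apply, eV_apply, map_add, hg.e, Y.ev1, Y.ev2]
    abel
  f := fun x => by
    have h1 := evg_t_comm Y g M.f Y.f hg.f Y.tf x.1
    change evg Y.t g (mp M.f x.1) + gB Y g (fV M.f x.2) = Y.f (evg Y.t g x.1 + gB Y g x.2)
    rw [h1, map_add]
    simp only [gB_apply, fV_apply, map_add, hg.f, Y.fv1, Y.fv2]
    abel
  t := fun x => by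
    change evg Y.t g (sh M.X x.1) + gB Y g (-M.om x.2 - x.2) = Y.t (evg Y.t g x.1 + gB Y g x.2)
    rw [evg_sh, map_sub, gB_om hg, map_add]
    abel
  v1 := fun x => by
    change evg Y.t g 0 + gB Y g (w1 M.h M.e M.f x.1) = Y.v1 (evg Y.t g x.1 + gB Y g x.2)
    rw [map_zero, zero_add, map_add, gB_apply Y g x.2, map_add, Y.v11, Y.v12, add_zero, add_zero]
    refine fs_ext (f := gB Y g ∘ₗ w1 M.h M.e M.f) (g := Y.v1 ∘ₗ evg Y.t g) (fun c m => ?_) x.1
    simp only [LinearMap.comp_apply, w1, evg_single]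
    rw [gB_om_pow hg, v1_t_pow]
    congr 1
    simp [gB_apply]
  v2 := fun x => by
    change evg Y.t g 0 + gB Y g (w2 M.h M.e M.f x.1) = Y.v2 (evg Y.t g x.1 + gB Y g x.2)
    rw [map_zero, zero_add, map_add, gB_apply Y g x.2, map_add, Y.v21, Y.v22, add_zero, add_zero]
    refine fs_ext (f := gB Y g ∘ₗ w2 M.h M.e M.f) (g := Y.v2 ∘ₗ evg Y.t g) (fun c m => ?_) x.1
    simp only [LinearMap.comp_apply, w2, evg_single]
    rw [gB_om_pow hg, v2_t_pow]
    congr 1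
    simp [gB_apply]

end

/-! ### `N0` -/

noncomputable abbrev N0 (V : VMod) : UMod := G (IF (IE (IH V)))

/-- the extension of `g : V → Y` to `N0 V → Y` -/
noncomputable def ext0 {V : VMod} (Y : UMod) (g : V.X →ₗ[ℂ] Y.X) : (N0 V).X →ₗ[ℂ] Y.X :=
  gG Y (evg Y.f (evg Y.e (evg Y.h g)))

lemma isU_ext0 {V : VMod} {Y : UMod} {g : V.X →ₗ[ℂ] Y.X} (hg : IsV V Y.toVMod g) :
    IsU (N0 V) Y (ext0 Y g) :=
  univ_G (univ_F (univ_E (univ_H hg)))

/-- `v ↦ 1 ⊗ v` -/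
noncomputable def un (V : VMod) : V.X →ₗ[ℂ] (N0 V).X :=
  LinearMap.inl ℂ _ _ ∘ₗ Finsupp.lsingle 0 ∘ₗ Finsupp.lsingle 0 ∘ₗ Finsupp.lsingle 0 ∘ₗ
    Finsupp.lsingle 0

lemma ext0_un {V : VMod} (Y : UMod) (g : V.X →ₗ[ℂ] Y.X) (v : V.X) :
    ext0 Y g (un V v) = g v := by
  simp [ext0, un, gG_apply]

/-! ### uniqueness -/

lemma shift_ext {A B : Type} [AddCommGroup A] [Module ℂ A] [AddCommGroup B] [Module ℂ B]
    (g : (ℕ →₀ A) →ₗ[ℂ] B) (Z : B →ₗ[ℂ] B) (h : ∀ x, g (sh A x) = Z (g x))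
    (h0 : ∀ m, g (Finsupp.single 0 m) = 0) (x : ℕ →₀ A) : g x = 0 := by
  refine fs_ext (f := g) (g := 0) (fun c m => ?_) x
  induction c with
  | zero => exact h0 m
  | succ c ih =>
    have := h (Finsupp.single c m)
    rw [sh_single, ih] at this
    simpa using this

lemma G_ext {M : SMod} {Y : UMod} {g : (G M).X →ₗ[ℂ] Y.X} (hg : CommU (G M) Y g)
    (h0 : ∀ m : M.X, g (Finsupp.single 0 m, 0) = 0) (x : (G M).X) : g x = 0 := by
  have h1 : ∀ φ : ℕ →₀ M.X, g (φ, 0) = 0 := by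
    refine shift_ext (g ∘ₗ LinearMap.inl ℂ _ _) Y.t (fun x => ?_) h0
    have := hg.t (x, 0)
    rw [show (G M).t (x, 0) = (sh M.X x, 0) from
      Prod.ext rfl (by change -M.om 0 - 0 = 0; simp)] at this
    exact this
  have h2 : ∀ a : M.X, g (0, (a, 0)) = 0 := fun a => by
    have := hg.v1 (Finsupp.single 0 a, 0)
    rw [h0, map_zero] at this
    rw [← this]
    congr 1
    refine Prod.ext rfl ?_
    change (a, 0) = w1 M.h M.e M.f (Finsupp.single 0 a)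
    simp [w1]
  have h3 : ∀ b : M.X, g (0, (0, b)) = 0 := fun a => by
    have := hg.v2 (Finsupp.single 0 a, 0)
    rw [h0, map_zero] at this
    rw [← this]
    congr 1
    refine Prod.ext rfl ?_
    change (0, a) = w2 M.h M.e M.f (Finsupp.single 0 a)
    simp [w2]
  have : x = (x.1, 0) + (0, (x.2.1, 0)) + (0, (0, x.2.2)) := by
    refine Prod.ext ?_ (Prod.ext ?_ ?_) <;> simp
  rw [this, map_add, map_add, h1, h2, h3]
  simp

lemma N0_ext {V : VMod} {Y : UMod} {g : (N0 V).X →ₗ[ℂ] Y.X} (hg : CommU (N0 V) Y g)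
    (h0 : ∀ v : V.X, g (un V v) = 0) (x : (N0 V).X) : g x = 0 := by
  refine G_ext hg (fun m => ?_) x
  refine shift_ext (g ∘ₗ LinearMap.inl ℂ _ _ ∘ₗ Finsupp.lsingle 0) Y.f (fun x => ?_) (fun m => ?_) m
  · have := hg.f (Finsupp.single 0 x, 0)
    rw [show (N0 V).f (Finsupp.single 0 x, 0) = (Finsupp.single 0 (sh _ x), 0) from
      Prod.ext (mp_single _ _ _) (by change fV _ 0 = 0; simp)] at this
    exact this
  refine shift_ext (g ∘ₗ LinearMap.inl ℂ _ _ ∘ₗ Finsupp.lsingle 0 ∘ₗ Finsupp.lsingle 0) Y.e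
    (fun x => ?_) (fun m => ?_) m
  · have := hg.e (Finsupp.single 0 (Finsupp.single 0 x), 0)
    rw [show (N0 V).e (Finsupp.single 0 (Finsupp.single 0 x), 0) =
      (Finsupp.single 0 (Finsupp.single 0 (sh _ x)), 0) from
      Prod.ext ((mp_single _ _ _).trans (by rw [show (IF (IE (IH V))).e (Finsupp.single 0 x) =
        Finsupp.single 0 (sh _ x) from eF_single_zero _ _ _]))
      (by change eV _ 0 = 0; simp)] at this
    exact this
  refine shift_ext (g ∘ₗ LinearMap.inl ℂ _ _ ∘ₗ Finsupp.lsingle 0 ∘ₗ Finsupp.lsingle 0 ∘ₗ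
    Finsupp.lsingle 0) Y.h (fun x => ?_) (fun m => ?_) m
  · have := hg.h (Finsupp.single 0 (Finsupp.single 0 (Finsupp.single 0 x)), 0)
    rw [show (N0 V).h (Finsupp.single 0 (Finsupp.single 0 (Finsupp.single 0 x)), 0) =
      (Finsupp.single 0 (Finsupp.single 0 (Finsupp.single 0 (sh _ x))), 0) from
      Prod.ext ((mp_single _ _ _).trans (by
        rw [show (IF (IE (IH V))).h (Finsupp.single 0 (Finsupp.single 0 x)) =
          Finsupp.single 0 (Finsupp.single 0 (sh _ x)) from by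
            refine (hF_single _ _ _).trans ?_
            rw [show (IE (IH V)).h (Finsupp.single 0 x) = Finsupp.single 0 (sh _ x) from by
              refine (hE_single _ _ _).trans ?_
              simp]
            simp]))
      (by change hV _ 0 = 0; simp)] at this
    exact this
  · exact h0 m

lemma un_mem {V : VMod} {j : ℤ} {v : V.X} (hv : v ∈ V.F j) : un V v ∈ (N0 V).F j := by
  refine ⟨?_, Submodule.zero_mem _, Submodule.zero_mem _⟩
  have h0 : j - ((0 : ℕ) : ℤ) = j := by simp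
  refine single_mem_FS (M := FS (FS (FS V))) ?_
  rw [h0]
  refine single_mem_FS (M := FS (FS V)) ?_
  rw [h0]
  refine single_mem_FS (M := FS V) ?_
  rw [h0]
  refine single_mem_FS (M := V) ?_
  rw [h0]
  exact hv

theorem isFree_N0 (V : VMod) : IsFree V (N0 V) (un V) where
  um := ⟨fun _ _ hx => un_mem hx⟩
  ex := fun Y g hg => ⟨ext0 Y g, isU_ext0 hg, ext0_un Y g⟩
  uniq := fun _ _ hg h0 => N0_ext hg h0

end Crest.Agent.R178
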