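import Crest.Agent.R178.Free
import Crest.Agent.R178.Psi
import Crest.Agent.R178.PN
import Crest.Agent.R178.Homological

/-!
# R178: finite dimensionality of `Lam`, the simple module `S4`, Hom computations, level 0
-/

set_option autoImplicit false

open CategoryTheory CategoryTheory.Abelian

namespace Crest.Agent.R178

/-! ### finite dimensionality -/

lemma FD_FS {M : VMod} (h : ∀ j, Module.Finite ℂ (M.F j)) (j0 : ℤ)
    (hb : ∀ j, j < j0 → ∀ x ∈ M.F j, x = 0) : ∀ j, Module.Finite ℂ ((FS M).F j) := by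
  intro j
  let n := (j - j0 + 1).toNat
  let φ : (FS M).F j →ₗ[ℂ] ((c : Fin n) → M.F (j - (c : ℕ))) :=
    { toFun := fun x c => ⟨x.1 c, x.2 c⟩
      map_add' := fun x y => rfl
      map_smul' := fun r x => rfl }
  have hφ : Function.Injective φ := by
    intro x y hxy
    apply Subtype.ext
    ext c
    by_cases hc : c < n
    · exact congrArg Subtype.val (congrFun hxy ⟨c, hc⟩)
    · have hlt : j - (c : ℤ) < j0 := by omega
      rw [hb _ hlt _ (x.2 c), hb _ hlt _ (y.2 c)]
  have : ∀ c : Fin n, Module.Finite ℂ (M.F (j - (c : ℕ))) := fun c => h _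
  exact Module.Finite.of_injective φ hφ

lemma FS_bot {M : VMod} (j0 : ℤ)
    (hb : ∀ j, j < j0 → ∀ x ∈ M.F j, x = 0) : ∀ j, j < j0 → ∀ x ∈ (FS M).F j, x = 0 := by
  intro j hj x hx
  ext c
  exact hb _ (by omega) _ (hx c)

lemma FD_N0 {V : VMod} (h : ∀ j, Module.Finite ℂ (V.F j)) (j0 : ℤ)
    (hb : ∀ j, j < j0 → ∀ x ∈ V.F j, x = 0) (j : ℤ) : Module.Finite ℂ ((N0 V).F j) := by
  have h3 := FD_FS (FD_FS (FD_FS h j0 hb) j0 (FS_bot j0 hb)) j0 (FS_bot j0 (FS_bot j0 hb))
  have b3 := FS_bot j0 (FS_bot j0 (FS_bot j0 hb))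
  have h4 := FD_FS h3 j0 b3
  let φ : (N0 V).F j →ₗ[ℂ] ((FS (FS (FS (FS V)))).F j) × (((FS (FS (FS V))).F (j + 1)) ×
      ((FS (FS (FS V))).F (j + 1))) :=
    { toFun := fun x => (⟨x.1.1, x.2.1⟩, (⟨x.1.2.1, x.2.2.1⟩, ⟨x.1.2.2, x.2.2.2⟩))
      map_add' := fun x y => rfl
      map_smul' := fun r x => rfl }
  have hφ : Function.Injective φ := by
    intro x y hxy
    apply Subtype.ext
    refine Prod.ext ?_ (Prod.ext ?_ ?_)
    · exact congrArg (fun z => z.1.1) hxy
    · exact congrArg (fun z => z.2.1.1) hxy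
    · exact congrArg (fun z => z.2.2.1) hxy
  have i1 := h4 j
  have i2 := h3 (j + 1)
  exact Module.Finite.of_injective φ hφ

/-- constant filtered vector space -/
noncomputable abbrev cV (X : Type) [AddCommGroup X] [Module ℂ X] (i : ℤ) : VMod where
  X := X
  F := cF X i
  mono := fun j => cF_mono (by omega)

lemma cV_const (X : Type) [AddCommGroup X] [Module ℂ X] (i : ℤ) : IsConst (cV X i) i where
  top := fun j hj x => by
    change x ∈ cF X i j
    rw [cF_of_le hj]; trivial
  bot := fun j hj x hx => by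
    have hx' : x ∈ cF X i j := hx
    rwa [cF_of_lt hj, Submodule.mem_bot] at hx'

lemma IsConst.finite {V : VMod} {i : ℤ} (_h : IsConst V i) [Module.Finite ℂ V.X] (j : ℤ) :
    Module.Finite ℂ (V.F j) := inferInstance

instance Lam_finite : FiniteDimensional ℂ Lam := by
  have hfree := isFree_N0 (cV ℂ 0)
  have hc := cV_const ℂ 0
  obtain ⟨g, hg, hgu⟩ := hfree.ex (UUm.shift ((0 : Fin 5) : ℕ))
    (gk (Module.Basis.singleton Unit ℂ) ()) (isV_gk (V := cV ℂ 0) _ 0 hc ())
  have hg' : IsU (N0 (cV ℂ 0)) UUm g :=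
    { h := hg.h, e := hg.e, f := hg.f, t := hg.t, v1 := hg.v1, v2 := hg.v2
      F := fun j x hx => by
        have := hg.F j x hx
        have h2 : g x ∈ Fil (j - ((0 : Fin 5) : ℕ)) := this
        simpa using h2 }
  refine Lam_finite_of (N0 (cV ℂ 0)) (un (cV ℂ 0) (1 : ℂ))
    (hfree.um.F 0 _ (hc.top 0 le_rfl _)) g hg' ?_ (fun m => ?_)
  · refine (hgu (1 : ℂ)).trans ?_
    rw [gk_apply]
    simp
  · have : ∀ j, Module.Finite ℂ ((cV ℂ 0).F j) := fun j => by
      have : Module.Finite ℂ (cV ℂ 0).X := inferInstanceAs (Module.Finite ℂ ℂ)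
      exact hc.finite j
    exact FD_N0 this 0 (fun j hj => hc.bot j hj) m

/-! ### the simple module at vertex 4 -/

noncomputable abbrev S4 : UMod where
  toVMod := cV ℂ 4
  h := 0
  Fh := fun j x hx => by simp
  e := 0
  Fe := fun j x hx => by simp
  he := fun x => by simp
  f := 0
  Ff := fun j x hx => by simp
  hf := fun x => by simp
  ef := fun x => by simp
  t := 0
  v1 := 0
  v2 := 0
  Ft := fun j x hx => by simp
  Fv1 := fun j x hx => by simp
  Fv2 := fun j x hx => by simp
  th := fun x => by simp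
  te := fun x => by simp
  tf := fun x => by simp
  tv1 := fun x => by simp
  tv2 := fun x => by simp
  hv1 := fun x => by simp
  hv2 := fun x => by simp
  ev1 := fun x => by simp
  ev2 := fun x => by simp
  fv1 := fun x => by simp
  fv2 := fun x => by simp
  d1 := fun x => by simp
  d2 := fun x => by simp
  v11 := fun x => by simp
  v12 := fun x => by simp
  v21 := fun x => by simp
  v22 := fun x => by simp

/-- the idempotent of vertex `i` -/
noncomputable def eps (i : Fin 5) : Lam :=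
  ⟨Matrix.of fun l m => if l = i ∧ m = i then 1 else 0, fun l m => by
    rw [Matrix.of_apply]
    split_ifs with h
    · rw [h.1, h.2, sub_self]; exact Fil_one
    · exact Submodule.zero_mem _⟩

lemma eps_apply (i l m : Fin 5) : (eps i).1 l m = if l = i ∧ m = i then 1 else 0 := rfl

lemma eps_smul_self (M : UMod) (i : Fin 5) (w : W M) : ((eps i • w) i).1 = (w i).1 := by
  rw [smul_W_apply, Finset.sum_eq_single i]
  · rw [eps_apply, if_pos ⟨rfl, rfl⟩]; simp
  · intro j _ hj
    rw [eps_apply, if_neg (fun h => hj h.2)]; simp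
  · simp

lemma eps_smul_ne (M : UMod) (i l : Fin 5) (w : W M) (h : l ≠ i) : ((eps i • w) l).1 = 0 := by
  rw [smul_W_apply]
  refine Finset.sum_eq_zero (fun j _ => ?_)
  rw [eps_apply, if_neg (fun h' => h h'.1)]; simp

/-- element concentrated at vertex `i` -/
noncomputable def at' (M : UMod) (i : Fin 5) (x : M.X) (hx : x ∈ M.F (i : ℕ)) : W M :=
  fun l => if h : l = i then ⟨x, by rw [h]; exact hx⟩ else 0

lemma at'_self (M : UMod) (i : Fin 5) (x : M.X) (hx : x ∈ M.F (i : ℕ)) :
    (at' M i x hx i).1 = x := by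
  simp [at']

lemma at'_ne (M : UMod) (i l : Fin 5) (x : M.X) (hx : x ∈ M.F (i : ℕ)) (h : l ≠ i) :
    (at' M i x hx l).1 = 0 := by
  simp [at', h]

section free
variable {V : VMod} {Y0 : UMod} {u : V.X →ₗ[ℂ] Y0.X} {ι : Type} [Fintype ι]
  (b : Module.Basis ι ℂ V.X) (i : Fin 5) (hF : IsFree V Y0 u) (hV : IsConst V (i : ℕ))

lemma prj_eq_sum (A : ι → Lam) : prj b i hF hV A =
    ∑ k, A k • at' Y0 i (u (b k)) (hF.um.F _ _ (hV.top _ le_rfl (b k))) := by
  apply W_ext
  intro l
  have hsum : ∀ (s : Finset ι) (g : ι → W Y0), ((∑ k ∈ s, g k) l).1 = ∑ k ∈ s, (g k l).1 := by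
    classical
    intro s g
    induction s using Finset.induction_on with
    | empty => simp
    | insert a s ha ih => rw [Finset.sum_insert ha, Finset.sum_insert ha, W_add, ih]
  rw [prj_apply, hsum]
  refine Finset.sum_congr rfl (fun k _ => ?_)
  rw [smul_W_apply, Finset.sum_eq_single i]
  · rw [at'_self]
  · intro j _ hj
    rw [at'_ne _ _ _ _ _ hj, map_zero]
  · simp

include b hF hV in
lemma hom_S4_zero (hi : i ≠ 4) (g : W Y0 →ₗ[Lam] W S4) : g = 0 := by
  refine LinearMap.ext (fun w => ?_)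
  rw [← prj_incl b i hF hV w, prj_eq_sum, map_sum]
  refine Finset.sum_eq_zero (fun k _ => ?_)
  rw [map_smul]
  set U := at' Y0 i (u (b k)) (hF.um.F _ _ (hV.top _ le_rfl (b k))) with hU
  have h1 : eps i • U = U := by
    apply W_ext
    intro l
    by_cases hl : l = i
    · subst hl; exact eps_smul_self _ _ _
    · rw [eps_smul_ne _ _ _ _ hl, hU, at'_ne _ _ _ _ _ hl]
  have h2 : g U = 0 := by
    rw [← h1, map_smul]
    apply W_ext
    intro l
    by_cases hl : l = i
    · subst hl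
      rw [eps_smul_self]
      have h3 : ((l : ℕ) : ℤ) < 4 := by
        have := l.2
        have h4 : (l : ℕ) ≠ 4 := fun h => hi (Fin.ext h)
        omega
      exact (cV_const ℂ 4).bot _ h3 _ (g U l).2
    · rw [eps_smul_ne _ _ _ _ hl]; rfl
  rw [h2, smul_zero]

include b hF hV in
lemma EZ_free (hi : i ≠ 4) : EZ (MW S4) Y0 0 := by
  intro x
  obtain ⟨f, rfl⟩ := (Ext.mk₀_bijective _ _).2 x
  have : f = 0 := by
    ext1
    exact hom_S4_zero b i hF hV hi f.hom
  rw [this, Ext.mk₀_zero]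

include b hF in
lemma nEZ_free (hV : IsConst V 4) (k : ι) : ¬ EZ (MW S4) Y0 0 := by
  intro h
  have hcoord : IsV V S4.toVMod (b.coord k) :=
    { F := fun j x hx => by
        by_cases hj : 4 ≤ j
        · exact (cV_const ℂ 4).top j hj _
        · rw [hV.bot j (by omega) x hx, map_zero]; exact Submodule.zero_mem _ }
  obtain ⟨g, hg, hgu⟩ := hF.ex S4 (b.coord k) hcoord
  have h1 := h (Ext.mk₀ (ModuleCat.ofHom (Wmap g hg)))
  have h1' := (Ext.mk₀_eq_zero_iff _).1 h1
  have h2 : Wmap g hg = 0 := by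
    have := congrArg ModuleCat.Hom.hom h1'
    simpa using this
  have hmem : u (b k) ∈ Y0.F ((4 : Fin 5) : ℕ) := hF.um.F _ _ (hV.top _ le_rfl (b k))
  have h3 := congrArg (fun φ : W Y0 →ₗ[Lam] W S4 => (φ (at' Y0 4 (u (b k)) hmem) 4).1) h2
  simp only [Wmap_apply, at'_self, hgu] at h3
  simp at h3

end free

end Crest.Agent.R178
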