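import Mathlib

/-!
# R178 (statement S0268): the finitistic dimension conjecture fails over `ℂ`

Basic definitions.  See `Crest/Agent/R178/README.md` for the plan.

`UU = ℂ⟨t,h,e,f,v1,v2⟩ / (20 relations)`.
`VMod` : filtered vector spaces; `KMod` : with an operator `h`; `BMod` : with `h,e`;
`SMod` : with `h,e,f` (`sl₂`); `UMod` : all six operators (a filtered `UU`-module).
-/

set_option autoImplicit false

namespace Crest.Agent.R178

/-- filtered vector space -/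
structure VMod where
  X : Type
  [grp : AddCommGroup X]
  [mod : Module ℂ X]
  F : ℤ → Submodule ℂ X
  mono : ∀ j, F j ≤ F (j + 1)

attribute [instance] VMod.grp VMod.mod

/-- filtered vector space with one operator `h` of degree `1` -/
structure KMod extends VMod where
  h : X →ₗ[ℂ] X
  Fh : ∀ j, ∀ x ∈ F j, h x ∈ F (j + 1)

/-- operators `h, e` with `[h,e] = 2e` -/
structure BMod extends KMod where
  e : X →ₗ[ℂ] X
  Fe : ∀ j, ∀ x ∈ F j, e x ∈ F (j + 1)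
  he : ∀ x, h (e x) = e (h x) + (2 : ℂ) • e x

/-- `sl₂`-modules, filtered -/
structure SMod extends BMod where
  f : X →ₗ[ℂ] X
  Ff : ∀ j, ∀ x ∈ F j, f x ∈ F (j + 1)
  hf : ∀ x, h (f x) = f (h x) - (2 : ℂ) • f x
  ef : ∀ x, e (f x) = f (e x) + h x

/-- filtered `UU`-modules -/
structure UMod extends SMod where
  t : X →ₗ[ℂ] X
  v1 : X →ₗ[ℂ] X
  v2 : X →ₗ[ℂ] X
  Ft : ∀ j, ∀ x ∈ F j, t x ∈ F (j + 1)
  Fv1 : ∀ j, ∀ x ∈ F j, v1 x ∈ F (j - 1)
  Fv2 : ∀ j, ∀ x ∈ F j, v2 x ∈ F (j - 1)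
  th : ∀ x, t (h x) = h (t x)
  te : ∀ x, t (e x) = e (t x)
  tf : ∀ x, t (f x) = f (t x)
  tv1 : ∀ x, t (v1 x) = v1 (t x) - v1 x
  tv2 : ∀ x, t (v2 x) = v2 (t x) - v2 x
  hv1 : ∀ x, h (v1 x) = v1 (h x) + v1 x
  hv2 : ∀ x, h (v2 x) = v2 (h x) - v2 x
  ev1 : ∀ x, e (v1 x) = v1 (e x)
  ev2 : ∀ x, e (v2 x) = v2 (e x) + v1 x
  fv1 : ∀ x, f (v1 x) = v1 (f x) + v2 x
  fv2 : ∀ x, f (v2 x) = v2 (f x)
  d1 : ∀ x, v1 (t x) + v1 (h x) + (2 : ℂ) • v2 (e x) = 0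
  d2 : ∀ x, v2 (t x) - v2 (h x) + (2 : ℂ) • v1 (f x) = 0
  v11 : ∀ x, v1 (v1 x) = 0
  v12 : ∀ x, v1 (v2 x) = 0
  v21 : ∀ x, v2 (v1 x) = 0
  v22 : ∀ x, v2 (v2 x) = 0

/-! ### Morphism predicates -/

structure IsV (A B : VMod) (g : A.X →ₗ[ℂ] B.X) : Prop where
  F : ∀ j, ∀ x ∈ A.F j, g x ∈ B.F j

structure IsK (A B : KMod) (g : A.X →ₗ[ℂ] B.X) : Prop extends IsV A.toVMod B.toVMod g where
  h : ∀ x, g (A.h x) = B.h (g x)

structure IsB (A B : BMod) (g : A.X →ₗ[ℂ] B.X) : Prop extends IsK A.toKMod B.toKMod g where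
  e : ∀ x, g (A.e x) = B.e (g x)

structure IsS (A B : SMod) (g : A.X →ₗ[ℂ] B.X) : Prop extends IsB A.toBMod B.toBMod g where
  f : ∀ x, g (A.f x) = B.f (g x)

structure IsU (A B : UMod) (g : A.X →ₗ[ℂ] B.X) : Prop extends IsS A.toSMod B.toSMod g where
  t : ∀ x, g (A.t x) = B.t (g x)
  v1 : ∀ x, g (A.v1 x) = B.v1 (g x)
  v2 : ∀ x, g (A.v2 x) = B.v2 (g x)

/-- strict short exactness (at every filtration level) -/
structure Ex (A B C : VMod) (f : A.X →ₗ[ℂ] B.X) (g : B.X →ₗ[ℂ] C.X) : Prop where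
  inj : ∀ x, f x = 0 → x = 0
  zero : ∀ x, g (f x) = 0
  exact : ∀ j, ∀ y ∈ B.F j, g y = 0 → ∃ x ∈ A.F j, f x = y
  surj : ∀ j, ∀ z ∈ C.F j, ∃ y ∈ B.F j, g y = z

/-- constant filtration starting at `i` -/
structure IsConst (A : VMod) (i : ℤ) : Prop where
  top : ∀ j, i ≤ j → ∀ x, x ∈ A.F j
  bot : ∀ j, j < i → ∀ x ∈ A.F j, x = 0

/-! ### Shifts -/

abbrev VMod.shift (M : VMod) (i : ℤ) : VMod where
  X := M.X
  F := fun j => M.F (j - i)
  mono := fun j => by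
    have := M.mono (j - i)
    rwa [show j - i + 1 = j + 1 - i by ring] at this

abbrev KMod.shift (M : KMod) (i : ℤ) : KMod where
  toVMod := M.toVMod.shift i
  h := M.h
  Fh := fun j x hx => by
    have := M.Fh (j - i) x hx
    rwa [show j - i + 1 = j + 1 - i by ring] at this

abbrev BMod.shift (M : BMod) (i : ℤ) : BMod where
  toKMod := M.toKMod.shift i
  e := M.e
  Fe := fun j x hx => by
    have := M.Fe (j - i) x hx
    rwa [show j - i + 1 = j + 1 - i by ring] at this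
  he := M.he

abbrev SMod.shift (M : SMod) (i : ℤ) : SMod where
  toBMod := M.toBMod.shift i
  f := M.f
  Ff := fun j x hx => by
    have := M.Ff (j - i) x hx
    rwa [show j - i + 1 = j + 1 - i by ring] at this
  hf := M.hf
  ef := M.ef

/-! ### Twists -/

/-- `h` replaced by `h + 2` -/
abbrev BMod.tw (M : BMod) : KMod where
  toVMod := M.toVMod
  h := M.h + (2 : ℂ) • LinearMap.id
  Fh := fun j x hx => by
    have h1 := M.Fh j x hx
    have h2 := M.mono j hx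
    simpa using Submodule.add_mem _ h1 (Submodule.smul_mem _ (2 : ℂ) h2)

/-- `h` replaced by `h - 2` -/
abbrev SMod.tw (M : SMod) : BMod where
  toVMod := M.toVMod
  h := M.h - (2 : ℂ) • LinearMap.id
  Fh := fun j x hx => by
    have h1 := M.Fh j x hx
    have h2 := M.mono j hx
    simpa using Submodule.sub_mem _ h1 (Submodule.smul_mem _ (2 : ℂ) h2)
  e := M.e
  Fe := M.Fe
  he := fun x => by
    have := M.he x
    simp only [LinearMap.sub_apply, LinearMap.smul_apply, LinearMap.id_apply, map_sub, map_smul,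
      this]
    abel

/-! ### Linear algebra: `ℕ →₀ M` -/

section FS
variable {A B : Type} [AddCommGroup A] [Module ℂ A] [AddCommGroup B] [Module ℂ B]

/-- shift `x^c m ↦ x^(c+1) m` -/
noncomputable def sh (A : Type) [AddCommGroup A] [Module ℂ A] : (ℕ →₀ A) →ₗ[ℂ] (ℕ →₀ A) :=
  Finsupp.lmapDomain A ℂ Nat.succ

/-- functoriality of `ℕ →₀ A` -/
noncomputable def mp (g : A →ₗ[ℂ] B) : (ℕ →₀ A) →ₗ[ℂ] (ℕ →₀ B) :=
  Finsupp.mapRange.linearMap g

/-- `x^c m ↦ Y^c (g m)` -/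
noncomputable def evg (Y : B →ₗ[ℂ] B) (g : A →ₗ[ℂ] B) : (ℕ →₀ A) →ₗ[ℂ] B :=
  Finsupp.lsum ℂ (fun c => (Y ^ c) ∘ₗ g)

/-- `x^c m ↦ x^c (φ c m)` -/
noncomputable def dg (φ : ℕ → A →ₗ[ℂ] B) : (ℕ →₀ A) →ₗ[ℂ] (ℕ →₀ B) :=
  Finsupp.lsum ℂ (fun c => (Finsupp.lsingle c) ∘ₗ (φ c))

/-- `x^c m ↦ x^(c-1) (φ c m)` -/
noncomputable def dn (φ : ℕ → A →ₗ[ℂ] B) : (ℕ →₀ A) →ₗ[ℂ] (ℕ →₀ B) :=
  Finsupp.lsum ℂ (fun c => (Finsupp.lsingle (c - 1)) ∘ₗ (φ c))

/-- `x^c m ↦ x^(c+1) m - x^c (Y m)` -/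
noncomputable def theta (Y : A →ₗ[ℂ] A) : (ℕ →₀ A) →ₗ[ℂ] (ℕ →₀ A) :=
  sh A - mp Y

@[simp] lemma sh_single (c : ℕ) (m : A) :
    sh A (Finsupp.single c m) = Finsupp.single (c + 1) m := by
  simp [sh, Finsupp.lmapDomain, Finsupp.mapDomain_single]

@[simp] lemma mp_single (g : A →ₗ[ℂ] B) (c : ℕ) (m : A) :
    mp g (Finsupp.single c m) = Finsupp.single c (g m) := by
  simp [mp]

@[simp] lemma evg_single (Y : B →ₗ[ℂ] B) (g : A →ₗ[ℂ] B) (c : ℕ) (m : A) :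
    evg Y g (Finsupp.single c m) = (Y ^ c) (g m) := by
  simp [evg]

@[simp] lemma dg_single (φ : ℕ → A →ₗ[ℂ] B) (c : ℕ) (m : A) :
    dg φ (Finsupp.single c m) = Finsupp.single c (φ c m) := by
  simp [dg]

@[simp] lemma dn_single (φ : ℕ → A →ₗ[ℂ] B) (c : ℕ) (m : A) :
    dn φ (Finsupp.single c m) = Finsupp.single (c - 1) (φ c m) := by
  simp [dn]

@[simp] lemma theta_single (Y : A →ₗ[ℂ] A) (c : ℕ) (m : A) :
    theta Y (Finsupp.single c m) = Finsupp.single (c + 1) m - Finsupp.single c (Y m) := by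
  simp [theta]

lemma sh_apply_zero (φ : ℕ →₀ A) : sh A φ 0 = 0 := by
  simp only [sh, Finsupp.lmapDomain_apply]
  exact Finsupp.mapDomain_of_notMem_range _ _ (by simp)

lemma sh_apply_succ (φ : ℕ →₀ A) (c : ℕ) : sh A φ (c + 1) = φ c := by
  simp only [sh, Finsupp.lmapDomain_apply]
  exact Finsupp.mapDomain_apply (f := Nat.succ) Nat.succ_injective φ c

@[simp] lemma mp_apply (g : A →ₗ[ℂ] B) (φ : ℕ →₀ A) (c : ℕ) : mp g φ c = g (φ c) := by
  simp [mp]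

lemma dg_apply (φ : ℕ → A →ₗ[ℂ] B) (x : ℕ →₀ A) (c : ℕ) : dg φ x c = φ c (x c) := by
  induction x using Finsupp.induction_linear with
  | zero => simp
  | add x y hx hy => simp [hx, hy]
  | single d m =>
    rw [dg_single]
    by_cases h : d = c
    · subst h; simp
    · rw [Finsupp.single_eq_of_ne (Ne.symm h), Finsupp.single_eq_of_ne (Ne.symm h), map_zero]

/-- two linear maps out of `ℕ →₀ A` agreeing on monomials are equal -/
lemma fs_ext {C : Type} [AddCommGroup C] [Module ℂ C] {f g : (ℕ →₀ A) →ₗ[ℂ] C}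
    (h : ∀ c m, f (Finsupp.single c m) = g (Finsupp.single c m)) (x : ℕ →₀ A) : f x = g x := by
  induction x using Finsupp.induction_linear with
  | zero => simp
  | add x y hx hy => simp [hx, hy]
  | single d m => exact h d m

end FS

end Crest.Agent.R178
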