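import Mathlib

/-!
# R178: four term exact sequences of modules
-/

set_option autoImplicit false

open CategoryTheory CategoryTheory.Abelian

namespace Crest.Agent.R178

section
variable {R : Type} [Ring R] [HasExt.{1} (ModuleCat.{0} R)]

lemma ext_zero₃' {S : ShortComplex (ModuleCat.{0} R)} (hS : S.ShortExact) (Y : ModuleCat.{0} R)
    (i : ℕ) (h₁ : ∀ x : Ext.{1} S.X₁ Y i, x = 0) (h₂ : ∀ x : Ext.{1} S.X₂ Y (i + 1), x = 0)
    (x : Ext.{1} S.X₃ Y (i + 1)) : x = 0 := by
  obtain ⟨x₁, rfl⟩ := Ext.contravariant_sequence_exact₃ hS Y x (h₂ _) (add_comm 1 i)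
  rw [h₁ x₁, Ext.comp_zero]

lemma ext_zero₁' {S : ShortComplex (ModuleCat.{0} R)} (hS : S.ShortExact) (Y : ModuleCat.{0} R)
    (i : ℕ) (h₂ : ∀ x : Ext.{1} S.X₂ Y i, x = 0) (h₃ : ∀ x : Ext.{1} S.X₃ Y (i + 1), x = 0)
    (x : Ext.{1} S.X₁ Y i) : x = 0 := by
  obtain ⟨x₂, rfl⟩ := Ext.contravariant_sequence_exact₁ hS Y x (add_comm 1 i) (h₃ _)
  rw [h₂ x₂, Ext.comp_zero]

lemma ext_zero₂' {S : ShortComplex (ModuleCat.{0} R)} (hS : S.ShortExact) (Y : ModuleCat.{0} R)
    (i : ℕ) (h₁ : ∀ x : Ext.{1} S.X₁ Y i, x = 0) (h₃ : ∀ x : Ext.{1} S.X₃ Y i, x = 0)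
    (x : Ext.{1} S.X₂ Y i) : x = 0 := by
  obtain ⟨x₃, rfl⟩ := Ext.contravariant_sequence_exact₂ hS Y x (h₁ _)
  rw [h₃ x₃, Ext.comp_zero]

end

section
variable {R : Type} [Ring R]
variable {A B C D : Type} [AddCommGroup A] [Module R A] [AddCommGroup B] [Module R B]
  [AddCommGroup C] [Module R C] [AddCommGroup D] [Module R D]
  (a : A →ₗ[R] B) (b : B →ₗ[R] C) (c : C →ₗ[R] D)

/-- first half of a four term exact sequence -/
noncomputable def S1 (hbc : ∀ x, c (b x) = 0) (hab : ∀ x, b (a x) = 0) :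
    ShortComplex (ModuleCat.{0} R) :=
  ShortComplex.mk (X₁ := ModuleCat.of R A) (X₂ := ModuleCat.of R B)
    (X₃ := ModuleCat.of R (LinearMap.ker c))
    (ModuleCat.ofHom a) (ModuleCat.ofHom (b.codRestrict (LinearMap.ker c) hbc)) (by
      rw [← ModuleCat.ofHom_comp]
      have : (b.codRestrict (LinearMap.ker c) hbc) ∘ₗ a = 0 :=
        LinearMap.ext (fun x => Subtype.ext (hab x))
      rw [this]
      rfl)

lemma S1_shortExact (ha : Function.Injective a) (hab : Function.Exact a b)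
    (hbc : Function.Exact b c) :
    (S1 a b c hbc.apply_apply_eq_zero hab.apply_apply_eq_zero).ShortExact := by
  apply ModuleCat.shortComplex_shortExact
  · intro x
    constructor
    · intro hx
      exact (hab x).1 (congrArg Subtype.val hx)
    · rintro ⟨y, rfl⟩
      exact Subtype.ext (hab.apply_apply_eq_zero y)
  · exact ha
  · intro x
    obtain ⟨y, hy⟩ := (hbc x.1).1 x.2
    exact ⟨y, Subtype.ext hy⟩

variable (ha : Function.Injective a) (hab : Function.Exact a b)
    (hbc : Function.Exact b c) (hc : Function.Surjective c)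

include ha hab hbc hc

lemma four_up (d : ℕ) (hA : HasProjectiveDimensionLT (ModuleCat.of R A) d)
    (hB : HasProjectiveDimensionLT (ModuleCat.of R B) (d + 1))
    (hC : HasProjectiveDimensionLT (ModuleCat.of R C) (d + 2)) :
    HasProjectiveDimensionLT (ModuleCat.of R D) (d + 2) := by
  have h1 := (S1_shortExact a b c ha hab hbc).hasProjectiveDimensionLT_X₃ d hA hB
  exact (LinearMap.shortExact_shortComplexKer hc).hasProjectiveDimensionLT_X₃ (d + 1) h1 hC

lemma four_down (d : ℕ) (hD : HasProjectiveDimensionLT (ModuleCat.of R D) (d + 2))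
    (hC : HasProjectiveDimensionLT (ModuleCat.of R C) (d + 1))
    (hB : HasProjectiveDimensionLT (ModuleCat.of R B) d) :
    HasProjectiveDimensionLT (ModuleCat.of R A) d := by
  have h1 := (LinearMap.shortExact_shortComplexKer hc).hasProjectiveDimensionLT_X₁ (d + 1) hC hD
  exact (S1_shortExact a b c ha hab hbc).hasProjectiveDimensionLT_X₁ d hB h1

lemma four_ext [HasExt.{1} (ModuleCat.{0} R)] (Y : ModuleCat.{0} R) (i : ℕ)
    (hA : ∀ x : Ext.{1} (ModuleCat.of R A) Y i, x = 0)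
    (hC : ∀ x : Ext.{1} (ModuleCat.of R C) Y i, x = 0)
    (hD : ∀ x : Ext.{1} (ModuleCat.of R D) Y (i + 1), x = 0)
    (x : Ext.{1} (ModuleCat.of R B) Y i) : x = 0 := by
  have h1 := ext_zero₁' (LinearMap.shortExact_shortComplexKer hc) Y i hC hD
  exact ext_zero₂' (S1_shortExact a b c ha hab hbc) Y i hA h1 x

end

end Crest.Agent.R178
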