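import Crest.Agent.R178.UUm

/-!
# R178: free filtered modules (abstractly), projectivity of their window modules
-/

set_option autoImplicit false

namespace Crest.Agent.R178

structure CommU (A B : UMod) (g : A.X →ₗ[ℂ] B.X) : Prop where
  h : ∀ x, g (A.h x) = B.h (g x)
  e : ∀ x, g (A.e x) = B.e (g x)
  f : ∀ x, g (A.f x) = B.f (g x)
  t : ∀ x, g (A.t x) = B.t (g x)
  v1 : ∀ x, g (A.v1 x) = B.v1 (g x)
  v2 : ∀ x, g (A.v2 x) = B.v2 (g x)

lemma IsU.commU {A B : UMod} {g : A.X →ₗ[ℂ] B.X} (hg : IsU A B g) : CommU A B g :=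
  ⟨hg.h, hg.e, hg.f, hg.t, hg.v1, hg.v2⟩

lemma commU_of_op {A B : UMod} {g : A.X →ₗ[ℂ] B.X}
    (H : ∀ (y : Gen) (x : A.X), g (A.op y x) = B.op y (g x)) : CommU A B g :=
  ⟨H .h, H .e, H .f, H .t, H .v1, H .v2⟩

/-- `Y0` is the free filtered `UU`-module on the filtered vector space `V` -/
structure IsFree (V : VMod) (Y0 : UMod) (u : V.X →ₗ[ℂ] Y0.X) : Prop where
  um : IsV V Y0.toVMod u
  ex : ∀ (Y : UMod) (g : V.X →ₗ[ℂ] Y.X), IsV V Y.toVMod g →
    ∃ g' : Y0.X →ₗ[ℂ] Y.X, IsU Y0 Y g' ∧ ∀ v, g' (u v) = g v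
  uniq : ∀ (Y : UMod) (g : Y0.X →ₗ[ℂ] Y.X), CommU Y0 Y g → (∀ v, g (u v) = 0) → ∀ x, g x = 0

/-! ### finite dimensionality of `Fil m` and `Lam` -/

lemma Lam_finite_of (Y0 : UMod) (x0 : Y0.X) (hx0 : x0 ∈ Y0.F 0) (g : Y0.X →ₗ[ℂ] UU)
    (hg : IsU Y0 UUm g) (h1 : g x0 = 1) (hfin : ∀ m, Module.Finite ℂ (Y0.F m)) :
    FiniteDimensional ℂ Lam := by
  let φ : Lam →ₗ[ℂ] ((p : Fin 5 × Fin 5) → Y0.F ((p.1 : ℕ) - (p.2 : ℕ) : ℤ)) :=
    { toFun := fun A p => ⟨Y0.rho (A.1 p.1 p.2) x0, by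
        have := A.2 p.1 p.2 Y0 0 _ hx0
        rwa [zero_add] at this⟩
      map_add' := fun x y => by
        funext p
        apply Subtype.ext
        simp
      map_smul' := fun r x => by
        funext p
        apply Subtype.ext
        simp }
  refine Module.Finite.of_injective φ (fun x y hxy => ?_)
  have h1 : ∀ r : UU, g (Y0.rho r x0) = r := fun r => by
    rw [hg.rho, h1, rho_UUm, mul_one]
  apply Subtype.ext
  ext i j
  rw [← h1 (x.1 i j), ← h1 (y.1 i j)]
  exact congrArg g (congrArg Subtype.val (congrFun hxy (i, j)))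

/-! ### projectivity -/

section proj
variable {V : VMod} {Y0 : UMod} {u : V.X →ₗ[ℂ] Y0.X} {ι : Type} [Fintype ι]
  (b : Module.Basis ι ℂ V.X) (i : Fin 5)

noncomputable def gk (k : ι) : V.X →ₗ[ℂ] UU := (LinearMap.toSpanSingleton ℂ UU 1) ∘ₗ b.coord k

omit [Fintype ι] in
lemma gk_apply (k : ι) (v : V.X) : gk b k v = (b.coord k v) • (1 : UU) := rfl

omit [Fintype ι] in
lemma isV_gk (hV : IsConst V (i : ℕ)) (k : ι) : IsV V (UUm.shift (i : ℕ)).toVMod (gk b k) where
  F := fun j x hx => by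
    by_cases hj : ((i : ℕ) : ℤ) ≤ j
    · have h1 : (1 : UU) ∈ Fil (j - (i : ℕ)) := by
        obtain ⟨n, hn⟩ := Int.le.dest hj
        rw [← hn, add_sub_cancel_left]
        clear hn
        induction n with
        | zero => exact Fil_one
        | succ n ih =>
          have := Fil_mono _ ih
          exact_mod_cast this
      exact Submodule.smul_mem _ _ h1
    · have : x = 0 := hV.bot j (by omega) x hx
      subst this
      simp

variable (hF : IsFree V Y0 u) (hV : IsConst V (i : ℕ))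

/-- `Ψ_k : Y0 → UU` -/
noncomputable def Psi (k : ι) : Y0.X →ₗ[ℂ] UU :=
  (hF.ex (UUm.shift (i : ℕ)) (gk b k) (isV_gk b i hV k)).choose

omit [Fintype ι] in
lemma isU_Psi (k : ι) : IsU Y0 (UUm.shift (i : ℕ)) (Psi b i hF hV k) :=
  (hF.ex (UUm.shift (i : ℕ)) (gk b k) (isV_gk b i hV k)).choose_spec.1

omit [Fintype ι] in
lemma Psi_un (k : ι) (v : V.X) : Psi b i hF hV k (u v) = (b.coord k v) • (1 : UU) :=
  (hF.ex (UUm.shift (i : ℕ)) (gk b k) (isV_gk b i hV k)).choose_spec.2 v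

omit [Fintype ι] in
lemma Psi_rho (k : ι) (r : UU) (x : Y0.X) :
    Psi b i hF hV k (Y0.rho r x) = r * Psi b i hF hV k x := by
  rw [(isU_Psi b i hF hV k).rho, rho_UUm_shift]

/-- `n = ∑ Ψ_k(n) · (1 ⊗ b_k)` -/
lemma Psi_sum (x : Y0.X) :
    ∑ k, Y0.rho (Psi b i hF hV k x) (u (b k)) = x := by
  let T : Y0.X →ₗ[ℂ] Y0.X :=
    ∑ k, ((LinearMap.applyₗ (u (b k))) ∘ₗ Y0.rho.toLinearMap ∘ₗ Psi b i hF hV k)
  have hT : ∀ x, T x = ∑ k, Y0.rho (Psi b i hF hV k x) (u (b k)) := fun x => by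
    simp [T]
  have key : ∀ (g : Gen) (x : Y0.X), T (Y0.op g x) = Y0.op g (T x) := by
    intro g x
    rw [hT, hT, map_sum]
    refine Finset.sum_congr rfl (fun k _ => ?_)
    rw [← rho_gU, Psi_rho b i hF hV, map_mul]
    rfl
  have hc : CommU Y0 Y0 (T - LinearMap.id) := commU_of_op (fun g x => by
    rw [LinearMap.sub_apply, LinearMap.sub_apply, map_sub, key]
    rfl)
  have := hF.uniq _ _ hc (fun v => by
    rw [LinearMap.sub_apply, hT, LinearMap.id_apply, sub_eq_zero]
    conv_rhs => rw [← b.sum_repr v, map_sum]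
    refine Finset.sum_congr rfl (fun k _ => ?_)
    rw [Psi_un, map_smul, map_one, map_smul]
    rfl) x
  rw [LinearMap.sub_apply, sub_eq_zero, hT] at this
  exact this

/-- inclusion `W Y0 → Lam^ι` -/
noncomputable def incl : W Y0 →ₗ[Lam] (ι → Lam) where
  toFun w := fun k => ⟨Matrix.of fun l m => if m = i then Psi b i hF hV k (w l).1 else 0,
    fun l m => by
    rw [Matrix.of_apply]
    split_ifs with h
    · subst h
      exact (isU_Psi b m hF hV k).F _ _ (w l).2
    · exact Submodule.zero_mem _⟩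
  map_add' w w' := by
    funext k
    apply Subtype.ext
    ext l m
    simp only [Pi.add_apply, W_add, map_add, Subalgebra.coe_add, Matrix.add_apply,
      Matrix.of_apply]
    split_ifs <;> simp
  map_smul' A w := by
    funext k
    apply Subtype.ext
    ext l m
    simp only [smul_W_apply, RingHom.id_apply, Pi.smul_apply, smul_eq_mul, Subalgebra.coe_mul,
      Matrix.mul_apply, Matrix.of_apply, map_sum, Psi_rho b i hF hV]
    split_ifs <;> simp

/-- projection `Lam^ι → W Y0` -/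
noncomputable def prjFun (A : ι → Lam) : W Y0 := fun l =>
  ⟨∑ k, Y0.rho ((A k).1 l i) (u (b k)),
    Submodule.sum_mem _ (fun k _ => by
      have := (A k).2 l i Y0 _ _ (hF.um.F _ _ (hV.top _ le_rfl (b k)))
      rwa [show ((i : ℕ) : ℤ) + ((l : ℕ) - (i : ℕ) : ℤ) = (l : ℕ) by ring] at this)⟩

lemma prjFun_apply (A : ι → Lam) (l : Fin 5) :
    (prjFun b i hF hV A l).1 = ∑ k, Y0.rho ((A k).1 l i) (u (b k)) := rfl

/-- projection `Lam^ι → W Y0` -/
noncomputable def prj : (ι → Lam) →ₗ[Lam] W Y0 where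
  toFun := prjFun b i hF hV
  map_add' A B := by
    apply W_ext
    intro l
    simp only [W_add, prjFun_apply, Pi.add_apply, Subalgebra.coe_add, Matrix.add_apply, map_add,
      LinearMap.add_apply, Finset.sum_add_distrib]
  map_smul' A B := by
    apply W_ext
    intro l
    simp only [smul_W_apply, prjFun_apply, RingHom.id_apply, Pi.smul_apply, smul_eq_mul,
      Subalgebra.coe_mul, Matrix.mul_apply, map_sum, map_mul, LinearMap.sum_apply,
      Module.End.mul_apply]
    rw [Finset.sum_comm]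

lemma prj_apply (A : ι → Lam) (l : Fin 5) :
    (prj b i hF hV A l).1 = ∑ k, Y0.rho ((A k).1 l i) (u (b k)) := rfl

omit [Fintype ι] in
lemma incl_apply (w : W Y0) (k : ι) (l : Fin 5) :
    (incl b i hF hV w k).1 l i = Psi b i hF hV k (w l).1 := by
  simp [incl]

lemma prj_incl (w : W Y0) : prj b i hF hV (incl b i hF hV w) = w := by
  apply W_ext
  intro l
  rw [prj_apply]
  simp only [incl_apply]
  exact Psi_sum b i hF hV (w l).1

include b hF hV in
theorem projective_W : Module.Projective Lam (W Y0) := by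
  refine Module.Projective.of_split (incl b i hF hV) (prj b i hF hV) ?_
  exact LinearMap.ext (prj_incl b i hF hV)

end proj

end Crest.Agent.R178
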