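import Crest.Agent.R178.Functors

/-!
# R178: the functor `G : SMod → UMod`, `G M = M[t] ⊕ (M ⊕ M)`

The second summand is `M ⊗ V`, `V = ⟨v1, v2⟩`; `t` acts on it by `-Ω - 1` where
`Ω (a,b) = (h a + 2 f b, 2 e a - h b)`.
-/

set_option autoImplicit false

namespace Crest.Agent.R178

section ops
variable {A : Type} [AddCommGroup A] [Module ℂ A]

/-- `Ω` -/
def om (h e f : A →ₗ[ℂ] A) : (A × A) →ₗ[ℂ] (A × A) where
  toFun p := (h p.1 + (2 : ℂ) • f p.2, (2 : ℂ) • e p.1 - h p.2)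
  map_add' p q := by ext <;> simp <;> abel
  map_smul' r p := by ext <;> simp <;> module

@[simp] lemma om_apply (h e f : A →ₗ[ℂ] A) (p : A × A) :
    om h e f p = (h p.1 + (2 : ℂ) • f p.2, (2 : ℂ) • e p.1 - h p.2) := rfl

def hV (h : A →ₗ[ℂ] A) : (A × A) →ₗ[ℂ] (A × A) where
  toFun p := (h p.1 + p.1, h p.2 - p.2)
  map_add' p q := by ext <;> simp <;> abel
  map_smul' r p := by ext <;> simp <;> module

@[simp] lemma hV_apply (h : A →ₗ[ℂ] A) (p : A × A) : hV h p = (h p.1 + p.1, h p.2 - p.2) := rfl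

def eV (e : A →ₗ[ℂ] A) : (A × A) →ₗ[ℂ] (A × A) where
  toFun p := (e p.1 + p.2, e p.2)
  map_add' p q := by ext <;> simp <;> abel
  map_smul' r p := by ext <;> simp

@[simp] lemma eV_apply (e : A →ₗ[ℂ] A) (p : A × A) : eV e p = (e p.1 + p.2, e p.2) := rfl

def fV (f : A →ₗ[ℂ] A) : (A × A) →ₗ[ℂ] (A × A) where
  toFun p := (f p.1, f p.2 + p.1)
  map_add' p q := by ext <;> simp <;> abel
  map_smul' r p := by ext <;> simp

@[simp] lemma fV_apply (f : A →ₗ[ℂ] A) (p : A × A) : fV f p = (f p.1, f p.2 + p.1) := rfl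

/-- `v1 : M[t] → M ⊗ V`, `t^c m ↦ (-Ω)^c (m, 0)` -/
noncomputable def w1 (h e f : A →ₗ[ℂ] A) : (ℕ →₀ A) →ₗ[ℂ] (A × A) :=
  evg (-om h e f) (LinearMap.inl ℂ A A)

/-- `v2 : M[t] → M ⊗ V`, `t^c m ↦ (-Ω)^c (0, m)` -/
noncomputable def w2 (h e f : A →ₗ[ℂ] A) : (ℕ →₀ A) →ₗ[ℂ] (A × A) :=
  evg (-om h e f) (LinearMap.inr ℂ A A)

end ops

section rel
variable (M : SMod)

/-- `Ω` of `M` -/
noncomputable abbrev SMod.om : (M.X × M.X) →ₗ[ℂ] (M.X × M.X) := R178.om M.h M.e M.f

lemma om_hV (p : M.X × M.X) : M.om (hV M.h p) = hV M.h (M.om p) := by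
  ext
  · simp only [om_apply, hV_apply, map_add, map_sub, map_smul, M.hf]
    module
  · simp only [om_apply, hV_apply, map_add, map_sub, map_smul, M.he]
    module

lemma om_eV (p : M.X × M.X) : M.om (eV M.e p) = eV M.e (M.om p) := by
  ext
  · simp only [om_apply, eV_apply, map_add, map_sub, map_smul, M.he, M.ef]
    module
  · simp only [om_apply, eV_apply, map_add, map_sub, map_smul, M.he]
    module

lemma om_fV (p : M.X × M.X) : M.om (fV M.f p) = fV M.f (M.om p) := by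
  ext
  · simp only [om_apply, fV_apply, map_add, map_sub, map_smul, M.hf]
    module
  · simp only [om_apply, fV_apply, map_add, map_sub, map_smul, M.hf, M.ef]
    module

lemma om_pow_comm (g : (M.X × M.X) →ₗ[ℂ] (M.X × M.X)) (hg : ∀ p, M.om (g p) = g (M.om p))
    (c : ℕ) (p : M.X × M.X) : ((-M.om) ^ c) (g p) = g (((-M.om) ^ c) p) := by
  induction c generalizing p with
  | zero => simp
  | succ c ih =>
    rw [pow_succ, Module.End.mul_apply, Module.End.mul_apply]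
    rw [← ih]
    congr 1
    simp only [LinearMap.neg_apply, map_neg]
    rw [hg]

lemma om_pow_mem (j : ℤ) (c : ℕ) (p : M.X × M.X) (h1 : p.1 ∈ M.F (j - c))
    (h2 : p.2 ∈ M.F (j - c)) :
    (((-M.om) ^ c) p).1 ∈ M.F j ∧ (((-M.om) ^ c) p).2 ∈ M.F j := by
  induction c generalizing p with
  | zero =>
    simp only [Nat.cast_zero, sub_zero] at h1 h2
    simpa using ⟨h1, h2⟩
  | succ c ih =>
    rw [pow_succ, Module.End.mul_apply]
    have hj : j - ((c + 1 : ℕ) : ℤ) + 1 = j - c := by push_cast; ring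
    apply ih
    · have a := M.Fh _ _ h1
      have b := M.Ff _ _ h2
      rw [hj] at a b
      simpa using Submodule.neg_mem _ (Submodule.add_mem _ a (Submodule.smul_mem _ (2 : ℂ) b))
    · have a := M.Fe _ _ h1
      have b := M.Fh _ _ h2
      rw [hj] at a b
      simpa using Submodule.neg_mem _ (Submodule.sub_mem _ (Submodule.smul_mem _ (2 : ℂ) a) b)

lemma w1_mem (j : ℤ) (φ : ℕ →₀ M.X) (hφ : φ ∈ (FS M.toVMod).F j) :
    w1 M.h M.e M.f φ ∈ (M.F j).prod (M.F j) := by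
  refine FS_le _ _ ?_ φ hφ
  intro c m hm
  have := om_pow_mem M j c (m, 0) hm (Submodule.zero_mem _)
  simpa [w1] using this

lemma w2_mem (j : ℤ) (φ : ℕ →₀ M.X) (hφ : φ ∈ (FS M.toVMod).F j) :
    w2 M.h M.e M.f φ ∈ (M.F j).prod (M.F j) := by
  refine FS_le _ _ ?_ φ hφ
  intro c m hm
  have := om_pow_mem M j c (0, m) (Submodule.zero_mem _) hm
  simpa [w2] using this

lemma om_mem (j : ℤ) (p : M.X × M.X) (hp : p ∈ (M.F j).prod (M.F j)) :
    M.om p ∈ (M.F (j + 1)).prod (M.F (j + 1)) := by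
  obtain ⟨h1, h2⟩ := hp
  exact ⟨Submodule.add_mem _ (M.Fh _ _ h1) (Submodule.smul_mem _ _ (M.Ff _ _ h2)),
    Submodule.sub_mem _ (Submodule.smul_mem _ _ (M.Fe _ _ h1)) (M.Fh _ _ h2)⟩

lemma w1_sh (x : ℕ →₀ M.X) : w1 M.h M.e M.f (sh M.X x) = - M.om (w1 M.h M.e M.f x) :=
  fs_ext (f := w1 M.h M.e M.f ∘ₗ sh M.X) (g := (-M.om) ∘ₗ w1 M.h M.e M.f) (fun c m => by
    simp only [LinearMap.comp_apply, sh_single, w1, evg_single, pow_succ', Module.End.mul_apply]) x

lemma w2_sh (x : ℕ →₀ M.X) : w2 M.h M.e M.f (sh M.X x) = - M.om (w2 M.h M.e M.f x) :=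
  fs_ext (f := w2 M.h M.e M.f ∘ₗ sh M.X) (g := (-M.om) ∘ₗ w2 M.h M.e M.f) (fun c m => by
    simp only [LinearMap.comp_apply, sh_single, w2, evg_single, pow_succ', Module.End.mul_apply]) x

lemma w1_h (x : ℕ →₀ M.X) :
    hV M.h (w1 M.h M.e M.f x) = w1 M.h M.e M.f (mp M.h x) + w1 M.h M.e M.f x :=
  fs_ext (f := hV M.h ∘ₗ w1 M.h M.e M.f) (g := w1 M.h M.e M.f ∘ₗ mp M.h + w1 M.h M.e M.f)
    (fun c m => by
      simp only [LinearMap.comp_apply, LinearMap.add_apply, mp_single, w1, evg_single]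
      rw [← om_pow_comm M _ (om_hV M), ← map_add]
      congr 1
      ext <;> simp) x

lemma w2_h (x : ℕ →₀ M.X) :
    hV M.h (w2 M.h M.e M.f x) = w2 M.h M.e M.f (mp M.h x) - w2 M.h M.e M.f x :=
  fs_ext (f := hV M.h ∘ₗ w2 M.h M.e M.f) (g := w2 M.h M.e M.f ∘ₗ mp M.h - w2 M.h M.e M.f)
    (fun c m => by
      simp only [LinearMap.comp_apply, LinearMap.sub_apply, mp_single, w2, evg_single]
      rw [← om_pow_comm M _ (om_hV M), ← map_sub]
      congr 1
      ext <;> simp) x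

lemma w1_e (x : ℕ →₀ M.X) :
    eV M.e (w1 M.h M.e M.f x) = w1 M.h M.e M.f (mp M.e x) :=
  fs_ext (f := eV M.e ∘ₗ w1 M.h M.e M.f) (g := w1 M.h M.e M.f ∘ₗ mp M.e)
    (fun c m => by
      simp only [LinearMap.comp_apply, mp_single, w1, evg_single]
      rw [← om_pow_comm M _ (om_eV M)]
      congr 1
      ext <;> simp) x

lemma w2_e (x : ℕ →₀ M.X) :
    eV M.e (w2 M.h M.e M.f x) = w2 M.h M.e M.f (mp M.e x) + w1 M.h M.e M.f x :=
  fs_ext (f := eV M.e ∘ₗ w2 M.h M.e M.f) (g := w2 M.h M.e M.f ∘ₗ mp M.e + w1 M.h M.e M.f)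
    (fun c m => by
      simp only [LinearMap.comp_apply, LinearMap.add_apply, mp_single, w1, w2, evg_single]
      rw [← om_pow_comm M _ (om_eV M), ← map_add]
      congr 1
      ext <;> simp) x

lemma w1_f (x : ℕ →₀ M.X) :
    fV M.f (w1 M.h M.e M.f x) = w1 M.h M.e M.f (mp M.f x) + w2 M.h M.e M.f x :=
  fs_ext (f := fV M.f ∘ₗ w1 M.h M.e M.f) (g := w1 M.h M.e M.f ∘ₗ mp M.f + w2 M.h M.e M.f)
    (fun c m => by
      simp only [LinearMap.comp_apply, LinearMap.add_apply, mp_single, w1, w2, evg_single]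
      rw [← om_pow_comm M _ (om_fV M), ← map_add]
      congr 1
      ext <;> simp) x

lemma w2_f (x : ℕ →₀ M.X) :
    fV M.f (w2 M.h M.e M.f x) = w2 M.h M.e M.f (mp M.f x) :=
  fs_ext (f := fV M.f ∘ₗ w2 M.h M.e M.f) (g := w2 M.h M.e M.f ∘ₗ mp M.f)
    (fun c m => by
      simp only [LinearMap.comp_apply, mp_single, w2, evg_single]
      rw [← om_pow_comm M _ (om_fV M)]
      congr 1
      ext <;> simp) x

lemma w_d1 (x : ℕ →₀ M.X) :
    w1 M.h M.e M.f (sh M.X x) + w1 M.h M.e M.f (mp M.h x) +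
      (2 : ℂ) • w2 M.h M.e M.f (mp M.e x) = 0 :=
  fs_ext (f := w1 M.h M.e M.f ∘ₗ sh M.X + w1 M.h M.e M.f ∘ₗ mp M.h +
      (2 : ℂ) • (w2 M.h M.e M.f ∘ₗ mp M.e)) (g := 0)
    (fun c m => by
      simp only [LinearMap.comp_apply, LinearMap.add_apply, LinearMap.smul_apply, sh_single,
        mp_single, w1, w2, evg_single, pow_succ, Module.End.mul_apply, LinearMap.zero_apply]
      rw [← map_add, ← map_smul, ← map_add]
      convert map_zero ((-M.om) ^ c) using 2
      ext <;> simp) x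

lemma w_d2 (x : ℕ →₀ M.X) :
    w2 M.h M.e M.f (sh M.X x) - w2 M.h M.e M.f (mp M.h x) +
      (2 : ℂ) • w1 M.h M.e M.f (mp M.f x) = 0 :=
  fs_ext (f := w2 M.h M.e M.f ∘ₗ sh M.X - w2 M.h M.e M.f ∘ₗ mp M.h +
      (2 : ℂ) • (w1 M.h M.e M.f ∘ₗ mp M.f)) (g := 0)
    (fun c m => by
      simp only [LinearMap.comp_apply, LinearMap.add_apply, LinearMap.sub_apply,
        LinearMap.smul_apply, sh_single,
        mp_single, w1, w2, evg_single, pow_succ, Module.End.mul_apply, LinearMap.zero_apply]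
      rw [← map_sub, ← map_smul, ← map_add]
      convert map_zero ((-M.om) ^ c) using 2
      ext <;> simp) x

end rel

/-- the functor `G` -/
noncomputable abbrev G (M : SMod) : UMod where
  X := (ℕ →₀ M.X) × (M.X × M.X)
  F := fun j => ((FS M.toVMod).F j).prod ((M.F (j + 1)).prod (M.F (j + 1)))
  mono := fun j => by
    refine Submodule.prod_mono ((FS M.toVMod).mono j) (Submodule.prod_mono ?_ ?_) <;>
      exact M.mono _
  h := (mp M.h).prodMap (hV M.h)
  Fh := fun j x hx => ⟨fun c => by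
      have := M.Fh _ _ (hx.1 c)
      rw [show j - (c : ℤ) + 1 = j + 1 - c by ring] at this
      simpa using this,
    Submodule.add_mem _ (M.Fh _ _ hx.2.1) (M.mono _ hx.2.1),
    Submodule.sub_mem _ (M.Fh _ _ hx.2.2) (M.mono _ hx.2.2)⟩
  e := (mp M.e).prodMap (eV M.e)
  Fe := fun j x hx => ⟨fun c => by
      have := M.Fe _ _ (hx.1 c)
      rw [show j - (c : ℤ) + 1 = j + 1 - c by ring] at this
      simpa using this,
    Submodule.add_mem _ (M.Fe _ _ hx.2.1) (M.mono _ hx.2.2), M.Fe _ _ hx.2.2⟩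
  he := fun x => by
    refine Prod.ext ?_ (Prod.ext ?_ ?_)
    · ext c; simp [M.he]
    · simp [M.he]; module
    · simp [M.he]; module
  f := (mp M.f).prodMap (fV M.f)
  Ff := fun j x hx => ⟨fun c => by
      have := M.Ff _ _ (hx.1 c)
      rw [show j - (c : ℤ) + 1 = j + 1 - c by ring] at this
      simpa using this,
    M.Ff _ _ hx.2.1, Submodule.add_mem _ (M.Ff _ _ hx.2.2) (M.mono _ hx.2.1)⟩
  hf := fun x => by
    refine Prod.ext ?_ (Prod.ext ?_ ?_)
    · ext c; simp [M.hf]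
    · simp [M.hf]; module
    · simp [M.hf]; module
  ef := fun x => by
    refine Prod.ext ?_ (Prod.ext ?_ ?_)
    · ext c; simp [M.ef]
    · simp [M.ef]; module
    · simp [M.ef]; module
  t := (sh M.X).prodMap (-M.om - LinearMap.id)
  v1 := (LinearMap.inr ℂ _ _) ∘ₗ w1 M.h M.e M.f ∘ₗ (LinearMap.fst ℂ _ _)
  v2 := (LinearMap.inr ℂ _ _) ∘ₗ w2 M.h M.e M.f ∘ₗ (LinearMap.fst ℂ _ _)
  Ft := fun j x hx => ⟨sh_mem _ _ hx.1, by
    have h1 := om_mem M _ _ hx.2
    have h2 : x.2 ∈ (M.F (j + 1 + 1)).prod (M.F (j + 1 + 1)) := ⟨M.mono _ hx.2.1, M.mono _ hx.2.2⟩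
    have h3 := Submodule.sub_mem _ (Submodule.neg_mem _ h1) h2
    exact h3⟩
  Fv1 := fun j x hx => ⟨Submodule.zero_mem _, by
    have := w1_mem M j x.1 hx.1
    rw [show j - 1 + 1 = j by ring]
    exact this⟩
  Fv2 := fun j x hx => ⟨Submodule.zero_mem _, by
    have := w2_mem M j x.1 hx.1
    rw [show j - 1 + 1 = j by ring]
    exact this⟩
  th := fun x => Prod.ext (mp_sh M.h x.1).symm (by
    have := om_hV M x.2
    simp only [LinearMap.prodMap_apply, LinearMap.sub_apply, LinearMap.neg_apply,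
      LinearMap.id_apply, map_sub, map_neg, this])
  te := fun x => Prod.ext (mp_sh M.e x.1).symm (by
    have := om_eV M x.2
    simp only [LinearMap.prodMap_apply, LinearMap.sub_apply, LinearMap.neg_apply,
      LinearMap.id_apply, map_sub, map_neg, this])
  tf := fun x => Prod.ext (mp_sh M.f x.1).symm (by
    have := om_fV M x.2
    simp only [LinearMap.prodMap_apply, LinearMap.sub_apply, LinearMap.neg_apply,
      LinearMap.id_apply, map_sub, map_neg, this])
  tv1 := fun x => Prod.ext (by simp) (by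
    have := w1_sh M x.1
    simp only [LinearMap.comp_apply, LinearMap.fst_apply, LinearMap.inr_apply,
      LinearMap.prodMap_apply, LinearMap.sub_apply, LinearMap.neg_apply,
      LinearMap.id_apply, this, Prod.snd_sub])
  tv2 := fun x => Prod.ext (by simp) (by
    have := w2_sh M x.1
    simp only [LinearMap.comp_apply, LinearMap.fst_apply, LinearMap.inr_apply,
      LinearMap.prodMap_apply, LinearMap.sub_apply, LinearMap.neg_apply,
      LinearMap.id_apply, this, Prod.snd_sub])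
  hv1 := fun x => Prod.ext (by simp) (w1_h M x.1)
  hv2 := fun x => Prod.ext (by simp) (w2_h M x.1)
  ev1 := fun x => Prod.ext (by simp) (w1_e M x.1)
  ev2 := fun x => Prod.ext (by simp) (w2_e M x.1)
  fv1 := fun x => Prod.ext (by simp) (w1_f M x.1)
  fv2 := fun x => Prod.ext (by simp) (w2_f M x.1)
  d1 := fun x => Prod.ext (by simp) (w_d1 M x.1)
  d2 := fun x => Prod.ext (by simp) (w_d2 M x.1)
  v11 := fun x => by simp
  v12 := fun x => by simp
  v21 := fun x => by simp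
  v22 := fun x => by simp

end Crest.Agent.R178
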