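import Crest.Agent.R178.Basic

/-!
# R178: the functors `FS, IH, IE, IF`
-/

set_option autoImplicit false

namespace Crest.Agent.R178

/-! ### `FS M = M[x]` with the total degree filtration -/

noncomputable abbrev FS (M : VMod) : VMod where
  X := ℕ →₀ M.X
  F := fun j =>
    { carrier := {φ | ∀ c : ℕ, φ c ∈ M.F (j - c)}
      zero_mem' := fun c => by simp
      add_mem' := fun {a b} ha hb c => by simpa using Submodule.add_mem _ (ha c) (hb c)
      smul_mem' := fun r a ha c => by simpa using Submodule.smul_mem _ r (ha c) }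
  mono := fun j φ hφ c => by
    have := M.mono (j - c) (hφ c)
    rwa [show j - c + 1 = j + 1 - c by ring] at this

lemma mem_FS {M : VMod} {j : ℤ} {φ : ℕ →₀ M.X} :
    φ ∈ (FS M).F j ↔ ∀ c : ℕ, φ c ∈ M.F (j - c) := Iff.rfl

lemma single_mem_FS {M : VMod} {j : ℤ} {c : ℕ} {m : M.X} (h : m ∈ M.F (j - c)) :
    Finsupp.single c m ∈ (FS M).F j := by
  intro d
  by_cases hd : c = d
  · subst hd; simpa using h
  · rw [Finsupp.single_eq_of_ne (Ne.symm hd)]; exact Submodule.zero_mem _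

/-- to check that a linear map respects the filtrations it is enough to look at monomials -/
lemma FS_le {M : VMod} {j : ℤ} {B : Type} [AddCommGroup B] [Module ℂ B]
    (g : (ℕ →₀ M.X) →ₗ[ℂ] B) (S : Submodule ℂ B)
    (H : ∀ (c : ℕ) (m : M.X), m ∈ M.F (j - c) → g (Finsupp.single c m) ∈ S) :
    ∀ φ ∈ (FS M).F j, g φ ∈ S := by
  intro φ hφ
  have : φ = φ.sum (fun c m => Finsupp.single c m) := (Finsupp.sum_single φ).symm
  rw [this, Finsupp.sum, map_sum]
  exact Submodule.sum_mem _ (fun c _ => H c _ (hφ c))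

lemma sh_mem {M : VMod} (j : ℤ) (φ : ℕ →₀ M.X) (hφ : φ ∈ (FS M).F j) :
    sh M.X φ ∈ (FS M).F (j + 1) := by
  refine FS_le (sh M.X) _ ?_ φ hφ
  intro c m hm
  rw [sh_single]
  apply single_mem_FS
  rwa [show j + 1 - ((c + 1 : ℕ) : ℤ) = j - c by push_cast; ring]

lemma shift_of_mem {M : VMod} {i j : ℤ} {x : M.X} (h : x ∈ M.F i) (hij : i ≤ j) : x ∈ M.F j := by
  obtain ⟨n, rfl⟩ := Int.le.dest hij
  clear hij
  induction n with
  | zero => simpa using h
  | succ n ih =>
    have := M.mono _ ih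
    rwa [show i + (n : ℤ) + 1 = i + ((n + 1 : ℕ) : ℤ) by push_cast; ring] at this

/-! ### `IH V = V[h]` -/

noncomputable abbrev IH (V : VMod) : KMod where
  toVMod := FS V
  h := sh V.X
  Fh := sh_mem

/-! ### Operators -/

section ops
variable {A : Type} [AddCommGroup A] [Module ℂ A]

/-- `h (e^c m) = e^c (h + 2c) m` -/
noncomputable def hE (h : A →ₗ[ℂ] A) : (ℕ →₀ A) →ₗ[ℂ] (ℕ →₀ A) :=
  dg (fun c => h + ((2 : ℂ) * c) • LinearMap.id)

/-- `h (f^b m) = f^b (h - 2b) m` -/
noncomputable def hF (h : A →ₗ[ℂ] A) : (ℕ →₀ A) →ₗ[ℂ] (ℕ →₀ A) :=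
  dg (fun b => h - ((2 : ℂ) * b) • LinearMap.id)

/-- `e (f^b m) = f^b (e m) + b f^(b-1) (h - (b-1)) m` -/
noncomputable def eF (h e : A →ₗ[ℂ] A) : (ℕ →₀ A) →ₗ[ℂ] (ℕ →₀ A) :=
  mp e + dn (fun b => (b : ℂ) • (h - ((b : ℂ) - 1) • LinearMap.id))

@[simp] lemma hE_single (h : A →ₗ[ℂ] A) (c : ℕ) (m : A) :
    hE h (Finsupp.single c m) = Finsupp.single c (h m + ((2 : ℂ) * c) • m) := by
  simp [hE]

@[simp] lemma hF_single (h : A →ₗ[ℂ] A) (c : ℕ) (m : A) :
    hF h (Finsupp.single c m) = Finsupp.single c (h m - ((2 : ℂ) * c) • m) := by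
  simp [hF]

@[simp] lemma eF_single_zero (h e : A →ₗ[ℂ] A) (m : A) :
    eF h e (Finsupp.single 0 m) = Finsupp.single 0 (e m) := by
  simp [eF]

@[simp] lemma eF_single_succ (h e : A →ₗ[ℂ] A) (b : ℕ) (m : A) :
    eF h e (Finsupp.single (b + 1) m) = Finsupp.single (b + 1) (e m) +
      Finsupp.single b (((b : ℂ) + 1) • (h m - (b : ℂ) • m)) := by
  simp [eF]

lemma hE_mem {M : KMod} (j : ℤ) (φ : ℕ →₀ M.X) (hφ : φ ∈ (FS M.toVMod).F j) :
    hE M.h φ ∈ (FS M.toVMod).F (j + 1) := by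
  refine FS_le _ _ ?_ φ hφ
  intro c m hm
  rw [hE_single]
  apply single_mem_FS
  have h1 := M.Fh _ m hm
  have h2 := M.mono _ hm
  have h3 := Submodule.add_mem _ h1 (Submodule.smul_mem _ ((2 : ℂ) * c) h2)
  rw [show j + 1 - (c : ℤ) = j - c + 1 by ring]
  simpa using h3

lemma hF_mem {M : KMod} (j : ℤ) (φ : ℕ →₀ M.X) (hφ : φ ∈ (FS M.toVMod).F j) :
    hF M.h φ ∈ (FS M.toVMod).F (j + 1) := by
  refine FS_le _ _ ?_ φ hφ
  intro c m hm
  rw [hF_single]
  apply single_mem_FS
  have h1 := M.Fh _ m hm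
  have h2 := M.mono _ hm
  have h3 := Submodule.sub_mem _ h1 (Submodule.smul_mem _ ((2 : ℂ) * c) h2)
  rw [show j + 1 - (c : ℤ) = j - c + 1 by ring]
  simpa using h3

lemma eF_mem {M : BMod} (j : ℤ) (φ : ℕ →₀ M.X) (hφ : φ ∈ (FS M.toVMod).F j) :
    eF M.h M.e φ ∈ (FS M.toVMod).F (j + 1) := by
  refine FS_le _ _ ?_ φ hφ
  intro c m hm
  rcases c with _ | c
  · rw [eF_single_zero]
    apply single_mem_FS
    have := M.Fe _ _ hm
    rwa [show j - ((0 : ℕ) : ℤ) + 1 = j + 1 - ((0 : ℕ) : ℤ) by push_cast; ring] at this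
  · rw [eF_single_succ]
    apply Submodule.add_mem
    · apply single_mem_FS
      rw [show j + 1 - ((c + 1 : ℕ) : ℤ) = j - ((c + 1 : ℕ) : ℤ) + 1 by ring]
      exact M.Fe _ _ hm
    · apply single_mem_FS
      have h1 := M.Fh _ m hm
      have h2 := M.mono _ hm
      have h3 := Submodule.smul_mem _ ((c : ℂ) + 1)
        (Submodule.sub_mem _ h1 (Submodule.smul_mem _ (c : ℂ) h2))
      refine shift_of_mem (i := j - ((c + 1 : ℕ) : ℤ) + 1) h3 ?_
      push_cast
      linarith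

lemma hE_sh (h : A →ₗ[ℂ] A) (x : ℕ →₀ A) :
    hE h (sh A x) = sh A (hE h x) + (2 : ℂ) • sh A x := by
  refine fs_ext (f := hE h ∘ₗ sh A) (g := sh A ∘ₗ hE h + (2 : ℂ) • sh A) (fun c m => ?_) x
  simp only [LinearMap.comp_apply, LinearMap.add_apply, LinearMap.smul_apply, sh_single,
    hE_single, Finsupp.smul_single, ← Finsupp.single_add]
  congr 1
  push_cast
  module

lemma hF_sh (h : A →ₗ[ℂ] A) (x : ℕ →₀ A) :
    hF h (sh A x) = sh A (hF h x) - (2 : ℂ) • sh A x := by
  refine fs_ext (f := hF h ∘ₗ sh A) (g := sh A ∘ₗ hF h - (2 : ℂ) • sh A) (fun c m => ?_) x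
  simp only [LinearMap.comp_apply, LinearMap.sub_apply, LinearMap.smul_apply, sh_single,
    hF_single, Finsupp.smul_single, ← Finsupp.single_sub]
  congr 1
  push_cast
  module

lemma hF_eF (h e : A →ₗ[ℂ] A) (he : ∀ x, h (e x) = e (h x) + (2 : ℂ) • e x) (x : ℕ →₀ A) :
    hF h (eF h e x) = eF h e (hF h x) + (2 : ℂ) • eF h e x := by
  refine fs_ext (f := hF h ∘ₗ eF h e) (g := eF h e ∘ₗ hF h + (2 : ℂ) • eF h e)
    (fun c m => ?_) x
  rcases c with _ | c
  · simp only [LinearMap.comp_apply, LinearMap.add_apply, LinearMap.smul_apply,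
      hF_single, eF_single_zero, Finsupp.smul_single, ← Finsupp.single_add]
    congr 1
    simp [he]
  · simp only [LinearMap.comp_apply, LinearMap.add_apply, LinearMap.smul_apply,
      hF_single, eF_single_succ, map_add, smul_add, Finsupp.smul_single]
    rw [add_add_add_comm, ← Finsupp.single_add, ← Finsupp.single_add]
    congr 2
    · simp only [map_sub, map_smul, he]
      module
    · simp only [map_sub, map_smul]
      push_cast
      module

lemma eF_sh (h e : A →ₗ[ℂ] A) (x : ℕ →₀ A) :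
    eF h e (sh A x) = sh A (eF h e x) + hF h x := by
  refine fs_ext (f := eF h e ∘ₗ sh A) (g := sh A ∘ₗ eF h e + hF h) (fun c m => ?_) x
  rcases c with _ | c
  · simp only [LinearMap.comp_apply, LinearMap.add_apply, sh_single,
      hF_single, eF_single_zero, eF_single_succ]
    congr 2
    simp
  · simp only [LinearMap.comp_apply, LinearMap.add_apply, sh_single,
      hF_single, eF_single_succ, map_add]
    rw [add_assoc (Finsupp.single (c + 1 + 1) (e m)), ← Finsupp.single_add]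
    congr 2
    push_cast
    module

end ops

/-! ### `IE M = M[e]` -/

noncomputable abbrev IE (M : KMod) : BMod where
  toVMod := FS M.toVMod
  h := hE M.h
  Fh := hE_mem
  e := sh M.X
  Fe := sh_mem
  he := hE_sh M.h

/-! ### `IF M = M[f]` -/

noncomputable abbrev IF (M : BMod) : SMod where
  toVMod := FS M.toVMod
  h := hF M.h
  Fh := hF_mem
  e := eF M.h M.e
  Fe := eF_mem
  he := hF_eF M.h M.e M.he
  f := sh M.X
  Ff := sh_mem
  hf := hF_sh M.h
  ef := eF_sh M.h M.e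

/-! ### functoriality -/

lemma mp_mem {A B : VMod} {g : A.X →ₗ[ℂ] B.X} (hg : IsV A B g) : IsV (FS A) (FS B) (mp g) :=
  ⟨fun j φ hφ c => by rw [mp_apply]; exact hg.F _ _ (hφ c)⟩

lemma mp_sh {A B : Type} [AddCommGroup A] [Module ℂ A] [AddCommGroup B] [Module ℂ B]
    (g : A →ₗ[ℂ] B) (x : ℕ →₀ A) : mp g (sh A x) = sh B (mp g x) :=
  fs_ext (f := mp g ∘ₗ sh A) (g := sh B ∘ₗ mp g) (fun c m => by simp) x

lemma isK_mp {A B : VMod} {g : A.X →ₗ[ℂ] B.X} (hg : IsV A B g) : IsK (IH A) (IH B) (mp g) :=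
  { mp_mem hg with h := mp_sh g }

lemma isB_mp {A B : KMod} {g : A.X →ₗ[ℂ] B.X} (hg : IsK A B g) : IsB (IE A) (IE B) (mp g) :=
  { mp_mem hg.toIsV with
    e := mp_sh g
    h := fs_ext (f := mp g ∘ₗ hE A.h) (g := hE B.h ∘ₗ mp g) (fun c m => by simp [hg.h]) }

lemma isS_mp {A B : BMod} {g : A.X →ₗ[ℂ] B.X} (hg : IsB A B g) : IsS (IF A) (IF B) (mp g) :=
  { mp_mem hg.toIsV with
    f := mp_sh g
    h := fs_ext (f := mp g ∘ₗ hF A.h) (g := hF B.h ∘ₗ mp g) (fun c m => by simp [hg.h])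
    e := fs_ext (f := mp g ∘ₗ eF A.h A.e) (g := eF B.h B.e ∘ₗ mp g) (fun c m => by
      rcases c with _ | c <;> simp [hg.h, hg.e]) }

/-! ### exactness -/

lemma ex_mp {A B C : VMod} {f : A.X →ₗ[ℂ] B.X} {g : B.X →ₗ[ℂ] C.X} (H : Ex A B C f g) :
    Ex (FS A) (FS B) (FS C) (mp f) (mp g) where
  inj := fun x hx => by
    ext c
    apply H.inj
    have := DFunLike.congr_fun hx c
    simpa using this
  zero := fun x => by
    ext c
    simp [H.zero]
  exact := fun j y hy h => by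
    have h' : ∀ c, g (y c) = 0 := fun c => by
      have := DFunLike.congr_fun h c
      simpa using this
    choose x hx hfx using fun c : ℕ => H.exact (j - c) (y c) (hy c) (h' c)
    refine ⟨Finsupp.onFinset y.support x (fun c hc => ?_), ?_, ?_⟩
    · rw [Finsupp.mem_support_iff]
      intro h0
      apply hc
      apply H.inj
      rw [hfx, h0]
    · intro c
      exact hx c
    · ext c
      simp [hfx]
  surj := fun j z hz => by
    classical
    choose y hy hgy using fun c : ℕ => H.surj (j - c) (z c) (hz c)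
    refine ⟨Finsupp.onFinset z.support (fun c => if z c = 0 then 0 else y c)
      (fun c hc => ?_), ?_, ?_⟩
    · rw [Finsupp.mem_support_iff]
      intro h0
      apply hc
      simp [h0]
    · intro c
      simp only [Finsupp.onFinset_apply]
      split_ifs
      · exact Submodule.zero_mem _
      · exact hy c
    · ext c
      simp only [mp_apply, Finsupp.onFinset_apply]
      split_ifs with h0
      · simp [h0]
      · exact hgy c

end Crest.Agent.R178
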