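import Crest.Agent.R178.Base

/-!
# R178: projective dimensions of `N1, N2, G` of constant modules
-/

set_option autoImplicit false

open CategoryTheory CategoryTheory.Abelian

namespace Crest.Agent.R178

noncomputable abbrev N1 (M : KMod) : UMod := G (IF (IE M))
noncomputable abbrev N2 (M : BMod) : UMod := G (IF M)

lemma IsConst.shift {V : VMod} {i : ℤ} (h : IsConst V i) : IsConst (V.shift 1) (i + 1) where
  top := fun j hj x => h.top (j - 1) (by omega) x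
  bot := fun j hj x hx => h.bot (j - 1) (by omega) x hx

/-! ### the three families of exact sequences -/

lemma seq1_f (M : KMod) :
    IsU (N0 (M.toVMod.shift 1)) (N0 M.toVMod) (Gm (mp (mp (theta M.h)))) :=
  isU_Gm (isS_mp (isB_mp (isK_theta M)))

lemma seq1_g (M : KMod) :
    IsU (N0 M.toVMod) (N1 M) (Gm (mp (mp (evg M.h LinearMap.id)))) :=
  isU_Gm (isS_mp (isB_mp (isK_ev M)))

lemma seq1_ex (M : KMod) :
    ExW (N0 (M.toVMod.shift 1)).toVMod (N0 M.toVMod).toVMod (N1 M).toVMod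
      (Gm (mp (mp (theta M.h)))) (Gm (mp (mp (evg M.h LinearMap.id)))) :=
  (ex_Gm (A := IF (IE (IH (M.toVMod.shift 1)))) (B := IF (IE (IH M.toVMod))) (C := IF (IE M))
    (ex_mp (ex_mp (ex_theta M.Fh)))).exW

lemma seq2_f (M : BMod) :
    IsU (N1 (M.tw.shift 1)) (N1 M.toKMod) (Gm (mp (theta M.e))) :=
  isU_Gm (isS_mp (isB_theta M))

lemma seq2_g (M : BMod) :
    IsU (N1 M.toKMod) (N2 M) (Gm (mp (evg M.e LinearMap.id))) :=
  isU_Gm (isS_mp (isB_ev M))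

lemma seq2_ex (M : BMod) :
    ExW (N1 (M.tw.shift 1)).toVMod (N1 M.toKMod).toVMod (N2 M).toVMod
      (Gm (mp (theta M.e))) (Gm (mp (evg M.e LinearMap.id))) :=
  (ex_Gm (A := IF (IE (M.tw.shift 1))) (B := IF (IE M.toKMod)) (C := IF M)
    (ex_mp (ex_theta M.Fe))).exW

lemma seq3_f (M : SMod) :
    IsU (N2 (M.tw.shift 1)) (N2 M.toBMod) (Gm (theta M.f)) :=
  isU_Gm (isS_theta M)

lemma seq3_g (M : SMod) :
    IsU (N2 M.toBMod) (G M) (Gm (evg M.f LinearMap.id)) :=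
  isU_Gm (isS_ev M)

lemma seq3_ex (M : SMod) :
    ExW (N2 (M.tw.shift 1)).toVMod (N2 M.toBMod).toVMod (G M).toVMod
      (Gm (theta M.f)) (Gm (evg M.f LinearMap.id)) :=
  (ex_Gm (A := IF (M.tw.shift 1)) (B := IF M.toBMod) (C := M) (ex_theta M.Ff)).exW

/-! ### level 0 -/

lemma pd0 (V : VMod) [Module.Finite ℂ V.X] (i : ℕ) (hi : i ≤ 4) (hV : IsConst V i) :
    pdLT (N0 V) 1 := by
  have := projective_W (Module.finBasis ℂ V.X) ⟨i, by omega⟩ (isFree_N0 V) hV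
  have h2 : Projective (MW (N0 V)) := (IsProjective.iff_projective _).1 this
  exact inferInstanceAs (HasProjectiveDimensionLT (MW (N0 V)) 1)

lemma ez0 (V : VMod) [Module.Finite ℂ V.X] (i : ℕ) (hi : i ≤ 3) (hV : IsConst V i) :
    EZ (MW S4) (N0 V) 0 :=
  EZ_free (Module.finBasis ℂ V.X) ⟨i, by omega⟩ (isFree_N0 V) hV (fun h => by
    have := congrArg Fin.val h
    simp at this
    omega)

lemma nez0 (V : VMod) [Module.Finite ℂ V.X] [Nontrivial V.X] (hV : IsConst V 4) :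
    ¬ EZ (MW S4) (N0 V) 0 := by
  have : 0 < Module.finrank ℂ V.X := Module.finrank_pos
  exact nEZ_free (Module.finBasis ℂ V.X) (isFree_N0 V) hV ⟨0, this⟩

/-! ### level 1 -/

lemma pd1 (M : KMod) [Module.Finite ℂ M.X] (i : ℕ) (hi : i ≤ 3) (hV : IsConst M.toVMod i) :
    pdLT (N1 M) 2 := by
  have hA : pdLT (N0 (M.toVMod.shift 1)) 1 := pd0 _ (i + 1) (by omega) (by
    have := hV.shift; exact_mod_cast this)
  have hB : pdLT (N0 M.toVMod) 1 := pd0 _ i (by omega) hV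
  exact pd₃ (seq1_f M) (seq1_g M) (seq1_ex M) hA (hB.mono (by omega))

lemma ez1 (M : KMod) [Module.Finite ℂ M.X] (i : ℕ) (hi : i ≤ 2) (hV : IsConst M.toVMod i) :
    EZ (MW S4) (N1 M) 1 := by
  have hA : EZ (MW S4) (N0 (M.toVMod.shift 1)) 0 := ez0 _ (i + 1) (by omega) (by
    have := hV.shift; exact_mod_cast this)
  have hB : pdLT (N0 M.toVMod) 1 := pd0 _ i (by omega) hV
  exact EZ₃ _ (seq1_f M) (seq1_g M) (seq1_ex M) hA (EZ_of_pdLT _ hB (by omega))

lemma nez1 (M : KMod) [Module.Finite ℂ M.X] [Nontrivial M.X] (hV : IsConst M.toVMod 3) :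
    ¬ EZ (MW S4) (N1 M) 1 := by
  have hA : ¬ EZ (MW S4) (N0 (M.toVMod.shift 1)) 0 := by
    have : Nontrivial (M.toVMod.shift 1).X := ‹Nontrivial M.X›
    exact nez0 _ (by have := hV.shift; exact_mod_cast this)
  have hB : EZ (MW S4) (N0 M.toVMod) 0 := ez0 _ 3 (by omega) hV
  exact nEZ₃ _ (seq1_f M) (seq1_g M) (seq1_ex M) hA hB

/-! ### level 2 -/

lemma pd2 (M : BMod) [Module.Finite ℂ M.X] (i : ℕ) (hi : i ≤ 2) (hV : IsConst M.toVMod i) :
    pdLT (N2 M) 3 := by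
  have : Module.Finite ℂ (M.tw.shift 1).X := ‹Module.Finite ℂ M.X›
  have hA : pdLT (N1 (M.tw.shift 1)) 2 := pd1 _ (i + 1) (by omega) (by
    have := hV.shift; exact_mod_cast this)
  have hB : pdLT (N1 M.toKMod) 2 := pd1 _ i (by omega) hV
  exact pd₃ (seq2_f M) (seq2_g M) (seq2_ex M) hA (hB.mono (by omega))

lemma ez2 (M : BMod) [Module.Finite ℂ M.X] (i : ℕ) (hi : i ≤ 1) (hV : IsConst M.toVMod i) :
    EZ (MW S4) (N2 M) 2 := by
  have : Module.Finite ℂ (M.tw.shift 1).X := ‹Module.Finite ℂ M.X›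
  have hA : EZ (MW S4) (N1 (M.tw.shift 1)) 1 := ez1 _ (i + 1) (by omega) (by
    have := hV.shift; exact_mod_cast this)
  have hB : pdLT (N1 M.toKMod) 2 := pd1 _ i (by omega) hV
  exact EZ₃ _ (seq2_f M) (seq2_g M) (seq2_ex M) hA (EZ_of_pdLT _ hB (by omega))

lemma nez2 (M : BMod) [Module.Finite ℂ M.X] [Nontrivial M.X] (hV : IsConst M.toVMod 2) :
    ¬ EZ (MW S4) (N2 M) 2 := by
  have : Module.Finite ℂ (M.tw.shift 1).X := ‹Module.Finite ℂ M.X›
  have hA : ¬ EZ (MW S4) (N1 (M.tw.shift 1)) 1 := by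
    have : Nontrivial (M.tw.shift 1).X := ‹Nontrivial M.X›
    exact nez1 _ (by have := hV.shift; exact_mod_cast this)
  have hB : EZ (MW S4) (N1 M.toKMod) 1 := ez1 _ 2 (by omega) hV
  exact nEZ₃ _ (seq2_f M) (seq2_g M) (seq2_ex M) hA hB

/-! ### level 3 -/

lemma pd3 (M : SMod) [Module.Finite ℂ M.X] (i : ℕ) (hi : i ≤ 1) (hV : IsConst M.toVMod i) :
    pdLT (G M) 4 := by
  have : Module.Finite ℂ (M.tw.shift 1).X := ‹Module.Finite ℂ M.X›
  have hA : pdLT (N2 (M.tw.shift 1)) 3 := pd2 _ (i + 1) (by omega) (by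
    have := hV.shift; exact_mod_cast this)
  have hB : pdLT (N2 M.toBMod) 3 := pd2 _ i (by omega) hV
  exact pd₃ (seq3_f M) (seq3_g M) (seq3_ex M) hA (hB.mono (by omega))

lemma ez3 (M : SMod) [Module.Finite ℂ M.X] (hV : IsConst M.toVMod 0) :
    EZ (MW S4) (G M) 3 := by
  have : Module.Finite ℂ (M.tw.shift 1).X := ‹Module.Finite ℂ M.X›
  have hA : EZ (MW S4) (N2 (M.tw.shift 1)) 2 := ez2 _ 1 (by omega) (by
    have := hV.shift; exact_mod_cast this)
  have hB : pdLT (N2 M.toBMod) 3 := pd2 _ 0 (by omega) hV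
  exact EZ₃ _ (seq3_f M) (seq3_g M) (seq3_ex M) hA (EZ_of_pdLT _ hB (by omega))

lemma nez3 (M : SMod) [Module.Finite ℂ M.X] [Nontrivial M.X] (hV : IsConst M.toVMod 1) :
    ¬ EZ (MW S4) (G M) 3 := by
  have : Module.Finite ℂ (M.tw.shift 1).X := ‹Module.Finite ℂ M.X›
  have hA : ¬ EZ (MW S4) (N2 (M.tw.shift 1)) 2 := by
    have : Nontrivial (M.tw.shift 1).X := ‹Nontrivial M.X›
    exact nez2 _ (by have := hV.shift; exact_mod_cast this)
  have hB : EZ (MW S4) (N2 M.toBMod) 2 := ez2 _ 1 (by omega) hV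
  exact nEZ₃ _ (seq3_f M) (seq3_g M) (seq3_ex M) hA hB

end Crest.Agent.R178
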