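import Crest.Agent.R178.PN

/-!
# R178: the four term exact sequence `0 → P_N → G(S_{N+1})(-1) → G(S_{N+1}) → E_N → 0`
-/

set_option autoImplicit false

open Polynomial

namespace Crest.Agent.R178

section kap

lemma kh1 (N : ℕ) (x : PX N) : qi N (qh N x) = qh (N + 1) (qi N x) + qi N x := by
  apply Subtype.ext
  simp only [qh_coe, Submodule.coe_add, qi_coe, ph_apply]
  push_cast
  simp only [C_add, C_sub, C_1]
  ring

lemma kh2 (N : ℕ) (x : PX N) : qx N (qh N x) = qh (N + 1) (qx N x) - qx N x := by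
  apply Subtype.ext
  simp only [qh_coe, Submodule.coe_sub, qx_coe, ph_apply, derivative_mul, derivative_X]
  push_cast
  simp only [C_add, C_sub, C_1]
  ring

lemma ke1 (N : ℕ) (x : PX N) : qi N (qe N x) = qe (N + 1) (qi N x) - qx N x := by
  apply Subtype.ext
  simp only [qe_coe, Submodule.coe_sub, qx_coe, qi_coe, pe_apply]
  push_cast
  simp only [C_add, C_sub, C_1]
  ring

lemma ke2 (N : ℕ) (x : PX N) : qx N (qe N x) = qe (N + 1) (qx N x) := by
  apply Subtype.ext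
  simp only [qe_coe, qx_coe, pe_apply, derivative_mul, derivative_X]
  push_cast
  simp only [C_add, C_sub, C_1]
  ring

lemma kf1 (N : ℕ) (x : PX N) : qi N (qf N x) = qf (N + 1) (qi N x) := by
  apply Subtype.ext
  simp only [qf_coe, qi_coe]

lemma kf2 (N : ℕ) (x : PX N) : qx N (qf N x) = qf (N + 1) (qx N x) - qi N x := by
  apply Subtype.ext
  simp only [qf_coe, Submodule.coe_sub, qx_coe, qi_coe, derivative_mul, derivative_X]
  ring

lemma kp_h (N : ℕ) (x : PX N) : kp N (qh N x) = hV (qh (N + 1)) (kp N x) := by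
  rw [kp_apply, kp_apply, hV_apply, kh1, kh2, map_neg]
  refine Prod.ext rfl ?_
  simp only; abel

lemma kp_e (N : ℕ) (x : PX N) : kp N (qe N x) = eV (qe (N + 1)) (kp N x) := by
  rw [kp_apply, kp_apply, eV_apply, ke1, ke2, map_neg, sub_eq_add_neg]

lemma kp_f (N : ℕ) (x : PX N) : kp N (qf N x) = fV (qf (N + 1)) (kp N x) := by
  rw [kp_apply, kp_apply, fV_apply, kf1, kf2, map_neg]
  refine Prod.ext rfl ?_
  simp only; abel

lemma isU_kap (N : ℕ) : IsU (PU N) (G ((SN (N + 1)).shift 1)) (kap N) where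
  F := fun j x hx => ⟨Submodule.zero_mem _,
    cF_map (qi N) (i' := 0) (j' := j + 1 - 1) (by omega) x hx,
    cF_map (-(qx N)) (i' := 0) (j' := j + 1 - 1) (by omega) x hx⟩
  h := fun x => Prod.ext (map_zero (mp _)).symm (kp_h N x)
  e := fun x => Prod.ext (map_zero (mp _)).symm (kp_e N x)
  f := fun x => Prod.ext (map_zero (mp _)).symm (kp_f N x)
  t := fun x => Prod.ext (map_zero (sh _)).symm (by
    have := kp_om N x
    change kp N (((N : ℂ) + 1) • x) = -(SN (N + 1)).om (kp N x) - kp N x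
    rw [this, map_smul]
    module)
  v1 := fun x => by
    refine (map_zero (kap N)).trans ?_
    exact Prod.ext rfl (map_zero (w1 (qh (N + 1)) (qe (N + 1)) (qf (N + 1)))).symm
  v2 := fun x => by
    refine (map_zero (kap N)).trans ?_
    exact Prod.ext rfl (map_zero (w2 (qh (N + 1)) (qe (N + 1)) (qf (N + 1)))).symm

end kap

section piE

/-- `(a,b) ↦ N a - x a' - b'` -/
noncomputable def del (N : ℕ) : (PX (N + 1) × PX (N + 1)) →ₗ[ℂ] PX N :=
  (qv1 N).coprod (qv2 N)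

lemma del_apply (N : ℕ) (p : PX (N + 1) × PX (N + 1)) : del N p = qv1 N p.1 + qv2 N p.2 := rfl

noncomputable def piE (N : ℕ) :
    ((ℕ →₀ PX (N + 1)) × (PX (N + 1) × PX (N + 1))) →ₗ[ℂ] (PX (N + 1) × PX N) :=
  (evg (((N : ℂ) + 2) • LinearMap.id) LinearMap.id).prodMap (del N)

lemma r_hv1 (N : ℕ) (a : PX (N + 1)) : qh N (qv1 N a) = qv1 N (qh (N + 1) a) + qv1 N a :=
  congrArg Prod.snd ((EU N).hv1 (a, 0))

lemma r_hv2 (N : ℕ) (a : PX (N + 1)) : qh N (qv2 N a) = qv2 N (qh (N + 1) a) - qv2 N a :=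
  congrArg Prod.snd ((EU N).hv2 (a, 0))

lemma r_ev1 (N : ℕ) (a : PX (N + 1)) : qe N (qv1 N a) = qv1 N (qe (N + 1) a) :=
  congrArg Prod.snd ((EU N).ev1 (a, 0))

lemma r_ev2 (N : ℕ) (a : PX (N + 1)) : qe N (qv2 N a) = qv2 N (qe (N + 1) a) + qv1 N a :=
  congrArg Prod.snd ((EU N).ev2 (a, 0))

lemma r_fv1 (N : ℕ) (a : PX (N + 1)) : qf N (qv1 N a) = qv1 N (qf (N + 1) a) + qv2 N a :=
  congrArg Prod.snd ((EU N).fv1 (a, 0))

lemma r_fv2 (N : ℕ) (a : PX (N + 1)) : qf N (qv2 N a) = qv2 N (qf (N + 1) a) :=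
  congrArg Prod.snd ((EU N).fv2 (a, 0))

lemma r_d1 (N : ℕ) (a : PX (N + 1)) : qv1 N (((N : ℂ) + 2) • a) + qv1 N (qh (N + 1) a) +
    (2 : ℂ) • qv2 N (qe (N + 1) a) = 0 :=
  congrArg Prod.snd ((EU N).d1 (a, 0))

lemma r_d2 (N : ℕ) (a : PX (N + 1)) : qv2 N (((N : ℂ) + 2) • a) - qv2 N (qh (N + 1) a) +
    (2 : ℂ) • qv1 N (qf (N + 1) a) = 0 :=
  congrArg Prod.snd ((EU N).d2 (a, 0))

lemma del_h (N : ℕ) (p : PX (N + 1) × PX (N + 1)) :
    del N (hV (qh (N + 1)) p) = qh N (del N p) := by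
  simp only [del_apply, hV_apply, map_add, map_sub, r_hv1, r_hv2]

lemma del_e (N : ℕ) (p : PX (N + 1) × PX (N + 1)) :
    del N (eV (qe (N + 1)) p) = qe N (del N p) := by
  simp only [del_apply, eV_apply, map_add, r_ev1, r_ev2]
  abel

lemma del_f (N : ℕ) (p : PX (N + 1) × PX (N + 1)) :
    del N (fV (qf (N + 1)) p) = qf N (del N p) := by
  simp only [del_apply, fV_apply, map_add, r_fv1, r_fv2]
  abel

lemma del_om (N : ℕ) (p : PX (N + 1) × PX (N + 1)) :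
    del N ((SN (N + 1)).om p) = -(((N : ℂ) + 2) • del N p) := by
  have h1 := r_d1 N p.1
  have h2 := r_d2 N p.2
  simp only [del_apply, om_apply, map_add, map_sub, map_smul] at h1 h2 ⊢
  have h3 : qv1 N (qh (N + 1) p.1) = -(((N : ℂ) + 2) • qv1 N p.1) -
      (2 : ℂ) • qv2 N (qe (N + 1) p.1) := by
    rw [eq_sub_iff_add_eq, eq_neg_iff_add_eq_zero, ← h1]; abel
  have h4 : (2 : ℂ) • qv1 N (qf (N + 1) p.2) = qv2 N (qh (N + 1) p.2) -
      ((N : ℂ) + 2) • qv2 N p.2 := by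
    rw [eq_sub_iff_add_eq, ← sub_eq_zero, ← h2]; abel
  rw [h3, h4]
  module

lemma ev_mp {A : Type} [AddCommGroup A] [Module ℂ A] (τ : ℂ) (g : A →ₗ[ℂ] A) (x : ℕ →₀ A) :
    evg (τ • LinearMap.id) LinearMap.id (mp g x) = g (evg (τ • LinearMap.id) LinearMap.id x) := by
  refine fs_ext (f := evg (τ • LinearMap.id) LinearMap.id ∘ₗ mp g)
    (g := g ∘ₗ evg (τ • LinearMap.id) LinearMap.id) (fun c m => ?_) x
  simp only [LinearMap.comp_apply, mp_single, evg_single, LinearMap.id_apply]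
  induction c with
  | zero => simp
  | succ c ih =>
    rw [pow_succ', Module.End.mul_apply, ih, Module.End.mul_apply]
    simp

lemma ev_sh {A : Type} [AddCommGroup A] [Module ℂ A] (Y : A →ₗ[ℂ] A) (x : ℕ →₀ A) :
    evg Y LinearMap.id (sh A x) = Y (evg Y LinearMap.id x) :=
  fs_ext (f := evg Y LinearMap.id ∘ₗ sh A)
    (g := Y ∘ₗ evg Y LinearMap.id) (fun c m => by simp [pow_succ']) x

lemma del_om_pow (N : ℕ) (c : ℕ) (p : PX (N + 1) × PX (N + 1)) :
    del N (((-(SN (N + 1)).om) ^ c) p) = (((N : ℂ) + 2) ^ c) • del N p := by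
  induction c generalizing p with
  | zero => simp
  | succ c ih =>
    rw [pow_succ, Module.End.mul_apply, ih, LinearMap.neg_apply, map_neg, del_om, neg_neg,
      pow_succ, mul_smul]

lemma smul_id_pow {A : Type} [AddCommGroup A] [Module ℂ A] (τ : ℂ) (c : ℕ) (m : A) :
    ((τ • (LinearMap.id : A →ₗ[ℂ] A)) ^ c) m = (τ ^ c) • m := by
  induction c generalizing m with
  | zero => simp
  | succ c ih =>
    rw [pow_succ, Module.End.mul_apply, ih, pow_succ, mul_smul]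
    simp

lemma del_w1 (N : ℕ) (x : ℕ →₀ PX (N + 1)) :
    del N (w1 (qh (N + 1)) (qe (N + 1)) (qf (N + 1)) x) =
      qv1 N (evg (((N : ℂ) + 2) • LinearMap.id) LinearMap.id x) := by
  refine fs_ext (f := del N ∘ₗ w1 (qh (N + 1)) (qe (N + 1)) (qf (N + 1)))
    (g := qv1 N ∘ₗ evg (((N : ℂ) + 2) • LinearMap.id) LinearMap.id) (fun c m => ?_) x
  simp only [LinearMap.comp_apply, w1, evg_single, LinearMap.id_apply]
  have := del_om_pow N c (LinearMap.inl ℂ _ _ m)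
  rw [smul_id_pow, map_smul]
  refine this.trans ?_
  congr 1
  simp [del_apply]

lemma del_w2 (N : ℕ) (x : ℕ →₀ PX (N + 1)) :
    del N (w2 (qh (N + 1)) (qe (N + 1)) (qf (N + 1)) x) =
      qv2 N (evg (((N : ℂ) + 2) • LinearMap.id) LinearMap.id x) := by
  refine fs_ext (f := del N ∘ₗ w2 (qh (N + 1)) (qe (N + 1)) (qf (N + 1)))
    (g := qv2 N ∘ₗ evg (((N : ℂ) + 2) • LinearMap.id) LinearMap.id) (fun c m => ?_) x
  simp only [LinearMap.comp_apply, w2, evg_single, LinearMap.id_apply]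
  have := del_om_pow N c (LinearMap.inr ℂ _ _ m)
  rw [smul_id_pow, map_smul]
  refine this.trans ?_
  congr 1
  simp [del_apply]

lemma isU_piE (N : ℕ) : IsU (G (SN (N + 1))) (EU N) (piE N) where
  F := fun j x hx => ⟨(isV_ev (M := (SN (N + 1)).toVMod) (fun j x hx =>
      cF_map _ (i' := 0) (j' := j + 1) (by omega) x hx)).F j x.1 hx.1, by
    have h1 := cF_map (qv1 N) (i' := -1) (j' := j) (by omega) x.2.1 hx.2.1
    have h2 := cF_map (qv2 N) (i' := -1) (j' := j) (by omega) x.2.2 hx.2.2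
    exact Submodule.add_mem _ h1 h2⟩
  h := fun x => Prod.ext (ev_mp _ _ _) (del_h N x.2)
  e := fun x => Prod.ext (ev_mp _ _ _) (del_e N x.2)
  f := fun x => Prod.ext (ev_mp _ _ _) (del_f N x.2)
  t := fun x => Prod.ext (ev_sh _ _) (by
    have := del_om N x.2
    change del N (-(SN (N + 1)).om x.2 - x.2) = ((N : ℂ) + 1) • del N x.2
    rw [map_sub, map_neg, this]
    module)
  v1 := fun x => Prod.ext
    (map_zero (evg (((N : ℂ) + 2) • (LinearMap.id : PX (N + 1) →ₗ[ℂ] PX (N + 1))) LinearMap.id))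
    (del_w1 N x.1)
  v2 := fun x => Prod.ext
    (map_zero (evg (((N : ℂ) + 2) • (LinearMap.id : PX (N + 1) →ₗ[ℂ] PX (N + 1))) LinearMap.id))
    (del_w2 N x.1)

end piE

section exact

lemma kap_inj (N : ℕ) (x : PX N) (hx : kap N x = 0) : x = 0 := by
  have h1 : qi N x = 0 := congrArg (fun y => y.2.1) hx
  have h2 : ((qi N x : PX (N + 1)) : ℂ[X]) = 0 := by rw [h1]; rfl
  rw [qi_coe] at h2
  exact Subtype.ext h2

lemma theta_kap (N : ℕ) (q : PX N) : thetaG (SN (N + 1)) ((N : ℂ) + 2) (kap N q) = 0 := by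
  have := kp_om N q
  refine Prod.ext (map_zero (theta _)) ?_
  change -(SN (N + 1)).om (kp N q) - ((N : ℂ) + 2) • kp N q = 0
  rw [this]
  module

lemma piE_theta (N : ℕ) (x : (ℕ →₀ PX (N + 1)) × (PX (N + 1) × PX (N + 1))) :
    piE N (thetaG (SN (N + 1)) ((N : ℂ) + 2) x) = 0 := by
  refine Prod.ext ?_ ?_
  · exact (ex_theta (M := (SN (N + 1)).toVMod) (Y := ((N : ℂ) + 2) • LinearMap.id)
      (fun j x hx => cF_map _ (i' := 0) (j' := j + 1) (by omega) x hx)).zero x.1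
  · change del N (-(SN (N + 1)).om x.2 - ((N : ℂ) + 2) • x.2) = 0
    rw [map_sub, map_neg, del_om, map_smul]
    module

lemma del_kp (N : ℕ) (q : PX N) : del N (kp N q) = ((N : ℂ) + 1) • q := by
  rw [del_apply, kp_apply]
  apply Subtype.ext
  simp only [map_neg, Submodule.coe_add, Submodule.coe_neg, qv1_coe, qv2_coe, qi_coe, qx_coe,
    pv_apply, derivative_mul, derivative_X, Submodule.coe_smul, smul_eq_C_mul, C_add, C_1]
  ring

lemma piE_surj (N : ℕ) (j : ℤ) (hj : 0 ≤ j) (z : (EU N).X) :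
    ∃ x ∈ (G (SN (N + 1))).F j, piE N x = z := by
  refine ⟨(Finsupp.single 0 z.1, ((N : ℂ) + 1)⁻¹ • kp N z.2), ⟨?_, ?_⟩, ?_⟩
  · apply single_mem_FS (M := (SN (N + 1)).toVMod)
    rw [show (SN (N + 1)).F (j - ((0 : ℕ) : ℤ)) = cF _ 0 (j - ((0 : ℕ) : ℤ)) from rfl,
      cF_of_le (by push_cast; omega)]
    trivial
  · have : (SN (N + 1)).F (j + 1) = ⊤ := cF_of_le (by omega)
    rw [this]
    exact ⟨trivial, trivial⟩
  · refine Prod.ext ?_ ?_
    · change evg _ LinearMap.id (Finsupp.single 0 z.1) = z.1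
      simp
    · change del N (((N : ℂ) + 1)⁻¹ • kp N z.2) = z.2
      rw [map_smul, del_kp, smul_smul, inv_mul_cancel₀, one_smul]
      exact_mod_cast Nat.succ_ne_zero N

/-- the equations for the kernel of `Ω + N + 2` in polynomial form -/
lemma om_coe (N : ℕ) (p : PX (N + 1) × PX (N + 1)) :
    (((SN (N + 1)).om p + ((N : ℂ) + 2) • p).1 : ℂ[X]) =
      2 * derivative (X * (p.1 : ℂ[X]) + (p.2 : ℂ[X])) ∧
    (((SN (N + 1)).om p + ((N : ℂ) + 2) • p).2 : ℂ[X]) =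
      2 * (C ((N : ℂ) + 1) * (X * (p.1 : ℂ[X]) + (p.2 : ℂ[X])) -
        X * derivative (X * (p.1 : ℂ[X]) + (p.2 : ℂ[X]))) := by
  have h2 : (C 2 : ℂ[X]) = 2 := rfl
  constructor
  · simp only [om_apply, Prod.fst_add, Prod.smul_fst, Submodule.coe_add, Submodule.coe_smul,
      qh_coe, qf_coe, ph_apply, smul_eq_C_mul, derivative_add, derivative_mul, derivative_X]
    push_cast
    simp only [C_add, C_sub, C_1, h2]
    ring
  · simp only [om_apply, Prod.snd_add, Prod.smul_snd, Submodule.coe_add, Submodule.coe_smul,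
      Submodule.coe_sub, qh_coe, qe_coe, pe_apply, ph_apply, smul_eq_C_mul, derivative_add,
      derivative_mul, derivative_X]
    push_cast
    simp only [C_add, C_sub, C_1, h2]
    ring

lemma kap_exact (N : ℕ) (x : (ℕ →₀ PX (N + 1)) × (PX (N + 1) × PX (N + 1)))
    (hx : thetaG (SN (N + 1)) ((N : ℂ) + 2) x = 0) : ∃ q : PX N, kap N q = x := by
  have h1 : x.1 = 0 := theta_inj _ _ (congrArg Prod.fst hx)
  have h2 : (SN (N + 1)).om x.2 + ((N : ℂ) + 2) • x.2 = 0 := by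
    have : -(SN (N + 1)).om x.2 - ((N : ℂ) + 2) • x.2 = 0 := congrArg Prod.snd hx
    rw [← neg_eq_zero, ← this]; abel
  obtain ⟨h3, h4⟩ := om_coe N x.2
  rw [h2] at h3 h4
  have h5 : derivative (X * (x.2.1 : ℂ[X]) + (x.2.2 : ℂ[X])) = 0 := by
    have : (2 : ℂ[X]) ≠ 0 := two_ne_zero
    have h3' : (2 : ℂ[X]) * derivative (X * (x.2.1 : ℂ[X]) + (x.2.2 : ℂ[X])) = 0 := h3.symm
    exact (mul_eq_zero.1 h3').resolve_left this
  rw [h5] at h4
  have h6 : X * (x.2.1 : ℂ[X]) + (x.2.2 : ℂ[X]) = 0 := by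
    have h4' : (2 : ℂ[X]) * (C ((N : ℂ) + 1) * (X * (x.2.1 : ℂ[X]) + (x.2.2 : ℂ[X])) - X * 0) = 0 :=
      h4.symm
    rw [mul_zero, sub_zero] at h4'
    have h7 := (mul_eq_zero.1 h4').resolve_left two_ne_zero
    refine (mul_eq_zero.1 h7).resolve_left (fun h => ?_)
    rw [C_eq_zero] at h
    exact absurd h (by exact_mod_cast Nat.succ_ne_zero N)
  have h7 : (x.2.1 : ℂ[X]) ∈ PX N := by
    rw [mem_PX]
    intro m hm
    have h8 := mem_PX.1 x.2.2.2 (m + 1) (by omega)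
    have h9 := congrArg (fun p => coeff p (m + 1)) h6
    simpa [h8] using h9
  refine ⟨⟨(x.2.1 : ℂ[X]), h7⟩, ?_⟩
  rw [kap_apply, kp_apply]
  refine Prod.ext h1.symm (Prod.ext (Subtype.ext ?_) (Subtype.ext ?_))
  · rw [qi_coe]
  · rw [Submodule.coe_neg, qx_coe]
    exact (eq_neg_of_add_eq_zero_right h6).symm

lemma piE_exact (N : ℕ) (j : ℤ) (hj : 0 ≤ j) (x : (G (SN (N + 1))).X)
    (hx : x ∈ (G (SN (N + 1))).F j) (h0 : piE N x = 0) :
    ∃ y ∈ (G ((SN (N + 1)).shift 1)).F j, thetaG (SN (N + 1)) ((N : ℂ) + 2) y = x := by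
  obtain ⟨φ, hφ, hφ'⟩ := (ex_theta (M := (SN (N + 1)).toVMod) (Y := ((N : ℂ) + 2) • LinearMap.id)
      (fun j x hx => cF_map _ (i' := 0) (j' := j + 1) (by omega) x hx)).exact j x.1 hx.1
      (congrArg Prod.fst h0)
  have h1 : qv1 N x.2.1 + qv2 N x.2.2 = 0 := congrArg Prod.snd h0
  have h2 : C (N : ℂ) * (x.2.1 : ℂ[X]) - X * derivative (x.2.1 : ℂ[X]) -
      derivative (x.2.2 : ℂ[X]) = 0 := by
    have := congrArg (fun p : PX N => (p : ℂ[X])) h1
    simp only [Submodule.coe_add, qv1_coe, qv2_coe, pv_apply] at this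
    rw [← sub_eq_add_neg] at this
    exact this
  set r : ℂ[X] := -(C (2 * ((N : ℂ) + 1))⁻¹) * ((x.2.2 : ℂ[X]) + X * (x.2.1 : ℂ[X])) with hr
  have hc : C (2 * ((N : ℂ) + 1))⁻¹ * (2 * (C (N : ℂ) + 1)) = (1 : ℂ[X]) := by
    have h2' : (2 : ℂ[X]) = C 2 := rfl
    rw [h2', ← C_1, ← C_add, ← C_mul, ← C_mul, inv_mul_cancel₀]
    have : (N : ℂ) + 1 ≠ 0 := by exact_mod_cast Nat.succ_ne_zero N
    exact mul_ne_zero two_ne_zero this
  have hrmem : ∀ m, N + 2 ≤ m → r.coeff m = 0 := by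
    intro m hm
    have a1 := mem_PX.1 x.2.2.2 m (by omega)
    obtain ⟨m, rfl⟩ : ∃ k, m = k + 1 := ⟨m - 1, by omega⟩
    have a2 := mem_PX.1 x.2.1.2 m (by omega)
    rw [hr, neg_mul, coeff_neg, coeff_C_mul, coeff_add, a1, coeff_X_mul, a2]
    simp
  have hc1 : r.divX ∈ PX (N + 1) := by
    rw [mem_PX]
    intro m hm
    rw [coeff_divX]
    exact hrmem _ (by omega)
  have hd1 : C (r.coeff 0) ∈ PX (N + 1) := by
    rw [mem_PX]
    intro m hm
    rw [coeff_C, if_neg (by omega)]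
  have hr2 : X * r.divX + C (r.coeff 0) = r := by
    rw [mul_comm]; exact divX_mul_X_add r
  obtain ⟨p, hp1, hp2⟩ : ∃ p : PX (N + 1) × PX (N + 1), (p.1 : ℂ[X]) = r.divX ∧
    (p.2 : ℂ[X]) = C (r.coeff 0) := ⟨(⟨r.divX, hc1⟩, ⟨C (r.coeff 0), hd1⟩), rfl, rfl⟩
  refine ⟨(φ, p), ⟨hφ, ?_⟩, Prod.ext hφ' ?_⟩
  · have : (((SN (N + 1)).shift 1)).F (j + 1) = ⊤ := cF_of_le (by omega)
    rw [this]
    exact ⟨trivial, trivial⟩
  · obtain ⟨a1, a2⟩ := om_coe N p
    rw [hp1, hp2, hr2] at a1 a2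
    have hdr : derivative r = -(C (2 * ((N : ℂ) + 1))⁻¹) * (derivative (x.2.2 : ℂ[X]) +
        ((x.2.1 : ℂ[X]) + X * derivative (x.2.1 : ℂ[X]))) := by
      rw [hr]
      simp [derivative_mul]
    have h3 : derivative (x.2.2 : ℂ[X]) =
      C (N : ℂ) * (x.2.1 : ℂ[X]) - X * derivative (x.2.1 : ℂ[X]) := by
      rw [← sub_eq_zero, ← neg_eq_zero, ← h2]; ring
    change -(SN (N + 1)).om p - ((N : ℂ) + 2) • p = x.2
    rw [← neg_add']
    refine Prod.ext (Subtype.ext ?_) (Subtype.ext ?_)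
    · rw [Prod.fst_neg, Submodule.coe_neg, a1, hdr, h3]
      linear_combination (x.2.1 : ℂ[X]) * hc
    · rw [Prod.snd_neg, Submodule.coe_neg, a2, hdr, h3, hr, C_add, C_1]
      linear_combination (x.2.2 : ℂ[X]) * hc

end exact

end Crest.Agent.R178
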