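import Crest.Agent.R178.Levels
import Crest.Agent.R178.PN2
import Crest.Agent.R178.FourTerm

/-!
# R178: the main induction: `pd P_N = 2 N + 2` for `N ≥ 1`
-/

set_option autoImplicit false

open CategoryTheory CategoryTheory.Abelian

namespace Crest.Agent.R178

lemma SN_const (N : ℕ) : IsConst (SN N).toVMod 0 where
  top := fun j hj x => by
    change x ∈ cF _ 0 j
    rw [cF_of_le hj]; trivial
  bot := fun j hj x hx => by
    have hx' : x ∈ cF (PX N) 0 j := hx
    rwa [cF_of_lt hj, Submodule.mem_bot] at hx'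

lemma SN_const1 (N : ℕ) : IsConst ((SN N).shift 1).toVMod 1 := by
  have := (SN_const N).shift
  exact_mod_cast this

instance PX_finite (N : ℕ) : Module.Finite ℂ (PX N) :=
  Module.Finite.of_basis (Polynomial.degreeLT.basis ℂ N)

instance SN_finite (N : ℕ) : Module.Finite ℂ (SN N).X := PX_finite N

instance PX_nontrivial (N : ℕ) : Nontrivial (PX (N + 1)) := by
  refine ⟨⟨⟨1, ?_⟩, 0, ?_⟩⟩
  · rw [mem_PX]
    intro m hm
    rw [Polynomial.coeff_one, if_neg (by omega)]
  · intro h
    have := congrArg Subtype.val h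
    exact one_ne_zero this

/-! ### the four term sequence of window modules -/

section four
variable (N : ℕ)

noncomputable abbrev C1 : UMod := G ((SN (N + 1)).shift 1)
noncomputable abbrev C0 : UMod := G (SN (N + 1))

noncomputable def wa : W (PU N) →ₗ[Lam] W (C1 N) := Wmap (kap N) (isU_kap N)
noncomputable def wb : W (C1 N) →ₗ[Lam] W (C0 N) :=
  Wmap (thetaG (SN (N + 1)) ((N : ℂ) + 2)) (isU_thetaG _ _)
noncomputable def wc : W (C0 N) →ₗ[Lam] W (EU N) := Wmap (piE N) (isU_piE N)

lemma kap_inj' (x y : PX N) (h : kap N x = kap N y) : x = y := by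
  have h2 : kap N (x - y) = 0 := (map_sub (kap N) x y).trans (sub_eq_zero.2 h)
  exact sub_eq_zero.1 (kap_inj N _ h2)

lemma wa_inj : Function.Injective (wa N) := by
  intro w w' h
  apply W_ext
  intro i
  exact kap_inj' N _ _ (congrArg Subtype.val (congrFun h i))

lemma wab_exact : Function.Exact (wa N) (wb N) := by
  intro w
  constructor
  · intro h
    have h1 : ∀ i, thetaG (SN (N + 1)) ((N : ℂ) + 2) (w i).1 = 0 := fun i =>
      congrArg Subtype.val (congrFun h i)
    choose q hq using fun i => kap_exact N (w i).1 (h1 i)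
    refine ⟨fun i => ⟨q i, ?_⟩, W_ext (fun i => hq i)⟩
    exact (SN_const N).top _ (by positivity) _
  · rintro ⟨q, rfl⟩
    exact W_ext (fun i => theta_kap N (q i).1)

lemma wbc_exact : Function.Exact (wb N) (wc N) := by
  intro w
  constructor
  · intro h
    have h1 : ∀ i, piE N (w i).1 = 0 := fun i =>
      congrArg Subtype.val (congrFun h i)
    choose y hy hy' using fun i : Fin 5 => piE_exact N _ (by positivity) (w i).1 (w i).2 (h1 i)
    exact ⟨fun i => ⟨y i, hy i⟩, W_ext (fun i => hy' i)⟩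
  · rintro ⟨q, rfl⟩
    exact W_ext (fun i => piE_theta N (q i).1)

lemma wc_surj : Function.Surjective (wc N) := by
  intro z
  choose x hx hx' using fun i : Fin 5 => piE_surj N (i : ℕ) (by positivity) (z i).1
  exact ⟨fun i => ⟨x i, hx i⟩, W_ext (fun i => hx' i)⟩

lemma pdC1 : pdLT (C1 N) 4 := by
  have : Module.Finite ℂ ((SN (N + 1)).shift 1).X := PX_finite (N + 1)
  exact pd3 _ 1 le_rfl (by exact_mod_cast SN_const1 (N + 1))

lemma pdC0 : pdLT (C0 N) 4 := pd3 _ 0 (by omega) (by exact_mod_cast SN_const (N + 1))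

lemma pdP0 (n : ℕ) : pdLT (PU 0) n := by
  have hz : Limits.IsZero (MW (PU 0)) := by
    have : Subsingleton (W (PU 0)) := by
      refine ⟨fun a b => W_ext (fun i => ?_)⟩
      apply Subtype.ext
      ext m
      rw [mem_PX.1 (a i).1.2 m (by omega), mem_PX.1 (b i).1.2 m (by omega)]
    exact ModuleCat.isZero_of_subsingleton _
  have h0 : HasProjectiveDimensionLT (MW (PU 0)) 0 := hz.hasProjectiveDimensionLT_zero
  exact hasProjectiveDimensionLT_of_ge _ 0 n (by omega)

end four

/-- `pd P_{N+1} = 2 N + 4` -/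
theorem pdP (N : ℕ) : pdLT (PU (N + 1)) (2 * N + 5) ∧ ¬ pdLT (PU (N + 1)) (2 * N + 4) := by
  induction N with
  | zero =>
    constructor
    · have hE : pdLT (EU 0) 5 :=
        four_up (wa 0) (wb 0) (wc 0) (wa_inj 0) (wab_exact 0) (wbc_exact 0) (wc_surj 0) 3
          (pdP0 3) (pdC1 0) ((pdC0 0).mono (by omega))
      exact pd₃ (isU_inr 0) (isU_fst 0) (exW_E 0) (pdP0 4) hE
    · intro h
      have hE : pdLT (EU 0) 4 := pd₂ (isU_inr 0) (isU_fst 0) (exW_E 0) (pdP0 4) h
      have hn : ¬ EZ (MW S4) (C1 0) 3 := by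
        have h1 : Module.Finite ℂ ((SN (0 + 1)).shift 1).X := PX_finite (0 + 1)
        have h2 : Nontrivial ((SN (0 + 1)).shift 1).X := PX_nontrivial 0
        exact nez3 _ (SN_const1 (0 + 1))
      apply hn
      exact four_ext (wa 0) (wb 0) (wc 0) (wa_inj 0) (wab_exact 0) (wbc_exact 0) (wc_surj 0)
        (MW S4) 3 (EZ_of_pdLT _ (pdP0 0) (by omega)) (ez3 _ (SN_const (0 + 1)))
        (EZ_of_pdLT _ hE le_rfl)
  | succ N ih =>
    constructor
    · have hE : pdLT (EU (N + 1)) (2 * N + 7) :=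
        four_up (wa (N + 1)) (wb (N + 1)) (wc (N + 1)) (wa_inj _) (wab_exact _) (wbc_exact _)
          (wc_surj _) (2 * N + 5) ih.1 ((pdC1 (N + 1)).mono (by omega))
          ((pdC0 (N + 1)).mono (by omega))
      have := pd₃ (n := 2 * N + 6) (isU_inr (N + 1)) (isU_fst (N + 1)) (exW_E (N + 1))
        (ih.1.mono (by omega)) hE
      rwa [show 2 * (N + 1) + 5 = 2 * N + 6 + 1 by ring]
    · intro h
      rw [show 2 * (N + 1) + 4 = 2 * N + 6 by ring] at h
      have hE : pdLT (EU (N + 1)) (2 * N + 6) :=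
        pd₂ (isU_inr (N + 1)) (isU_fst (N + 1)) (exW_E (N + 1)) (ih.1.mono (by omega)) h
      apply ih.2
      exact four_down (wa (N + 1)) (wb (N + 1)) (wc (N + 1)) (wa_inj _) (wab_exact _)
        (wbc_exact _) (wc_surj _) (2 * N + 4) hE ((pdC0 (N + 1)).mono (by omega))
        ((pdC1 (N + 1)).mono (by omega))

lemma W_finite (N : ℕ) : Module.Finite Lam (W (PU N)) := by
  have : Module.Finite ℂ (PX N) := PX_finite N
  let φ : W (PU N) →ₗ[ℂ] (Fin 5 → PX N) :=
    { toFun := fun w i => (w i).1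
      map_add' := fun x y => rfl
      map_smul' := fun r x => rfl }
  have h1 : Module.Finite ℂ (W (PU N)) :=
    Module.Finite.of_injective φ (fun x y hxy => W_ext (fun i => congrFun hxy i))
  exact Module.Finite.of_restrictScalars_finite ℂ Lam (W (PU N))

theorem main :
    ∃ (A : Type) (_ : Ring A) (_ : Algebra ℂ A), FiniteDimensional ℂ A ∧
      ∀ k : ℕ, ∃ N : ModuleCat.{0} A, Module.Finite A N ∧
        ¬ CategoryTheory.HasProjectiveDimensionLT N k ∧
        ∃ n : ℕ, CategoryTheory.HasProjectiveDimensionLT N n := by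
  refine ⟨Lam, inferInstance, inferInstance, Lam_finite, fun k => ?_⟩
  refine ⟨MW (PU (k + 1)), W_finite (k + 1), fun h => ?_, ⟨2 * k + 5, (pdP k).1⟩⟩
  exact (pdP k).2 (pdLT.mono h (by omega))

end Crest.Agent.R178
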