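import Crest.Agent.R178.Basic

/-!
# R178: the algebra `UU`, its filtration, the window algebra `Lam`, window modules `W M`
-/

set_option autoImplicit false

namespace Crest.Agent.R178

inductive Gen | t | h | e | f | v1 | v2

/-- the free algebra on the six generators -/
abbrev FA := FreeAlgebra ℂ Gen

/-- `x t` is the generator `t` etc. -/
noncomputable abbrev ge (g : Gen) : FA := FreeAlgebra.ι ℂ g

open Gen in
inductive Rel : FA → FA → Prop
  | th : Rel (ge t * ge h) (ge h * ge t)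
  | te : Rel (ge t * ge e) (ge e * ge t)
  | tf : Rel (ge t * ge f) (ge f * ge t)
  | he : Rel (ge h * ge e) (ge e * ge h + (2 : ℂ) • ge e)
  | hf : Rel (ge h * ge f) (ge f * ge h - (2 : ℂ) • ge f)
  | ef : Rel (ge e * ge f) (ge f * ge e + ge h)
  | tv1 : Rel (ge t * ge v1) (ge v1 * ge t - ge v1)
  | tv2 : Rel (ge t * ge v2) (ge v2 * ge t - ge v2)
  | hv1 : Rel (ge h * ge v1) (ge v1 * ge h + ge v1)
  | hv2 : Rel (ge h * ge v2) (ge v2 * ge h - ge v2)
  | ev1 : Rel (ge e * ge v1) (ge v1 * ge e)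
  | ev2 : Rel (ge e * ge v2) (ge v2 * ge e + ge v1)
  | fv1 : Rel (ge f * ge v1) (ge v1 * ge f + ge v2)
  | fv2 : Rel (ge f * ge v2) (ge v2 * ge f)
  | d1 : Rel (ge v1 * ge t + ge v1 * ge h + (2 : ℂ) • (ge v2 * ge e)) 0
  | d2 : Rel (ge v2 * ge t - ge v2 * ge h + (2 : ℂ) • (ge v1 * ge f)) 0
  | v11 : Rel (ge v1 * ge v1) 0
  | v12 : Rel (ge v1 * ge v2) 0
  | v21 : Rel (ge v2 * ge v1) 0
  | v22 : Rel (ge v2 * ge v2) 0

/-- the algebra `UU` -/
abbrev UU := RingQuot Rel

/-- the generators of `UU` -/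
noncomputable def gU (g : Gen) : UU := RingQuot.mkAlgHom ℂ Rel (FreeAlgebra.ι ℂ g)

lemma gU_rel {a b : FA} (h : Rel a b) : RingQuot.mkAlgHom ℂ Rel a = RingQuot.mkAlgHom ℂ Rel b :=
  RingQuot.mkAlgHom_rel ℂ h

/-- the operator of a generator -/
def UMod.op (M : UMod) : Gen → (M.X →ₗ[ℂ] M.X)
  | .t => M.t
  | .h => M.h
  | .e => M.e
  | .f => M.f
  | .v1 => M.v1
  | .v2 => M.v2

/-- every `UMod` is a module over `UU` -/
noncomputable def UMod.rho (M : UMod) : UU →ₐ[ℂ] Module.End ℂ M.X :=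
  RingQuot.liftAlgHom ℂ ⟨FreeAlgebra.lift ℂ M.op, by
    intro a b hab
    cases hab <;>
      simp only [map_mul, map_add, map_sub, map_smul, map_zero, FreeAlgebra.lift_ι_apply, UMod.op] <;>
      ext x <;>
      simp [M.th, M.te, M.tf, M.he, M.hf, M.ef, M.tv1, M.tv2, M.hv1, M.hv2, M.ev1, M.ev2,
        M.fv1, M.fv2, M.d1, M.d2, M.v11, M.v12, M.v21, M.v22]⟩

@[simp] lemma rho_gU (M : UMod) (g : Gen) : M.rho (gU g) = M.op g := by
  simp [UMod.rho, gU]

/-- induction principle for `UU` -/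
lemma UU_induction {P : UU → Prop} (hc : ∀ r : ℂ, P (algebraMap ℂ UU r)) (hg : ∀ g, P (gU g))
    (hadd : ∀ a b, P a → P b → P (a + b)) (hmul : ∀ a b, P a → P b → P (a * b)) (x : UU) : P x := by
  obtain ⟨y, rfl⟩ := RingQuot.mkAlgHom_surjective ℂ Rel x
  induction y using FreeAlgebra.induction with
  | grade0 r => simpa using hc r
  | grade1 g => exact hg g
  | mul a b ha hb => rw [map_mul]; exact hmul _ _ ha hb
  | add a b ha hb => rw [map_add]; exact hadd _ _ ha hb

/-- morphisms commute with the action of `UU` -/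
lemma IsU.rho {A B : UMod} {g : A.X →ₗ[ℂ] B.X} (hg : IsU A B g) (r : UU) (x : A.X) :
    g (A.rho r x) = B.rho r (g x) := by
  induction r using UU_induction generalizing x with
  | hc r => simp
  | hg y =>
    rw [rho_gU, rho_gU]
    cases y
    · exact hg.t x
    · exact hg.h x
    · exact hg.e x
    · exact hg.f x
    · exact hg.v1 x
    · exact hg.v2 x
  | hadd a b ha hb => simp [ha, hb]
  | hmul a b ha hb => simp [ha, hb]

/-- the filtration of `UU` (defined through all filtered modules) -/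
def Fil (m : ℤ) : Submodule ℂ UU where
  carrier := {r | ∀ M : UMod, ∀ j : ℤ, ∀ x ∈ M.F j, M.rho r x ∈ M.F (j + m)}
  zero_mem' := fun M j x _ => by simp
  add_mem' := fun {a b} ha hb M j x hx => by
    simpa using Submodule.add_mem _ (ha M j x hx) (hb M j x hx)
  smul_mem' := fun c a ha M j x hx => by
    simpa using Submodule.smul_mem _ c (ha M j x hx)

lemma Fil_mul {a b : ℤ} {x y : UU} (hx : x ∈ Fil a) (hy : y ∈ Fil b) : x * y ∈ Fil (a + b) := by
  intro M j m hm
  rw [map_mul, Module.End.mul_apply]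
  have := hx M _ _ (hy M j m hm)
  rwa [show j + b + a = j + (a + b) by ring] at this

lemma Fil_one : (1 : UU) ∈ Fil 0 := by
  intro M j m hm
  simpa using hm

lemma Fil_algebraMap (r : ℂ) : algebraMap ℂ UU r ∈ Fil 0 := by
  rw [Algebra.algebraMap_eq_smul_one]
  exact Submodule.smul_mem _ _ Fil_one

lemma Fil_mono (a : ℤ) : Fil a ≤ Fil (a + 1) := by
  intro x hx M j m hm
  have := M.mono _ (hx M j m hm)
  rwa [show j + a + 1 = j + (a + 1) by ring] at this

lemma Fil_t : gU .t ∈ Fil 1 := fun M j x hx => by rw [rho_gU]; exact M.Ft j x hx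
lemma Fil_h : gU .h ∈ Fil 1 := fun M j x hx => by rw [rho_gU]; exact M.Fh j x hx
lemma Fil_e : gU .e ∈ Fil 1 := fun M j x hx => by rw [rho_gU]; exact M.Fe j x hx
lemma Fil_f : gU .f ∈ Fil 1 := fun M j x hx => by rw [rho_gU]; exact M.Ff j x hx
lemma Fil_v1 : gU .v1 ∈ Fil (-1) := fun M j x hx => by
  rw [rho_gU]; exact M.Fv1 j x hx
lemma Fil_v2 : gU .v2 ∈ Fil (-1) := fun M j x hx => by
  rw [rho_gU]; exact M.Fv2 j x hx

/-- the window algebra -/
def Lam : Subalgebra ℂ (Matrix (Fin 5) (Fin 5) UU) where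
  carrier := {A | ∀ i j : Fin 5, A i j ∈ Fil ((i : ℕ) - (j : ℕ) : ℤ)}
  mul_mem' := fun {A B} hA hB i j => by
    rw [Matrix.mul_apply]
    refine Submodule.sum_mem _ (fun k _ => ?_)
    have := Fil_mul (hA i k) (hB k j)
    rwa [show ((i : ℕ) - (k : ℕ) : ℤ) + ((k : ℕ) - (j : ℕ) : ℤ) = ((i : ℕ) - (j : ℕ) : ℤ) by ring]
      at this
  add_mem' := fun {A B} hA hB i j => Submodule.add_mem _ (hA i j) (hB i j)
  algebraMap_mem' := fun r i j => by
    rw [Matrix.algebraMap_matrix_apply]
    split_ifs with h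
    · subst h
      simpa using Fil_algebraMap r
    · exact Submodule.zero_mem _

/-- the window module of a `UMod` -/
def W (M : UMod) : Type := (i : Fin 5) → M.F (i : ℕ)

noncomputable instance (M : UMod) : AddCommGroup (W M) :=
  inferInstanceAs (AddCommGroup ((i : Fin 5) → M.F (i : ℕ)))

noncomputable instance (M : UMod) : Module ℂ (W M) :=
  inferInstanceAs (Module ℂ ((i : Fin 5) → M.F (i : ℕ)))

lemma W_ext {M : UMod} {w w' : W M} (h : ∀ i, (w i).1 = (w' i).1) : w = w' := by
  funext i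
  exact Subtype.ext (h i)

@[simp] lemma W_add (M : UMod) (w w' : W M) (i : Fin 5) :
    ((w + w') i).1 = (w i).1 + (w' i).1 := rfl

@[simp] lemma W_zero (M : UMod) (i : Fin 5) : ((0 : W M) i).1 = 0 := rfl

@[simp] lemma W_smul (M : UMod) (r : ℂ) (w : W M) (i : Fin 5) :
    ((r • w) i).1 = r • (w i).1 := rfl

noncomputable instance (M : UMod) : SMul Lam (W M) where
  smul A w := fun i => ⟨∑ j, M.rho (A.1 i j) (w j).1, Submodule.sum_mem _ (fun j _ => by
    have := A.2 i j M _ _ (w j).2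
    rwa [show ((j : ℕ) : ℤ) + ((i : ℕ) - (j : ℕ) : ℤ) = (i : ℕ) by ring] at this)⟩

lemma smul_W_apply (M : UMod) (A : Lam) (w : W M) (i : Fin 5) :
    ((A • w) i).1 = ∑ j, M.rho (A.1 i j) (w j).1 := rfl

noncomputable instance (M : UMod) : Module Lam (W M) where
  one_smul w := by
    apply W_ext
    intro i
    rw [smul_W_apply, Finset.sum_eq_single i]
    · simp
    · intro j _ hj
      have : (1 : Lam).1 i j = 0 := by
        simpa using Matrix.one_apply_ne (Ne.symm hj)
      simp [this]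
    · simp
  mul_smul A B w := by
    apply W_ext
    intro i
    simp only [smul_W_apply]
    have h1 : ∀ j, (A * B).1 i j = ∑ k, A.1 i k * B.1 k j := fun j => by
      simp [Matrix.mul_apply]
    simp only [h1, map_sum, map_mul, LinearMap.sum_apply, Module.End.mul_apply]
    rw [Finset.sum_comm]
  smul_zero A := by
    apply W_ext
    intro i
    simp [smul_W_apply]
  smul_add A w w' := by
    apply W_ext
    intro i
    simp [smul_W_apply, Finset.sum_add_distrib]
  add_smul A B w := by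
    apply W_ext
    intro i
    simp [smul_W_apply, Finset.sum_add_distrib]
  zero_smul w := by
    apply W_ext
    intro i
    simp [smul_W_apply]

instance (M : UMod) : IsScalarTower ℂ Lam (W M) where
  smul_assoc r A w := by
    apply W_ext
    intro i
    simp [smul_W_apply, Finset.smul_sum]

/-- functoriality of `W` -/
noncomputable def Wmap {A B : UMod} (g : A.X →ₗ[ℂ] B.X) (hg : IsU A B g) : W A →ₗ[Lam] W B where
  toFun w := fun i => ⟨g (w i).1, hg.F _ _ (w i).2⟩
  map_add' w w' := by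
    apply W_ext
    intro i
    simp
  map_smul' a w := by
    apply W_ext
    intro i
    simp [smul_W_apply, hg.rho]

lemma Wmap_apply {A B : UMod} (g : A.X →ₗ[ℂ] B.X) (hg : IsU A B g) (w : W A) (i : Fin 5) :
    (Wmap g hg w i).1 = g (w i).1 := rfl

end Crest.Agent.R178
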