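import Crest.Agent.R178.UU

/-!
# R178: `UU` as a filtered module over itself; shifts of `UMod`
-/

set_option autoImplicit false

namespace Crest.Agent.R178

lemma rel_th : gU .t * gU .h = (gU .h * gU .t : UU) := by
  simpa only [gU, map_mul, map_add, map_sub, map_smul, map_zero] using gU_rel Rel.th

lemma rel_te : gU .t * gU .e = (gU .e * gU .t : UU) := by
  simpa only [gU, map_mul, map_add, map_sub, map_smul, map_zero] using gU_rel Rel.te

lemma rel_tf : gU .t * gU .f = (gU .f * gU .t : UU) := by
  simpa only [gU, map_mul, map_add, map_sub, map_smul, map_zero] using gU_rel Rel.tf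

lemma rel_he : gU .h * gU .e = (gU .e * gU .h + (2 : ℂ) • gU .e : UU) := by
  simpa only [gU, map_mul, map_add, map_sub, map_smul, map_zero] using gU_rel Rel.he

lemma rel_hf : gU .h * gU .f = (gU .f * gU .h - (2 : ℂ) • gU .f : UU) := by
  simpa only [gU, map_mul, map_add, map_sub, map_smul, map_zero] using gU_rel Rel.hf

lemma rel_ef : gU .e * gU .f = (gU .f * gU .e + gU .h : UU) := by
  simpa only [gU, map_mul, map_add, map_sub, map_smul, map_zero] using gU_rel Rel.ef

lemma rel_tv1 : gU .t * gU .v1 = (gU .v1 * gU .t - gU .v1 : UU) := by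
  simpa only [gU, map_mul, map_add, map_sub, map_smul, map_zero] using gU_rel Rel.tv1

lemma rel_tv2 : gU .t * gU .v2 = (gU .v2 * gU .t - gU .v2 : UU) := by
  simpa only [gU, map_mul, map_add, map_sub, map_smul, map_zero] using gU_rel Rel.tv2

lemma rel_hv1 : gU .h * gU .v1 = (gU .v1 * gU .h + gU .v1 : UU) := by
  simpa only [gU, map_mul, map_add, map_sub, map_smul, map_zero] using gU_rel Rel.hv1

lemma rel_hv2 : gU .h * gU .v2 = (gU .v2 * gU .h - gU .v2 : UU) := by
  simpa only [gU, map_mul, map_add, map_sub, map_smul, map_zero] using gU_rel Rel.hv2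

lemma rel_ev1 : gU .e * gU .v1 = (gU .v1 * gU .e : UU) := by
  simpa only [gU, map_mul, map_add, map_sub, map_smul, map_zero] using gU_rel Rel.ev1

lemma rel_ev2 : gU .e * gU .v2 = (gU .v2 * gU .e + gU .v1 : UU) := by
  simpa only [gU, map_mul, map_add, map_sub, map_smul, map_zero] using gU_rel Rel.ev2

lemma rel_fv1 : gU .f * gU .v1 = (gU .v1 * gU .f + gU .v2 : UU) := by
  simpa only [gU, map_mul, map_add, map_sub, map_smul, map_zero] using gU_rel Rel.fv1

lemma rel_fv2 : gU .f * gU .v2 = (gU .v2 * gU .f : UU) := by
  simpa only [gU, map_mul, map_add, map_sub, map_smul, map_zero] using gU_rel Rel.fv2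

lemma rel_d1 : gU .v1 * gU .t + gU .v1 * gU .h + (2 : ℂ) • (gU .v2 * gU .e) = (0 : UU) := by
  simpa only [gU, map_mul, map_add, map_sub, map_smul, map_zero] using gU_rel Rel.d1

lemma rel_d2 : gU .v2 * gU .t - gU .v2 * gU .h + (2 : ℂ) • (gU .v1 * gU .f) = (0 : UU) := by
  simpa only [gU, map_mul, map_add, map_sub, map_smul, map_zero] using gU_rel Rel.d2

lemma rel_v11 : gU .v1 * gU .v1 = (0 : UU) := by
  simpa only [gU, map_mul, map_add, map_sub, map_smul, map_zero] using gU_rel Rel.v11

lemma rel_v12 : gU .v1 * gU .v2 = (0 : UU) := by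
  simpa only [gU, map_mul, map_add, map_sub, map_smul, map_zero] using gU_rel Rel.v12

lemma rel_v21 : gU .v2 * gU .v1 = (0 : UU) := by
  simpa only [gU, map_mul, map_add, map_sub, map_smul, map_zero] using gU_rel Rel.v21

lemma rel_v22 : gU .v2 * gU .v2 = (0 : UU) := by
  simpa only [gU, map_mul, map_add, map_sub, map_smul, map_zero] using gU_rel Rel.v22

/-- `UU` as a filtered module over itself -/
noncomputable abbrev UUm : UMod where
  X := UU
  F := Fil
  mono := Fil_mono
  t := LinearMap.mulLeft ℂ (gU .t)
  h := LinearMap.mulLeft ℂ (gU .h)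
  e := LinearMap.mulLeft ℂ (gU .e)
  f := LinearMap.mulLeft ℂ (gU .f)
  v1 := LinearMap.mulLeft ℂ (gU .v1)
  v2 := LinearMap.mulLeft ℂ (gU .v2)
  Ft := fun j x hx => by rw [add_comm]; exact Fil_mul Fil_t hx
  Fh := fun j x hx => by rw [add_comm]; exact Fil_mul Fil_h hx
  Fe := fun j x hx => by rw [add_comm]; exact Fil_mul Fil_e hx
  Ff := fun j x hx => by rw [add_comm]; exact Fil_mul Fil_f hx
  Fv1 := fun j x hx => by
    rw [show j - 1 = -1 + j by ring]; exact Fil_mul Fil_v1 hx
  Fv2 := fun j x hx => by
    rw [show j - 1 = -1 + j by ring]; exact Fil_mul Fil_v2 hx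
  th := fun x => by
    have := congrArg (fun r => r * x) rel_th
    simpa only [LinearMap.mulLeft_apply, mul_assoc, add_mul, sub_mul, smul_mul_assoc, zero_mul] using this
  te := fun x => by
    have := congrArg (fun r => r * x) rel_te
    simpa only [LinearMap.mulLeft_apply, mul_assoc, add_mul, sub_mul, smul_mul_assoc, zero_mul] using this
  tf := fun x => by
    have := congrArg (fun r => r * x) rel_tf
    simpa only [LinearMap.mulLeft_apply, mul_assoc, add_mul, sub_mul, smul_mul_assoc, zero_mul] using this
  he := fun x => by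
    have := congrArg (fun r => r * x) rel_he
    simpa only [LinearMap.mulLeft_apply, mul_assoc, add_mul, sub_mul, smul_mul_assoc, zero_mul] using this
  hf := fun x => by
    have := congrArg (fun r => r * x) rel_hf
    simpa only [LinearMap.mulLeft_apply, mul_assoc, add_mul, sub_mul, smul_mul_assoc, zero_mul] using this
  ef := fun x => by
    have := congrArg (fun r => r * x) rel_ef
    simpa only [LinearMap.mulLeft_apply, mul_assoc, add_mul, sub_mul, smul_mul_assoc, zero_mul] using this
  tv1 := fun x => by
    have := congrArg (fun r => r * x) rel_tv1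
    simpa only [LinearMap.mulLeft_apply, mul_assoc, add_mul, sub_mul, smul_mul_assoc, zero_mul] using this
  tv2 := fun x => by
    have := congrArg (fun r => r * x) rel_tv2
    simpa only [LinearMap.mulLeft_apply, mul_assoc, add_mul, sub_mul, smul_mul_assoc, zero_mul] using this
  hv1 := fun x => by
    have := congrArg (fun r => r * x) rel_hv1
    simpa only [LinearMap.mulLeft_apply, mul_assoc, add_mul, sub_mul, smul_mul_assoc, zero_mul] using this
  hv2 := fun x => by
    have := congrArg (fun r => r * x) rel_hv2
    simpa only [LinearMap.mulLeft_apply, mul_assoc, add_mul, sub_mul, smul_mul_assoc, zero_mul] using this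
  ev1 := fun x => by
    have := congrArg (fun r => r * x) rel_ev1
    simpa only [LinearMap.mulLeft_apply, mul_assoc, add_mul, sub_mul, smul_mul_assoc, zero_mul] using this
  ev2 := fun x => by
    have := congrArg (fun r => r * x) rel_ev2
    simpa only [LinearMap.mulLeft_apply, mul_assoc, add_mul, sub_mul, smul_mul_assoc, zero_mul] using this
  fv1 := fun x => by
    have := congrArg (fun r => r * x) rel_fv1
    simpa only [LinearMap.mulLeft_apply, mul_assoc, add_mul, sub_mul, smul_mul_assoc, zero_mul] using this
  fv2 := fun x => by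
    have := congrArg (fun r => r * x) rel_fv2
    simpa only [LinearMap.mulLeft_apply, mul_assoc, add_mul, sub_mul, smul_mul_assoc, zero_mul] using this
  d1 := fun x => by
    have := congrArg (fun r => r * x) rel_d1
    simpa only [LinearMap.mulLeft_apply, mul_assoc, add_mul, sub_mul, smul_mul_assoc, zero_mul] using this
  d2 := fun x => by
    have := congrArg (fun r => r * x) rel_d2
    simpa only [LinearMap.mulLeft_apply, mul_assoc, add_mul, sub_mul, smul_mul_assoc, zero_mul] using this
  v11 := fun x => by
    have := congrArg (fun r => r * x) rel_v11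
    simpa only [LinearMap.mulLeft_apply, mul_assoc, add_mul, sub_mul, smul_mul_assoc, zero_mul] using this
  v12 := fun x => by
    have := congrArg (fun r => r * x) rel_v12
    simpa only [LinearMap.mulLeft_apply, mul_assoc, add_mul, sub_mul, smul_mul_assoc, zero_mul] using this
  v21 := fun x => by
    have := congrArg (fun r => r * x) rel_v21
    simpa only [LinearMap.mulLeft_apply, mul_assoc, add_mul, sub_mul, smul_mul_assoc, zero_mul] using this
  v22 := fun x => by
    have := congrArg (fun r => r * x) rel_v22
    simpa only [LinearMap.mulLeft_apply, mul_assoc, add_mul, sub_mul, smul_mul_assoc, zero_mul] using this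

lemma rho_UUm (r x : UU) : UUm.rho r x = r * x := by
  induction r using UU_induction generalizing x with
  | hc c => simp [Algebra.smul_def]
  | hg y => rw [rho_gU]; cases y <;> rfl
  | hadd a b ha hb => simp [ha, hb, add_mul]
  | hmul a b ha hb => simp [ha, hb, mul_assoc]

abbrev UMod.shift (M : UMod) (i : ℤ) : UMod where
  toSMod := M.toSMod.shift i
  t := M.t
  v1 := M.v1
  v2 := M.v2
  Ft := fun j x hx => by
    have := M.Ft (j - i) x hx
    rwa [show j - i + 1 = j + 1 - i by ring] at this
  Fv1 := fun j x hx => by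
    have := M.Fv1 (j - i) x hx
    rwa [show j - i - 1 = j - 1 - i by ring] at this
  Fv2 := fun j x hx => by
    have := M.Fv2 (j - i) x hx
    rwa [show j - i - 1 = j - 1 - i by ring] at this
  th := M.th
  te := M.te
  tf := M.tf
  tv1 := M.tv1
  tv2 := M.tv2
  hv1 := M.hv1
  hv2 := M.hv2
  ev1 := M.ev1
  ev2 := M.ev2
  fv1 := M.fv1
  fv2 := M.fv2
  d1 := M.d1
  d2 := M.d2
  v11 := M.v11
  v12 := M.v12
  v21 := M.v21
  v22 := M.v22

lemma rho_UUm_shift (i : ℤ) (r x : UU) : (UUm.shift i).rho r x = r * x := rho_UUm r x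

end Crest.Agent.R178
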